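import Mathlib

/-! Finite averages over lists of independent uniform samples; abstract delay estimates. -/

set_option autoImplicit false

namespace Crest.Agent.H5.SAT

open Finset

/-- uniform average -/
noncomputable def av {X : Type*} [Fintype X] (f : X → ℝ) : ℝ := (∑ x, f x) / Fintype.card X

/-- average over lists of `m` independent uniform samples -/
noncomputable def EL (X : Type*) [Fintype X] : ℕ → (List X → ℝ) → ℝ
  | 0, f => f []
  | m + 1, f => av fun x : X => EL X m (fun l => f (x :: l))

section basic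
variable {X Y : Type*} [Fintype X] [Fintype Y]

lemma av_mono {f g : X → ℝ} (h : ∀ x, f x ≤ g x) : av f ≤ av g :=
  div_le_div_of_nonneg_right (sum_le_sum fun x _ => h x) (Nat.cast_nonneg _)

lemma av_add (f g : X → ℝ) : av (fun x => f x + g x) = av f + av g := by
  simp [av, sum_add_distrib, add_div]

lemma av_sub (f g : X → ℝ) : av (fun x => f x - g x) = av f - av g := by
  simp [av, sum_sub_distrib, sub_div]

lemma av_mul_left (c : ℝ) (f : X → ℝ) : av (fun x => c * f x) = c * av f := by
  simp [av, ← mul_sum, mul_div_assoc]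

lemma av_mul_right (c : ℝ) (f : X → ℝ) : av (fun x => f x * c) = av f * c := by
  simp [av, ← sum_mul, div_mul_eq_mul_div]

lemma av_const [Nonempty X] (c : ℝ) : av (fun _ : X => c) = c := by
  have : (Fintype.card X : ℝ) ≠ 0 := by exact_mod_cast Fintype.card_ne_zero
  simp [av]

lemma av_nonneg {f : X → ℝ} (h : ∀ x, 0 ≤ f x) : 0 ≤ av f :=
  div_nonneg (sum_nonneg fun x _ => h x) (Nat.cast_nonneg _)

lemma av_sum {ι : Type*} (s : Finset ι) (f : ι → X → ℝ) :
    av (fun x => ∑ i ∈ s, f i x) = ∑ i ∈ s, av (f i) := by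
  simp only [av]; rw [sum_comm, sum_div]

lemma av_comm (f : X → Y → ℝ) : av (fun x => av (f x)) = av (fun y => av (fun x => f x y)) := by
  simp only [av, ← sum_div]; rw [sum_comm, div_div, div_div, mul_comm]

lemma av_sq [Nonempty X] (f : X → ℝ) : (av f) ^ 2 ≤ av (fun x => f x ^ 2) := by
  have h := av_nonneg (f := fun x => (f x - av f) ^ 2) (fun x => sq_nonneg _)
  have e : (fun x => (f x - av f) ^ 2) = fun x => (f x ^ 2 - (2 * av f) * f x) + (av f) ^ 2 := by
    funext x; ring
  rw [e, av_add, av_sub, av_mul_left, av_const] at h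
  nlinarith

lemma EL_mono : ∀ (m : ℕ) {f g : List X → ℝ}, (∀ l, l.length = m → f l ≤ g l) → EL X m f ≤ EL X m g
  | 0, _, _, h => h [] rfl
  | m + 1, _, _, h => av_mono fun x => EL_mono m fun l hl => h (x :: l) (by simp [hl])

lemma EL_congr (m : ℕ) {f g : List X → ℝ} (h : ∀ l, l.length = m → f l = g l) :
    EL X m f = EL X m g :=
  le_antisymm (EL_mono m fun l hl => (h l hl).le) (EL_mono m fun l hl => (h l hl).ge)

lemma EL_add : ∀ (m : ℕ) (f g : List X → ℝ), EL X m (fun l => f l + g l) = EL X m f + EL X m g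
  | 0, _, _ => rfl
  | m + 1, f, g => by
    simp only [EL]; rw [← av_add]; congr 1; funext x; exact EL_add m _ _

lemma EL_mul_left : ∀ (m : ℕ) (c : ℝ) (f : List X → ℝ), EL X m (fun l => c * f l) = c * EL X m f
  | 0, _, _ => rfl
  | m + 1, c, f => by
    simp only [EL]; rw [← av_mul_left]; congr 1; funext x; exact EL_mul_left m _ _

lemma EL_mul_right (m : ℕ) (c : ℝ) (f : List X → ℝ) :
    EL X m (fun l => f l * c) = EL X m f * c := by
  simp only [mul_comm _ c]; exact EL_mul_left m c f

lemma EL_sub (m : ℕ) (f g : List X → ℝ) : EL X m (fun l => f l - g l) = EL X m f - EL X m g := by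
  have := EL_add m f (fun l => (-1) * g l)
  rw [EL_mul_left] at this
  simp only [sub_eq_add_neg]; simpa using this

lemma EL_const [Nonempty X] : ∀ (m : ℕ) (c : ℝ), EL X m (fun _ => c) = c
  | 0, _ => rfl
  | m + 1, c => by simp only [EL, EL_const m c, av_const]

lemma EL_zero (m : ℕ) : EL X m (fun _ => 0) = 0 := by
  have := EL_mul_left (X := X) m 0 (fun _ => 0); simpa using this

lemma EL_nonneg (m : ℕ) {f : List X → ℝ} (h : ∀ l, l.length = m → 0 ≤ f l) : 0 ≤ EL X m f := by
  rw [← EL_zero (X := X) m]; exact EL_mono m h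

lemma EL_sum {ι : Type*} (m : ℕ) (s : Finset ι) (f : ι → List X → ℝ) :
    EL X m (fun l => ∑ i ∈ s, f i l) = ∑ i ∈ s, EL X m (f i) := by
  classical
  induction s using Finset.induction_on with
  | empty => simp [EL_zero]
  | insert a s ha ih => simp only [sum_insert ha]; rw [EL_add, ih]

lemma EL_av (m : ℕ) (f : Y → List X → ℝ) :
    EL X m (fun l => av fun y => f y l) = av fun y => EL X m (f y) := by
  simp only [av, div_eq_mul_inv]; rw [EL_mul_right, EL_sum]

lemma EL_comm (m : ℕ) : ∀ (n : ℕ) (f : List X → List Y → ℝ),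
    EL X m (fun l => EL Y n (f l)) = EL Y n (fun l' => EL X m (fun l => f l l'))
  | 0, _ => rfl
  | n + 1, f => by
    simp only [EL]; rw [EL_av]; congr 1; funext y; exact EL_comm m n _

lemma EL_append : ∀ (m n : ℕ) (f : List X → ℝ),
    EL X (m + n) f = EL X m (fun l => EL X n (fun l' => f (l ++ l')))
  | 0, n, f => by simp [EL]
  | m + 1, n, f => by
    rw [show m + 1 + n = (m + n) + 1 by ring]
    simp only [EL]; congr 1; funext x; exact EL_append m n _

lemma EL_take [Nonempty X] {m n : ℕ} (h : m ≤ n) (f : List X → ℝ) :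
    EL X n (fun l => f (l.take m)) = EL X m f := by
  obtain ⟨r, rfl⟩ := Nat.exists_eq_add_of_le h
  rw [EL_append]
  refine EL_congr m fun l hl => ?_
  have : ∀ l' : List X, (l ++ l').take m = l := fun l' => by rw [← hl]; simp
  simp only [this, EL_const]

lemma EL_sq [Nonempty X] : ∀ (m : ℕ) (f : List X → ℝ), (EL X m f) ^ 2 ≤ EL X m (fun l => f l ^ 2)
  | 0, _ => le_rfl
  | m + 1, _ => (av_sq _).trans (av_mono fun _ => EL_sq m _)

end basic

section cost
variable {Ω : Type*}

open Classical in
/-- indicator that the cost function `h` has a value `≤ k` -/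
noncomputable def al (k : ℕ) (h : Ω → ℕ) : ℝ := if ∃ σ, h σ ≤ k then 1 else 0

lemma al_nonneg (k : ℕ) (h : Ω → ℕ) : 0 ≤ al k h := by unfold al; split_ifs <;> norm_num
lemma al_le_one (k : ℕ) (h : Ω → ℕ) : al k h ≤ 1 := by unfold al; split_ifs <;> norm_num
lemma al_cases (k : ℕ) (h : Ω → ℕ) : al k h = 0 ∨ al k h = 1 := by
  unfold al; split_ifs <;> simp

lemma al_anti (k : ℕ) {h h' : Ω → ℕ} (hh : h ≤ h') : al k h' ≤ al k h := by
  unfold al
  by_cases h1 : ∃ σ, h' σ ≤ k
  · obtain ⟨σ, hσ⟩ := h1
    rw [if_pos ⟨σ, hσ⟩, if_pos ⟨σ, (hh σ).trans hσ⟩]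
  · rw [if_neg h1]; split_ifs <;> norm_num

/-- total cost of a list -/
def cs {X : Type*} (v : X → Ω → ℕ) (l : List X) : Ω → ℕ := (l.map v).sum

@[simp] lemma cs_nil {X : Type*} (v : X → Ω → ℕ) : cs v [] = 0 := rfl
@[simp] lemma cs_cons {X : Type*} (v : X → Ω → ℕ) (x : X) (l : List X) :
    cs v (x :: l) = v x + cs v l := by simp [cs]
@[simp] lemma cs_append {X : Type*} (v : X → Ω → ℕ) (l l' : List X) :
    cs v (l ++ l') = cs v l + cs v l' := by simp [cs]

lemma cs_take_le {X : Type*} (v : X → Ω → ℕ) (l : List X) (m : ℕ) : cs v (l.take m) ≤ cs v l := by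
  conv_rhs => rw [← List.take_append_drop m l]
  rw [cs_append]; exact le_self_add

lemma cs_take_mono {X : Type*} (v : X → Ω → ℕ) (l : List X) {m n : ℕ} (h : m ≤ n) :
    cs v (l.take m) ≤ cs v (l.take n) := by
  have := cs_take_le v (l.take n) m
  rwa [List.take_take, min_eq_left h] at this

variable {A D : Type*} [Fintype A] [Fintype D] [Nonempty A] [Nonempty D]

/-- probability that a random clause kills an alive cost function -/
noncomputable def KK (v : A → Ω → ℕ) (k : ℕ) (h : Ω → ℕ) : ℝ := al k h - av fun x => al k (h + v x)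

lemma KK_nonneg (v : A → Ω → ℕ) (k : ℕ) (h : Ω → ℕ) : 0 ≤ KK v k h := by
  have : av (fun x => al k (h + v x)) ≤ av (fun _ : A => al k h) :=
    av_mono fun x => al_anti k le_self_add
  rw [av_const] at this; unfold KK; linarith

omit [Nonempty A] in
lemma KK_le (v : A → Ω → ℕ) (k : ℕ) (h : Ω → ℕ) : KK v k h ≤ al k h := by
  have := av_nonneg (f := fun x => al k (h + v x)) fun x => al_nonneg _ _
  unfold KK; linarith

omit [Nonempty A] in
lemma EL_KK (v : A → Ω → ℕ) (k : ℕ) : ∀ (μ : ℕ) (h : Ω → ℕ),
    EL A μ (fun a => KK v k (h + cs v a)) =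
      EL A μ (fun a => al k (h + cs v a)) - EL A (μ + 1) (fun a => al k (h + cs v a))
  | 0, h => by simp [EL, KK]
  | μ + 1, h => by
    have e : ∀ x : A, EL A μ (fun l => KK v k (h + cs v (x :: l))) =
        EL A μ (fun l => al k (h + cs v (x :: l))) -
          EL A (μ + 1) (fun l => al k (h + cs v (x :: l))) := fun x => by
      simp only [cs_cons, ← add_assoc]; exact EL_KK v k μ (h + v x)
    rw [EL, EL, EL]; simp only [e]; rw [av_sub]

omit [Nonempty A] in
lemma hazard (v : A → Ω → ℕ) (k L : ℕ) (h : Ω → ℕ) :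
    ∑ μ ∈ range L, EL A μ (fun a => KK v k (h + cs v a)) ≤ 1 := by
  simp only [EL_KK]
  rw [sum_range_sub' (fun μ => EL A μ (fun a => al k (h + cs v a)))]
  have h1 : EL A 0 (fun a => al k (h + cs v a)) ≤ 1 := al_le_one _ _
  have h2 := EL_nonneg (X := A) L (f := fun a => al k (h + cs v a)) fun _ _ => al_nonneg _ _
  linarith

lemma survival (v : A → Ω → ℕ) (k : ℕ) : ∀ (s : ℕ) (h : Ω → ℕ),
    EL A s (fun a => al k (h + cs v a)) ≤ al k h * (1 - KK v k h) ^ s
  | 0, h => by simp [EL]
  | s + 1, h => by
    have e : ∀ x : A, EL A s (fun l => al k (h + cs v (x :: l))) ≤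
        al k (h + v x) * (1 - KK v k h) ^ s := fun x => by
      simp only [cs_cons, ← add_assoc]
      refine (survival v k s (h + v x)).trans ?_
      rcases al_cases k (h + v x) with h0 | h1
      · simp [h0]
      · rw [h1, one_mul, one_mul]
        have h2 : al k h = 1 := le_antisymm (al_le_one _ _) (h1 ▸ al_anti k le_self_add)
        refine pow_le_pow_left₀ ?_ ?_ s
        · have := KK_le v k (h + v x); linarith
        · have : av (fun y => al k (h + v x + v y)) ≤ av (fun y => al k (h + v y)) :=
            av_mono fun y => al_anti k (by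
              rw [add_right_comm]; exact le_self_add)
          unfold KK; linarith
    rw [EL]
    refine (av_mono e).trans ?_
    rw [av_mul_right]
    have h3 : av (fun x => al k (h + v x)) = al k h * (1 - KK v k h) := by
      rcases al_cases k h with h0 | h1
      · have a1 := KK_nonneg v k h
        have a2 := KK_le v k h
        have : KK v k h = 0 := by linarith
        unfold KK at this; rw [h0] at this ⊢; linarith
      · unfold KK; rw [h1]; ring
    rw [h3, pow_succ]; apply le_of_eq; ring

/-- one step delay -/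
lemma single (v : A → Ω → ℕ) (w : D → Ω → ℕ) (k s : ℕ) (κ η : ℝ) (hκ : 0 ≤ κ)
    (H : ∀ h, KK w k h ^ 2 * (1 - KK v k h) ^ s ≤ κ * KK v k h + η)
    (α L : ℕ) (hL : L + s ≤ α + 1) (h : Ω → ℕ) :
    ∑ μ ∈ range L, EL A α (fun a =>
      (al k (h + cs v (a.take (μ + s))) * KK w k (h + cs v (a.take μ))) ^ 2) ≤ κ + η * L := by
  have key : ∀ μ ∈ range L, EL A α (fun a =>
      (al k (h + cs v (a.take (μ + s))) * KK w k (h + cs v (a.take μ))) ^ 2) ≤
      κ * EL A μ (fun a => KK v k (h + cs v a)) + η := by
    intro μ hμ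
    have hμ' : μ + s ≤ α := by have := mem_range.1 hμ; omega
    have e1 := EL_take (X := A) hμ' (fun a =>
      (al k (h + cs v a) * KK w k (h + cs v (a.take μ))) ^ 2)
    simp only [List.take_take, min_eq_left (Nat.le_add_right μ s)] at e1
    rw [e1, EL_append, ← EL_mul_left, ← EL_const (X := A) μ η, ← EL_add]
    refine EL_mono μ fun l hl => ?_
    have e2 : ∀ l' : List A, (l ++ l').take μ = l := fun l' => by rw [← hl]; simp
    simp only [e2, cs_append, ← add_assoc]
    have e3 : ∀ l' : List A, (al k (h + cs v l + cs v l') * KK w k (h + cs v l)) ^ 2 =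
        KK w k (h + cs v l) ^ 2 * al k (h + cs v l + cs v l') := fun l' => by
      rcases al_cases k (h + cs v l + cs v l') with h0 | h0 <;> simp [h0]
    simp only [e3]
    rw [EL_mul_left]
    refine le_trans ?_ (H (h + cs v l))
    refine mul_le_mul_of_nonneg_left ((survival v k s _).trans ?_) (sq_nonneg _)
    have a1 := KK_le v k (h + cs v l)
    have a2 := al_le_one k (h + cs v l)
    exact mul_le_of_le_one_left (pow_nonneg (by linarith) _) a2
  refine (sum_le_sum key).trans ?_
  rw [sum_add_distrib, ← mul_sum, sum_const, card_range, nsmul_eq_mul, mul_comm (L : ℝ)]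
  have := mul_le_mul_of_nonneg_left (hazard v k L h) hκ
  linarith

/-- probability that a family of `β` random `D`-clauses kills -/
noncomputable def qq (w : D → Ω → ℕ) (k β : ℕ) (h : Ω → ℕ) : ℝ :=
  EL D β (fun l => 1 - al k (h + cs w l))

omit [Nonempty D] in
lemma qq_nonneg (w : D → Ω → ℕ) (k β : ℕ) (h : Ω → ℕ) : 0 ≤ qq w k β h :=
  EL_nonneg β fun _ _ => sub_nonneg.2 (al_le_one _ _)

lemma qq_le_one (w : D → Ω → ℕ) (k β : ℕ) (h : Ω → ℕ) : qq w k β h ≤ 1 := by
  rw [← EL_const (X := D) β 1]
  exact EL_mono β fun _ _ => by have := al_nonneg k (h + cs w ‹_›); linarith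

lemma family (v : A → Ω → ℕ) (w : D → Ω → ℕ) (k s : ℕ) (κ η : ℝ) (hκ : 0 ≤ κ) (hη : 0 ≤ η)
    (H : ∀ h, KK w k h ^ 2 * (1 - KK v k h) ^ s ≤ κ * KK v k h + η) (α L : ℕ) :
    ∀ (β : ℕ) (_ : L + β * s ≤ α + 1) (h : Ω → ℕ),
    ∑ μ ∈ range L, EL A α (fun a =>
      (al k (h + cs v (a.take (μ + β * s))) * qq w k β (h + cs v (a.take μ))) ^ 2) ≤
      (2 ^ (β + 1) - 2) * (κ + η * (α + 1))
  | 0, _, h => by
    have : ∀ μ ∈ range L, EL A α (fun a =>
      (al k (h + cs v (a.take (μ + 0 * s))) * qq w k 0 (h + cs v (a.take μ))) ^ 2) = 0 := by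
      intro μ _
      rw [← EL_zero (X := A) α]
      refine EL_congr α fun a _ => ?_
      simp only [qq, EL, zero_mul, add_zero, cs_nil]
      rcases al_cases k (h + cs v (a.take μ)) with h0 | h0 <;> simp [h0]
    rw [sum_congr rfl this]; simp
  | β + 1, hL, h => by
    have hL' : L + β * s ≤ α + 1 := by nlinarith
    have step : ∀ (μ : ℕ) (a : List A),
        (al k (h + cs v (a.take (μ + (β + 1) * s))) * qq w k (β + 1) (h + cs v (a.take μ))) ^ 2 ≤
        2 * (al k (h + cs v (a.take (μ + β * s + s))) *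
          KK w k (h + cs v (a.take (μ + β * s)))) ^ 2 +
        2 * av (fun y => (al k (h + w y + cs v (a.take (μ + β * s))) *
          qq w k β (h + w y + cs v (a.take μ))) ^ 2) := by
      intro μ a
      have e0 : μ + (β + 1) * s = μ + β * s + s := by ring
      rw [e0]
      set P := al k (h + cs v (a.take (μ + β * s + s))) with hP
      set Xx := P * KK w k (h + cs v (a.take (μ + β * s)))
      set R := fun y => al k (h + w y + cs v (a.take (μ + β * s))) *
          qq w k β (h + w y + cs v (a.take μ)) with hR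
      have b1 : P * qq w k (β + 1) (h + cs v (a.take μ)) ≤ Xx + av R := by
        rcases al_cases k (h + cs v (a.take (μ + β * s + s))) with h0 | h1
        · have : 0 ≤ av R := av_nonneg fun y => mul_nonneg (al_nonneg _ _) (qq_nonneg _ _ _ _)
          simp only [Xx, hP, h0]; linarith
        · have h2 : al k (h + cs v (a.take (μ + β * s))) = 1 :=
            le_antisymm (al_le_one _ _) (h1 ▸ al_anti k
              (add_le_add_right (cs_take_mono v a (Nat.le_add_right _ _)) _))
          simp only [Xx, hP, h1, one_mul, KK, h2]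
          rw [← av_const (X := D) 1, ← av_sub, ← av_add, qq, EL]
          refine av_mono fun y => ?_
          simp only [hR, cs_cons]
          have e1 : h + cs v (a.take (μ + β * s)) + w y = h + w y + cs v (a.take (μ + β * s)) := by
            abel
          have e2 : EL D β (fun l => 1 - al k (h + cs v (a.take μ) + (w y + cs w l))) =
              qq w k β (h + w y + cs v (a.take μ)) := by
            unfold qq; congr 1; funext l; congr 2; abel
          rw [e1, e2]
          have q1 := qq_le_one w k β (h + w y + cs v (a.take μ))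
          have q0 := qq_nonneg w k β (h + w y + cs v (a.take μ))
          rcases al_cases k (h + w y + cs v (a.take (μ + β * s))) with h3 | h3 <;> rw [h3] <;>
            linarith
      have b0 : 0 ≤ P * qq w k (β + 1) (h + cs v (a.take μ)) :=
        mul_nonneg (al_nonneg _ _) (qq_nonneg _ _ _ _)
      have b2 := av_sq R
      have b3 := pow_le_pow_left₀ b0 b1 2
      nlinarith [sq_nonneg (Xx - av R)]
    refine (sum_le_sum fun μ _ => EL_mono α fun a _ => step μ a).trans ?_
    simp only [EL_add, EL_mul_left, EL_av, sum_add_distrib, ← mul_sum]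
    have c1 : ∑ μ ∈ range L, EL A α (fun a => (al k (h + cs v (a.take (μ + β * s + s))) *
          KK w k (h + cs v (a.take (μ + β * s)))) ^ 2) ≤ κ + η * (α + 1) := by
      have := single v w k s κ η hκ H α (β * s + L) (by nlinarith) h
      rw [sum_range_add] at this
      have p1 : 0 ≤ ∑ μ ∈ range (β * s), EL A α (fun a =>
          (al k (h + cs v (a.take (μ + s))) * KK w k (h + cs v (a.take μ))) ^ 2) :=
        sum_nonneg fun _ _ => EL_nonneg α fun _ _ => sq_nonneg _
      have p2 : ((β * s + L : ℕ) : ℝ) ≤ α + 1 := by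
        have : β * s + L ≤ α + 1 := by omega
        exact_mod_cast this
      have p3 := mul_le_mul_of_nonneg_left p2 hη
      simp only [add_comm (β * s)] at this
      simp only [add_comm (β * s)] at p3
      linarith
    have c2 : ∑ μ ∈ range L, av (fun y => EL A α (fun a =>
        (al k (h + w y + cs v (a.take (μ + β * s))) *
          qq w k β (h + w y + cs v (a.take μ))) ^ 2)) ≤ (2 ^ (β + 1) - 2) * (κ + η * (α + 1)) := by
      rw [← av_sum, ← av_const (X := D) ((2 ^ (β + 1) - 2) * (κ + η * (α + 1)))]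
      exact av_mono fun y => family v w k s κ η hκ hη H α L β hL' (h + w y)
    rw [pow_succ _ (β + 1)]
    linarith

end cost

end Crest.Agent.H5.SAT
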