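import Mathlib
import Crest.Agent.H5.SAT.A
import Crest.Agent.H4.Sat2

/-! Splitting lists by a predicate; the kill-probability inequality for 3-SAT. -/

set_option autoImplicit false

namespace Crest.Agent.H5.SAT

open Finset Crest.ProbabilityR.RandomSAT

section split
variable {X : Type*}

/-- sublist of the elements satisfying `P` -/
def fl (P : X → Prop) [DecidablePred P] : List X → List {x // P x}
  | [] => []
  | x :: l => if h : P x then ⟨x, h⟩ :: fl P l else fl P l

lemma fl_pos {P : X → Prop} [DecidablePred P] {x : X} (h : P x) (l : List X) :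
    fl P (x :: l) = ⟨x, h⟩ :: fl P l := by simp [fl, h]

lemma fl_neg {P : X → Prop} [DecidablePred P] {x : X} (h : ¬ P x) (l : List X) :
    fl P (x :: l) = fl P l := by simp [fl, h]

lemma fl_append (P : X → Prop) [DecidablePred P] : ∀ l l' : List X,
    fl P (l ++ l') = fl P l ++ fl P l'
  | [], _ => rfl
  | x :: l, l' => by
    by_cases h : P x
    · rw [List.cons_append, fl_pos h, fl_pos h, fl_append P l l']; rfl
    · rw [List.cons_append, fl_neg h, fl_neg h, fl_append P l l']

lemma fl_length (P : X → Prop) [DecidablePred P] : ∀ l : List X,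
    (fl P l).length + (fl (fun x => ¬ P x) l).length = l.length
  | [] => rfl
  | x :: l => by
    have := fl_length P l
    by_cases h : P x
    · rw [fl_pos h, fl_neg (P := fun x => ¬ P x) (not_not.2 h)]; simp; omega
    · rw [fl_neg h, fl_pos (P := fun x => ¬ P x) h]; simp; omega

lemma fl_take (P : X → Prop) [DecidablePred P] (l : List X) (m : ℕ) :
    fl P (l.take m) = (fl P l).take (fl P (l.take m)).length := by
  conv_rhs => arg 2; rw [← List.take_append_drop m l, fl_append]
  simp

lemma fl_take_len (P : X → Prop) [DecidablePred P] (l : List X) (m : ℕ) :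
    (fl P (l.take m)).length ≤ (fl P l).length := by
  conv_rhs => rw [← List.take_append_drop m l, fl_append]
  simp

variable [Fintype X]

lemma av_split (P : X → Prop) [DecidablePred P] (f : X → ℝ) :
    av f = (Fintype.card {x // P x} : ℝ) / Fintype.card X * av (fun x : {x // P x} => f x) +
      (Fintype.card {x // ¬ P x} : ℝ) / Fintype.card X * av (fun x : {x // ¬ P x} => f x) := by
  have key : ∀ (Q : X → Prop) [DecidablePred Q],
      (Fintype.card {x // Q x} : ℝ) / Fintype.card X * av (fun x : {x // Q x} => f x) =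
        (∑ x : {x // Q x}, f x) / Fintype.card X := by
    intro Q _
    by_cases h : Fintype.card {x // Q x} = 0
    · have : IsEmpty {x // Q x} := Fintype.card_eq_zero_iff.1 h
      simp
    · have : (Fintype.card {x // Q x} : ℝ) ≠ 0 := by exact_mod_cast h
      unfold av; field_simp
  rw [key, key, ← add_div, Fintype.sum_subtype_add_sum_subtype]; rfl

lemma split [Nonempty X] (P : X → Prop) [DecidablePred P] (lam : ℝ) (hlam : 1 ≤ lam) :
    ∀ (M : ℕ) (Φ : List {x // P x} → List {x // ¬ P x} → ℝ) (c : ℝ),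
    (∀ α β, α + β = M → EL _ α (fun a => EL _ β (Φ a)) ≤ c * lam ^ β) →
    EL X M (fun l => Φ (fl P l) (fl (fun x => ¬ P x) l)) ≤
      c * (1 + (Fintype.card {x // ¬ P x} : ℝ) / Fintype.card X * (lam - 1)) ^ M
  | 0, Φ, c, h => by simpa [EL, fl] using h 0 0 rfl
  | M + 1, Φ, c, h => by
    set p := (Fintype.card {x // ¬ P x} : ℝ) / Fintype.card X with hp
    have hX : (0 : ℝ) < Fintype.card X := by exact_mod_cast Fintype.card_pos
    have hp0 : 0 ≤ p := by positivity
    have hq : (Fintype.card {x // P x} : ℝ) / Fintype.card X = 1 - p := by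
      have := Fintype.card_subtype_compl P
      have h2 := Fintype.card_subtype_le P
      rw [hp, this, Nat.cast_sub h2]; field_simp; ring
    have hq0 : 0 ≤ 1 - p := by rw [← hq]; positivity
    rw [EL, av_split P, hq, ← hp]
    have e1 : av (fun x : {x // P x} => EL X M (fun l =>
        Φ (fl P (x.1 :: l)) (fl (fun x => ¬ P x) (x.1 :: l)))) ≤ c * (1 + p * (lam - 1)) ^ M := by
      have : ∀ (x : {x // P x}) (l : List X), Φ (fl P (x.1 :: l)) (fl (fun x => ¬ P x) (x.1 :: l)) =
          Φ (x :: fl P l) (fl (fun x => ¬ P x) l) := fun x l => by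
        rw [fl_pos x.2, fl_neg (P := fun x => ¬ P x) (not_not.2 x.2)]
      simp only [this]
      rw [← EL_av]
      refine split P lam hlam M (fun a b => av fun x => Φ (x :: a) b) c fun α β hαβ => ?_
      have := h (α + 1) β (by omega)
      rw [EL] at this
      simp only [EL_av]; exact this
    have e2 : av (fun x : {x // ¬ P x} => EL X M (fun l =>
        Φ (fl P (x.1 :: l)) (fl (fun x => ¬ P x) (x.1 :: l)))) ≤
        (c * lam) * (1 + p * (lam - 1)) ^ M := by
      have : ∀ (x : {x // ¬ P x}) (l : List X),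
          Φ (fl P (x.1 :: l)) (fl (fun x => ¬ P x) (x.1 :: l)) =
          Φ (fl P l) (x :: fl (fun x => ¬ P x) l) := fun x l => by
        rw [fl_neg x.2, fl_pos (P := fun x => ¬ P x) x.2]
      simp only [this]
      rw [← EL_av]
      refine split P lam hlam M (fun a b => av fun x => Φ a (x :: b)) _ fun α β hαβ => ?_
      have := h α (β + 1) (by omega)
      simp only [EL] at this
      simp only [EL_av] at this ⊢
      rw [mul_assoc, ← pow_succ']; exact this
    have := add_le_add (mul_le_mul_of_nonneg_left e1 hq0) (mul_le_mul_of_nonneg_left e2 hp0)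
    refine this.trans (le_of_eq ?_); ring

lemma av_subtype (P : X → Prop) [DecidablePred P] (f : X → ℝ) :
    av (fun x : {x // P x} => f x) = H4.Sat.avg (univ.filter P) f := by
  unfold av H4.Sat.avg
  rw [Fintype.card_subtype, ← sum_subtype (univ.filter P) (by simp)]

end split

section sat
variable {n : ℕ}

open Classical in
/-- violation indicator -/
noncomputable def vc (c : Clause 3 n) (σ : Fin n → Bool) : ℕ := if ClauseSat σ c then 0 else 1

open Classical in
/-- violation indicator of the clause with the variable `x` removed -/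
noncomputable def vr (x : Fin n) (c : Clause 3 n) (σ : Fin n → Bool) : ℕ :=
  if σ ∈ H4.Sat.red x c then 0 else 1

/-- the clause avoids `x` -/
def Av (x : Fin n) (c : Clause 3 n) : Prop := ∀ i, c.1.1 i ≠ x

instance (x : Fin n) : DecidablePred (Av x) := fun c => by unfold Av; infer_instance

/-- the literal of `x` is positive -/
def Ps (x : Fin n) (c : {c // ¬ Av x c}) : Prop := ∃ i, c.1.1.1 i = x ∧ c.1.2 i = true

instance (x : Fin n) : DecidablePred (Ps x) := fun c => by unfold Ps; infer_instance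

lemma filter_Av (x : Fin n) : univ.filter (Av x) = H4.Sat.CU 3 (univ.erase x) := by
  ext c; simp [H4.Sat.mem_CU, Av]

lemma filter_nAv (x : Fin n) : univ.filter (fun c => ¬ Av x c) = H4.Sat.YU 3 (univ.erase x) x := by
  ext c; simp [H4.Sat.YU, H4.Sat.mem_CU, Av]

/-- sign flip -/
def flip (x : Fin n) (c : {c // ¬ Av x c}) : {c // ¬ Av x c} := ⟨(c.1.1, fun i => !c.1.2 i), c.2⟩

lemma flip_flip (x : Fin n) (c : {c // ¬ Av x c}) : flip x (flip x c) = c := by
  simp [flip]

lemma Ps_flip (x : Fin n) (c : {c // ¬ Av x c}) : Ps x (flip x c) ↔ ¬ Ps x c := by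
  have h := c.2
  simp only [Av, not_forall, not_not] at h
  obtain ⟨i, hi⟩ := h
  have hu : ∀ j, c.1.1.1 j = x → j = i := fun j hj => c.1.1.2 (hj.trans hi.symm)
  constructor
  · rintro ⟨j, hj, hj2⟩ ⟨j', hj', hj2'⟩
    have := hu j hj; have := hu j' hj'
    subst_vars; simp [flip, hj2'] at hj2
  · intro h2
    refine ⟨i, hi, ?_⟩
    by_contra h3
    exact h2 ⟨i, hi, by simpa [flip] using h3⟩

lemma card_Ps (x : Fin n) : Fintype.card {c // Ps x c} = Fintype.card {c // ¬ Ps x c} :=
  Fintype.card_congr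
    { toFun := fun c => ⟨flip x c.1, fun h => (Ps_flip x c.1).1 h c.2⟩
      invFun := fun c => ⟨flip x c.1, (Ps_flip x c.1).2 c.2⟩
      left_inv := fun c => by simp [flip_flip]
      right_inv := fun c => by simp [flip_flip] }

lemma card_erase (x : Fin n) : (univ.erase x).card = n - 1 := by simp

lemma nonempty_Av (hn : 4 ≤ n) (x : Fin n) : Nonempty {c // Av x c} := by
  obtain ⟨c, hc⟩ := H4.Sat.CU_nonempty (k := 3) (U := univ.erase x) (by rw [card_erase]; omega)
  rw [← filter_Av] at hc
  exact ⟨⟨c, (mem_filter.1 hc).2⟩⟩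

lemma card_nAv (x : Fin n) :
    Fintype.card {c // ¬ Av x c} = 3 * (n - 1).descFactorial 2 * 2 ^ 3 := by
  rw [Fintype.card_subtype, filter_nAv, H4.Sat.card_YU (j := 2) (by simp), card_erase]

lemma card_clause (hn : 1 ≤ n) :
    Fintype.card (Clause 3 n) = n * (n - 1).descFactorial 2 * 2 ^ 3 := by
  have := H4.Sat.card_CU (k := 3) (univ : Finset (Fin n))
  have e : H4.Sat.CU 3 (univ : Finset (Fin n)) = univ := by ext c; simp [H4.Sat.mem_CU]
  rw [e, card_univ, card_univ, Fintype.card_fin] at this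
  obtain ⟨m, rfl⟩ := Nat.exists_eq_add_of_le' hn
  rw [this, Nat.succ_descFactorial_succ]; simp

lemma desc_pos (hn : 4 ≤ n) : 0 < (n - 1).descFactorial 2 := Nat.descFactorial_pos.2 (by omega)

lemma nonempty_clause (hn : 4 ≤ n) : Nonempty (Clause 3 n) := by
  rw [← Fintype.card_pos_iff, card_clause (by omega)]
  have := desc_pos hn
  have : 0 < n := by omega
  positivity

lemma card_Ps_two (x : Fin n) : 2 * Fintype.card {c // Ps x c} = Fintype.card {c // ¬ Av x c} := by
  have := Fintype.card_subtype_compl (Ps x)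
  have h2 := Fintype.card_subtype_le (Ps x)
  have h3 := card_Ps x
  omega

lemma nonempty_nAv (hn : 4 ≤ n) (x : Fin n) : Nonempty {c // ¬ Av x c} := by
  rw [← Fintype.card_pos_iff, card_nAv]; have := desc_pos hn; positivity

lemma nonempty_Ps (hn : 4 ≤ n) (x : Fin n) : Nonempty {c // Ps x c} := by
  have := nonempty_nAv hn x
  rw [← Fintype.card_pos_iff] at this ⊢
  have := card_Ps_two x; omega

lemma nonempty_nPs (hn : 4 ≤ n) (x : Fin n) : Nonempty {c // ¬ Ps x c} := by
  have := nonempty_Ps hn x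
  rw [← Fintype.card_pos_iff] at this ⊢
  rwa [← card_Ps]

lemma p_eq (hn : 4 ≤ n) (x : Fin n) :
    (Fintype.card {c // ¬ Av x c} : ℝ) / Fintype.card (Clause 3 n) = 3 / n := by
  rw [card_nAv, card_clause (by omega)]
  have : (0 : ℝ) < (n - 1).descFactorial 2 := by exact_mod_cast desc_pos hn
  have : (0 : ℝ) < n := by exact_mod_cast (by omega : 0 < n)
  push_cast; field_simp

lemma av_half (hn : 4 ≤ n) (x : Fin n) (f : {c // ¬ Av x c} → ℝ) (hf : ∀ c, 0 ≤ f c) :
    av (fun c : {c // Ps x c} => f c) ≤ 2 * av f ∧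
      av (fun c : {c // ¬ Ps x c} => f c) ≤ 2 * av f := by
  have h := av_split (Ps x) f
  have h0 : (0 : ℝ) < Fintype.card {c // Ps x c} := by
    exact_mod_cast Fintype.card_pos_iff.2 (nonempty_Ps hn x)
  have e : (Fintype.card {c // Ps x c} : ℝ) / Fintype.card {c // ¬ Av x c} = 1 / 2 := by
    rw [← card_Ps_two]; push_cast; field_simp
  rw [← card_Ps, e] at h
  have a1 := av_nonneg (f := fun c : {c // Ps x c} => f c) fun c => hf _
  have a2 := av_nonneg (f := fun c : {c // ¬ Ps x c} => f c) fun c => hf _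
  constructor <;> linarith

lemma num_ineq (b y N r B : ℝ) (hr : 1 ≤ r) (s : ℕ) (hs : (s : ℝ) = r ^ 4) (hy0 : 0 ≤ y)
    (hy1 : y ≤ 1) (hb0 : 0 ≤ b) (hb1 : b ≤ 1) (hN : 0 < N) (hB : b = B / N)
    (h : B ≤ 2 ∨ b ^ 3 ≤ 36 * y) (z : ℝ) (hz0 : 0 ≤ z) (hz : z ≤ 2 * b ^ 2) :
    z ^ 2 * (1 - y) ^ s ≤ 5184 / r * y + 64 / N ^ 4 := by
  have z2 : z ^ 2 ≤ 4 * b ^ 4 := by nlinarith
  have w0 : 0 ≤ (1 - y) ^ s := pow_nonneg (by linarith) _
  have w1 : (1 - y) ^ s ≤ 1 := pow_le_one₀ (by linarith) (by linarith)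
  have r0 : 0 < r := by linarith
  have t1 : 0 ≤ 5184 / r * y := by positivity
  have t2 : 0 ≤ 64 / N ^ 4 := by positivity
  rcases h with h | h
  · have : b ≤ 2 / N := by rw [hB]; exact div_le_div_of_nonneg_right h hN.le
    have h4 := pow_le_pow_left₀ hb0 this 4
    rw [div_pow] at h4
    have : 4 * b ^ 4 ≤ 64 / N ^ 4 := by
      have e : (64 : ℝ) / N ^ 4 = 4 * (2 ^ 4 / N ^ 4) := by ring
      rw [e]; linarith
    nlinarith [sq_nonneg z]
  · by_cases hbr : b * r ≤ 1
    · have : 4 * b ^ 4 ≤ 5184 / r * y := by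
        rw [div_mul_eq_mul_div, le_div_iff₀ r0]
        have : b ^ 4 * r = b ^ 3 * (b * r) := by ring
        nlinarith [pow_nonneg hb0 3]
      nlinarith [sq_nonneg z]
    · push Not at hbr
      have hb3 : 1 ≤ (b * r) ^ 3 := one_le_pow₀ hbr.le
      have hsy : r ≤ 36 * (s * y) := by
        rw [hs]
        have : r * (b * r) ^ 3 = r ^ 4 * b ^ 3 := by ring
        nlinarith [pow_pos r0 4]
      have bern : (1 - y) ^ s * (1 + s * y) ≤ 1 := by
        have h1 := one_add_mul_le_pow (a := y) (by linarith) s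
        have h2 : (1 - y) ^ s * (1 + y) ^ s ≤ 1 := by
          rw [← mul_pow]; exact pow_le_one₀ (by nlinarith) (by nlinarith)
        nlinarith
      have w2 : (1 - y) ^ s * r ≤ 36 := by nlinarith
      have z3 : z ^ 2 ≤ 144 * y := by
        have : b ^ 4 ≤ b ^ 3 := by nlinarith [pow_nonneg hb0 3]
        linarith
      have : z ^ 2 * (1 - y) ^ s ≤ 5184 / r * y := by
        rw [div_mul_eq_mul_div, le_div_iff₀ r0]
        nlinarith [sq_nonneg z, mul_le_mul z3 w2 (by positivity) (by positivity)]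
      linarith

lemma al_eq_ne (k : ℕ) (h g : (Fin n → Bool) → ℕ) (T : Set (Fin n → Bool))
    (ht : ∀ σ, h σ ≤ k → h σ = k) (hg : ∀ σ, g σ = 0 ↔ σ ∈ T) :
    al k (h + g) = H4.Sat.ne ({σ | h σ ≤ k} ∩ T) := by
  unfold al H4.Sat.ne
  congr 1
  apply propext
  constructor
  · rintro ⟨σ, hσ⟩
    have h1 : h σ ≤ k := le_trans (Nat.le_add_right _ _) hσ
    have h2 := ht σ h1
    simp only [Pi.add_apply] at hσ
    exact ⟨σ, h1, (hg σ).1 (by omega)⟩
  · rintro ⟨σ, h1, h2⟩
    exact ⟨σ, by simp only [Pi.add_apply, (hg σ).2 h2]; exact h1⟩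

lemma kill_ineq (hn : 4 ≤ n) (x : Fin n) (k r : ℕ) (hr : 1 ≤ r) (h : (Fin n → Bool) → ℕ)
    (z : ℝ) (hz0 : 0 ≤ z) (hz : z ≤ 2 * KK (fun c : {c // ¬ Av x c} => vr x c) k h) :
    z ^ 2 * (1 - KK (fun c : {c // Av x c} => vc c.1) k h) ^ (r ^ 4) ≤
      5184 / r * KK (fun c : {c // Av x c} => vc c.1) k h + 64 / ((n : ℝ) - 1) ^ 4 := by
  have := nonempty_Av hn x
  have := nonempty_nAv hn x
  have hy0 := KK_nonneg (fun c : {c // Av x c} => vc c.1) k h
  have hy1 := (KK_le (fun c : {c // Av x c} => vc c.1) k h).trans (al_le_one _ _)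
  have hN : (0 : ℝ) < (n : ℝ) - 1 := by
    have : (4 : ℝ) ≤ n := by exact_mod_cast hn
    linarith
  have hr' : (1 : ℝ) ≤ r := by exact_mod_cast hr
  by_cases ht : (∃ σ, h σ ≤ k) ∧ ∀ σ, h σ ≤ k → h σ = k
  · obtain ⟨hne, ht⟩ := ht
    set S : Set (Fin n → Bool) := {σ | h σ ≤ k}
    set U := (univ.erase x : Finset (Fin n))
    have hU : U.card = n - 1 := card_erase x
    have hUr : (U.card : ℝ) = n - 1 := by rw [hU, Nat.cast_sub (by omega)]; simp
    have hal : al k h = 1 := by unfold al; rw [if_pos hne]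
    set B := (H4.Sat.Fr S ∩ U).card
    have hBU : B ≤ U.card := card_le_card inter_subset_right
    have k1 : KK (fun c : {c // ¬ Av x c} => vr x c) k h ≤ ((B : ℝ) / U.card) ^ 2 := by
      have := H4.Sat.kill_red (j := 0) (U := U) (v := x) (by simp [U]) (by omega) S
      rw [← filter_nAv, ← av_subtype] at this
      refine le_trans (le_of_eq ?_) this
      rw [av_sub, av_const, KK, hal]
      congr 2; funext c
      exact al_eq_ne k h _ _ ht fun σ => by unfold vr; split_ifs <;> simp [*]
    have k2 : (B.descFactorial 3 : ℝ) / (U.card.descFactorial 3 * 2 ^ 3) ≤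
        KK (fun c : {c // Av x c} => vc c.1) k h := by
      have := H4.Sat.hazard (k := 3) (U := U) (by omega) (B := S) hne
      rw [← filter_Av, ← av_subtype] at this
      have e : av (fun c : {c // Av x c} => al k (h + vc c.1)) =
          av (fun c : {c // Av x c} => H4.Sat.ne (S ∩ H4.Sat.con c.1)) := by
        congr 1; funext c
        exact al_eq_ne k h _ _ ht fun σ => by
          unfold vc H4.Sat.con; split_ifs <;> simp [*]
      rw [KK, hal, e]; linarith
    have hb1 : (B : ℝ) / U.card ≤ 1 := div_le_one_of_le₀ (by exact_mod_cast hBU) (by positivity)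
    refine num_ineq (B / U.card) _ _ r B hr' _ (by push_cast; ring) hy0 hy1 (by positivity) hb1 hN
      (by rw [hUr]) ?_ z hz0 (by linarith)
    by_cases hB : B ≤ 2
    · left; exact_mod_cast hB
    · right
      refine le_trans ?_ (mul_le_mul_of_nonneg_left k2 (by norm_num))
      have d1 : (U.card.descFactorial 3 : ℝ) ≤ (U.card : ℝ) ^ 3 := by
        exact_mod_cast Nat.descFactorial_le_pow _ _
      have d0 : (0 : ℝ) < U.card.descFactorial 3 := by
        exact_mod_cast Nat.descFactorial_pos.2 (by omega)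
      have d2 : 2 * (B : ℝ) ^ 3 ≤ 9 * B.descFactorial 3 := by
        obtain ⟨t, ht⟩ := Nat.exists_eq_add_of_le (show 3 ≤ B by omega)
        rw [ht]
        simp only [Nat.descFactorial_succ, Nat.descFactorial_zero]
        have e1 : 3 + t - 2 = t + 1 := by omega
        have e2 : 3 + t - 1 = t + 2 := by omega
        rw [e1, e2, Nat.sub_zero]; push_cast
        have : (0 : ℝ) ≤ t := Nat.cast_nonneg _
        nlinarith [pow_nonneg this 2, pow_nonneg this 3]
      have U0 : (0 : ℝ) < U.card := by rw [hUr]; exact hN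
      rw [div_pow, mul_div_assoc', div_le_div_iff₀ (by positivity) (by positivity)]
      have : (0 : ℝ) ≤ (B : ℝ) ^ 3 := by positivity
      have : (0 : ℝ) ≤ B.descFactorial 3 := by positivity
      nlinarith [mul_le_mul_of_nonneg_left d1 this, mul_le_mul_of_nonneg_right d2 d0.le]
  · have k0 : KK (fun c : {c // ¬ Av x c} => vr x c) k h = 0 := by
      by_cases hne : ∃ σ, h σ ≤ k
      · have : ¬ ∀ σ, h σ ≤ k → h σ = k := fun h' => ht ⟨hne, h'⟩
        push Not at this
        obtain ⟨σ, h1, h2⟩ := this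
        have e : ∀ c : {c // ¬ Av x c}, al k (h + vr x c) = 1 := fun c => by
          unfold al; rw [if_pos]
          refine ⟨σ, ?_⟩
          simp only [Pi.add_apply, vr]; split_ifs <;> omega
        unfold KK; simp only [e, av_const]; unfold al; rw [if_pos hne]; simp
      · have a1 := KK_nonneg (fun c : {c // ¬ Av x c} => vr x c) k h
        have a2 := KK_le (fun c : {c // ¬ Av x c} => vr x c) k h
        have : al k h = 0 := by unfold al; rw [if_neg hne]
        linarith
    have : z = 0 := by linarith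
    rw [this]
    have : 0 ≤ 5184 / (r : ℝ) * KK (fun c : {c // Av x c} => vc c.1) k h := by positivity
    have : 0 ≤ 64 / ((n : ℝ) - 1) ^ 4 := by positivity
    simp; linarith

lemma KK_half (hn : 4 ≤ n) (x : Fin n) (k : ℕ) (h : (Fin n → Bool) → ℕ) :
    KK (fun c : {c // Ps x c} => vr x c.1.1) k h ≤ 2 * KK (fun c : {c // ¬ Av x c} => vr x c) k h ∧
    KK (fun c : {c // ¬ Ps x c} => vr x c.1.1) k h ≤
      2 * KK (fun c : {c // ¬ Av x c} => vr x c) k h := by
  have := nonempty_nAv hn x
  have := nonempty_Ps hn x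
  have := nonempty_nPs hn x
  have := av_half hn x (fun c => al k h - al k (h + vr x c.1))
    (fun c => sub_nonneg.2 (al_anti k le_self_add))
  simp only [av_sub, av_const] at this
  exact this

end sat

end Crest.Agent.H5.SAT
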