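import Mathlib
import Crest.Agent.H5.SAT.B

/-! The energy gap estimate for random 3-SAT. -/

set_option autoImplicit false

namespace Crest.Agent.H5.SAT

open Finset Crest.ProbabilityR.RandomSAT

variable {n : ℕ}

noncomputable abbrev vA (x : Fin n) (c : {c // Av x c}) : (Fin n → Bool) → ℕ := vc c.1
noncomputable abbrev w1 (x : Fin n) (c : {c // Ps x c}) : (Fin n → Bool) → ℕ := vr x c.1.1
noncomputable abbrev w2 (x : Fin n) (c : {c // ¬ Ps x c}) : (Fin n → Bool) → ℕ := vr x c.1.1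
abbrev aL (x : Fin n) (l : List (Clause 3 n)) := fl (Av x) l
abbrev bL (x : Fin n) (l : List (Clause 3 n)) := fl (fun c => ¬ Av x c) l

lemma vc_le_one (c : Clause 3 n) (σ : Fin n → Bool) : vc c σ ≤ 1 := by
  unfold vc; split_ifs <;> simp

lemma vc_upd_Av {x : Fin n} {c : Clause 3 n} (h : Av x c) (σ : Fin n → Bool) (b : Bool) :
    vc c (Function.update σ x b) = vc c σ := by
  have : ClauseSat (Function.update σ x b) c ↔ ClauseSat σ c := by
    unfold ClauseSat; simp only [Function.update_of_ne (h _)]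
  unfold vc; by_cases h1 : ClauseSat σ c
  · rw [if_pos h1, if_pos (this.2 h1)]
  · rw [if_neg h1, if_neg (fun h2 => h1 (this.1 h2))]

@[simp] lemma vA_mk (x : Fin n) (c : Clause 3 n) (h : Av x c) : vA x ⟨c, h⟩ = vc c := rfl
@[simp] lemma w1_mk (x : Fin n) (c : Clause 3 n) (h : ¬ Av x c) (h2 : Ps x ⟨c, h⟩) :
    w1 x ⟨⟨c, h⟩, h2⟩ = vr x c := rfl
@[simp] lemma w2_mk (x : Fin n) (c : Clause 3 n) (h : ¬ Av x c) (h2 : ¬ Ps x ⟨c, h⟩) :
    w2 x ⟨⟨c, h⟩, h2⟩ = vr x c := rfl

lemma vc_upd_le (x : Fin n) (c : Clause 3 n) (σ : Fin n → Bool) (b : Bool) :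
    vc c (Function.update σ x b) ≤ vr x c σ := by
  unfold vr
  split_ifs with h
  · obtain ⟨i, hi, h2⟩ := h
    unfold vc; rw [if_pos ⟨i, by rw [Function.update_of_ne hi]; exact h2⟩]
  · exact vc_le_one _ _

lemma upd_false (x : Fin n) (σ : Fin n → Bool) : ∀ l : List (Clause 3 n),
    cs vc l (Function.update σ x false) ≤
      cs (vA x) (aL x l) σ + cs (w1 x) (fl (Ps x) (bL x l)) σ
  | [] => le_rfl
  | c :: l => by
    have ih := upd_false x σ l
    by_cases h : Av x c
    · rw [aL, bL, fl_pos h, fl_neg (P := fun c => ¬ Av x c) (not_not.2 h)]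
      simp only [cs_cons, Pi.add_apply, vc_upd_Av h, vA_mk]; simp only [aL, bL] at ih; omega
    · rw [aL, bL, fl_neg h, fl_pos (P := fun c => ¬ Av x c) h]
      simp only [aL, bL] at ih
      by_cases h2 : Ps x ⟨c, h⟩
      · rw [fl_pos h2]
        have := vc_upd_le x c σ false
        simp only [cs_cons, Pi.add_apply, w1_mk]; omega
      · rw [fl_neg h2]
        have : vc c (Function.update σ x false) = 0 := by
          have h' := h
          simp only [Av, not_forall, not_not] at h'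
          obtain ⟨i, hi⟩ := h'
          unfold vc; rw [if_pos]
          refine ⟨i, ?_⟩
          rw [hi, Function.update_self]
          by_contra h3
          exact h2 ⟨i, hi, by simpa using h3⟩
        simp only [cs_cons, Pi.add_apply]; omega

lemma upd_true (x : Fin n) (σ : Fin n → Bool) : ∀ l : List (Clause 3 n),
    cs vc l (Function.update σ x true) ≤
      cs (vA x) (aL x l) σ + cs (w2 x) (fl (fun c => ¬ Ps x c) (bL x l)) σ
  | [] => le_rfl
  | c :: l => by
    have ih := upd_true x σ l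
    by_cases h : Av x c
    · rw [aL, bL, fl_pos h, fl_neg (P := fun c => ¬ Av x c) (not_not.2 h)]
      simp only [cs_cons, Pi.add_apply, vc_upd_Av h, vA_mk]; simp only [aL, bL] at ih; omega
    · rw [aL, bL, fl_neg h, fl_pos (P := fun c => ¬ Av x c) h]
      simp only [aL, bL] at ih
      by_cases h2 : Ps x ⟨c, h⟩
      · rw [fl_neg (P := fun c => ¬ Ps x c) (not_not.2 h2)]
        have : vc c (Function.update σ x true) = 0 := by
          obtain ⟨i, hi, h3⟩ := h2
          unfold vc; rw [if_pos]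
          refine ⟨i, ?_⟩
          simp only at hi h3
          rw [hi, Function.update_self, h3]
        simp only [cs_cons, Pi.add_apply]; omega
      · rw [fl_pos (P := fun c => ¬ Ps x c) h2]
        have := vc_upd_le x c σ true
        simp only [cs_cons, Pi.add_apply, w2_mk]; omega

lemma cs_fl_take {X Ω : Type*} (P : X → Prop) [DecidablePred P] (v : {x // P x} → Ω → ℕ)
    (l : List X) (m : ℕ) : cs v (fl P (l.take m)) ≤ cs v (fl P l) := by
  rw [fl_take]; exact cs_take_le _ _ _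

lemma al_eq_one {Ω : Type*} {k : ℕ} {h : Ω → ℕ} : al k h = 1 ↔ ∃ σ, h σ ≤ k := by
  unfold al; split_ifs with h1 <;> simp [h1]

lemma al_eq_zero {Ω : Type*} {k : ℕ} {h : Ω → ℕ} : al k h = 0 ↔ ¬ ∃ σ, h σ ≤ k := by
  unfold al; split_ifs with h1 <;> simp [h1]

/-- number of times at which the energy is exactly `k + 1` -/
noncomputable def Gk (k : ℕ) (l : List (Clause 3 n)) : ℝ :=
  ∑ m ∈ range (l.length + 1), (al (k + 1) (cs vc (l.take m)) - al k (cs vc (l.take m)))

noncomputable def ZZ (x : Fin n) (k s d : ℕ) (a : List {c // Av x c}) (D1 : List {c // Ps x c})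
    (D2 : List {c // ¬ Ps x c}) : ℝ :=
  ∑ μ ∈ range (a.length + 1 - d * s), al k (cs (vA x) (a.take (μ + d * s))) *
    ((1 - al k (cs (vA x) (a.take μ) + cs (w1 x) D1)) *
      (1 - al k (cs (vA x) (a.take μ) + cs (w2 x) D2)))

lemma ZZ_nonneg (x : Fin n) (k s d : ℕ) (a : List {c // Av x c}) (D1 : List {c // Ps x c})
    (D2 : List {c // ¬ Ps x c}) : 0 ≤ ZZ x k s d a D1 D2 :=
  sum_nonneg fun _ _ => mul_nonneg (al_nonneg _ _)
    (mul_nonneg (sub_nonneg.2 (al_le_one _ _)) (sub_nonneg.2 (al_le_one _ _)))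

lemma path_x (x : Fin n) (k s : ℕ) (l : List (Clause 3 n)) (ms : ℕ) (hms : ms ≤ l.length)
    (hmax : ∀ m ≤ l.length, (∃ σ, cs vc (l.take m) σ ≤ k + 1) → m ≤ ms)
    (hal : ∃ σ, cs (vA x) (aL x (l.take ms)) σ ≤ k) :
    Gk k l ≤ ((bL x l).length * (s + 1) : ℕ) + ((bL x l).length + 1) *
      ZZ x k s (bL x l).length (aL x l) (fl (Ps x) (bL x l)) (fl (fun c => ¬ Ps x c) (bL x l)) := by
  set d := (bL x l).length with hd
  set z : ℕ → ℝ := fun μ => al k (cs (vA x) ((aL x l).take (μ + d * s))) *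
    ((1 - al k (cs (vA x) ((aL x l).take μ) + cs (w1 x) (fl (Ps x) (bL x l)))) *
      (1 - al k (cs (vA x) ((aL x l).take μ) + cs (w2 x) (fl (fun c => ¬ Ps x c) (bL x l)))))
    with hz
  have z0 : ∀ μ, 0 ≤ z μ := fun μ => mul_nonneg (al_nonneg _ _)
    (mul_nonneg (sub_nonneg.2 (al_le_one _ _)) (sub_nonneg.2 (al_le_one _ _)))
  set L := (aL x l).length + 1 - d * s
  have key : ∀ m ∈ range (l.length + 1),
      al (k + 1) (cs vc (l.take m)) - al k (cs vc (l.take m)) ≤
        (if m ∈ Ioc (ms - d * (s + 1)) ms ∨ (m = 0 ∧ ms < d * (s + 1)) then 1 else 0) +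
          ∑ μ ∈ range L, if m ∈ Icc μ (μ + d) then z μ else 0 := by
    intro m hm
    have hm' : m ≤ l.length := by have := mem_range.1 hm; omega
    have s0 : 0 ≤ ∑ μ ∈ range L, if m ∈ Icc μ (μ + d) then z μ else 0 :=
      sum_nonneg fun μ _ => by split_ifs; exacts [z0 μ, le_rfl]
    have i0 : (0 : ℝ) ≤
        if m ∈ Ioc (ms - d * (s + 1)) ms ∨ (m = 0 ∧ ms < d * (s + 1)) then 1 else 0 := by
      split_ifs <;> norm_num
    rcases al_cases (k + 1) (cs vc (l.take m)) with h0 | h1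
    · have := al_nonneg k (cs vc (l.take m)); linarith
    rcases al_cases k (cs vc (l.take m)) with h0 | h2
    swap
    · linarith
    have hle := hmax m hm' (al_eq_one.1 h1)
    rw [h1, h0, sub_zero]
    by_cases hc : m ∈ Ioc (ms - d * (s + 1)) ms ∨ (m = 0 ∧ ms < d * (s + 1))
    · rw [if_pos hc]; linarith
    rw [if_neg hc, zero_add]
    have hmt : m + d * (s + 1) ≤ ms := by
      simp only [mem_Ioc, not_or, not_and, not_le, not_lt] at hc
      omega
    set μ := (aL x (l.take m)).length with hμ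
    have l1 := fl_length (Av x) (l.take m)
    have l2 := fl_length (Av x) (l.take ms)
    have l3 := fl_take_len (fun c => ¬ Av x c) l m
    have l4 := fl_take_len (fun c => ¬ Av x c) l ms
    have l5 := fl_take_len (Av x) l ms
    rw [List.length_take, min_eq_left hm'] at l1
    rw [List.length_take, min_eq_left hms] at l2
    have e1 : d * (s + 1) = d * s + d := by ring
    have b1 : μ + d * s ≤ (aL x (l.take ms)).length := by
      simp only [aL, bL] at *; omega
    have b2 : μ ∈ range L := by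
      simp only [mem_range, L]; simp only [aL, bL] at *; omega
    have b3 : m ∈ Icc μ (μ + d) := by
      simp only [mem_Icc]; simp only [aL, bL] at *; omega
    have zz : z μ = 1 := by
      have a1 : al k (cs (vA x) ((aL x l).take (μ + d * s))) = 1 := by
        obtain ⟨σ, hσ⟩ := hal
        refine al_eq_one.2 ⟨σ, le_trans ?_ hσ⟩
        rw [aL, aL, fl_take (Av x) l ms]
        exact cs_take_mono _ _ b1 σ
      have e : (aL x l).take μ = aL x (l.take m) := (fl_take (Av x) l m).symm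
      have tk : ∀ (P : {c // ¬ Av x c} → Prop) [DecidablePred P]
          (v : {c // P c} → (Fin n → Bool) → ℕ),
          cs v (fl P (bL x (l.take m))) ≤ cs v (fl P (bL x l)) := fun P _ v => by
        rw [bL, fl_take]; exact cs_fl_take _ _ _ _
      have a2 : al k (cs (vA x) ((aL x l).take μ) + cs (w1 x) (fl (Ps x) (bL x l))) = 0 := by
        rw [al_eq_zero] at h0 ⊢
        rintro ⟨σ, hσ⟩
        refine h0 ⟨_, (upd_false x σ _).trans (le_trans ?_ hσ)⟩
        rw [e]; exact Nat.add_le_add_left (tk _ _ σ) _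
      have a3 : al k (cs (vA x) ((aL x l).take μ) +
          cs (w2 x) (fl (fun c => ¬ Ps x c) (bL x l))) = 0 := by
        rw [al_eq_zero] at h0 ⊢
        rintro ⟨σ, hσ⟩
        refine h0 ⟨_, (upd_true x σ _).trans (le_trans ?_ hσ)⟩
        rw [e]; exact Nat.add_le_add_left (tk _ _ σ) _
      simp only [hz, a1, a2, a3]; norm_num
    have := single_le_sum (f := fun μ => if m ∈ Icc μ (μ + d) then z μ else 0)
      (fun μ _ => by split_ifs; exacts [z0 μ, le_rfl]) b2
    simp only [if_pos b3, zz] at this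
    exact this
  refine (sum_le_sum key).trans ?_
  rw [sum_add_distrib, sum_comm]
  refine add_le_add ?_ ?_
  · rw [sum_boole]
    have : (range (l.length + 1)).filter (fun m => m ∈ Ioc (ms - d * (s + 1)) ms ∨
        (m = 0 ∧ ms < d * (s + 1))) ⊆ Ico (ms + 1 - d * (s + 1)) (ms + 1) := by
      intro m hm
      simp only [mem_filter, mem_Ioc, mem_Ico] at hm ⊢
      omega
    have := card_le_card this
    rw [Nat.card_Ico] at this
    exact_mod_cast this.trans (by omega)
  · rw [ZZ, mul_sum]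
    refine sum_le_sum fun μ _ => ?_
    rw [← sum_filter, sum_const, nsmul_eq_mul]
    refine mul_le_mul_of_nonneg_right ?_ (z0 μ)
    have : (range (l.length + 1)).filter (fun m => m ∈ Icc μ (μ + d)) ⊆ Icc μ (μ + d) :=
      fun m hm => (mem_filter.1 hm).2
    have := card_le_card this
    rw [Nat.card_Icc] at this
    exact_mod_cast this.trans (by omega)

lemma cs_aL_le (x : Fin n) (σ : Fin n → Bool) : ∀ (l : List (Clause 3 n)),
    cs (vA x) (aL x l) σ ≤ cs vc l σ
  | [] => le_rfl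
  | c :: l => by
    have := cs_aL_le x σ l
    by_cases h : Av x c
    · rw [aL, fl_pos h]; simp only [cs_cons, Pi.add_apply, vA_mk]; simp only [aL] at this; omega
    · rw [aL, fl_neg h]; simp only [cs_cons, Pi.add_apply]; simp only [aL] at this; omega

lemma cs_aL_lt (x : Fin n) (σ : Fin n → Bool) {c : Clause 3 n} (hc : ¬ Av x c) :
    ∀ (l : List (Clause 3 n)), c ∈ l → cs (vA x) (aL x l) σ + vc c σ ≤ cs vc l σ
  | [], h => by simp at h
  | c' :: l, h => by
    rcases List.mem_cons.1 h with rfl | h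
    · have := cs_aL_le x σ l
      rw [aL, fl_neg hc]; simp only [cs_cons, Pi.add_apply]; simp only [aL] at this; omega
    · have := cs_aL_lt x σ hc l h
      by_cases h : Av x c'
      · rw [aL, fl_pos h]; simp only [cs_cons, Pi.add_apply, vA_mk]; simp only [aL] at this; omega
      · rw [aL, fl_neg h]; simp only [cs_cons, Pi.add_apply]; simp only [aL] at this; omega

lemma wsum (σ : Fin n → Bool) (G T : ℝ) (φ : Fin n → ℝ) (hφ : ∀ x, 0 ≤ φ x) :
    ∀ (l : List (Clause 3 n)), (∀ c ∈ l, vc c σ = 1 → G ≤ T + φ (c.1.1 0)) →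
      (cs vc l σ : ℝ) * G ≤ cs vc l σ * T + ∑ x, ((bL x l).length : ℝ) * φ x
  | [], _ => by simp [fl]
  | c :: l, h => by
    have ih := wsum σ G T φ hφ l fun c' hc' => h c' (List.mem_cons_of_mem _ hc')
    have h1 : φ (c.1.1 0) + ∑ x, ((bL x l).length : ℝ) * φ x ≤
        ∑ x, ((bL x (c :: l)).length : ℝ) * φ x := by
      have e : ∀ x, ((bL x (c :: l)).length : ℝ) * φ x =
          (if Av x c then 0 else φ x) + ((bL x l).length : ℝ) * φ x := fun x => by
        by_cases hx : Av x c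
        · rw [bL, fl_neg (P := fun c => ¬ Av x c) (not_not.2 hx), if_pos hx, zero_add]
        · rw [bL, fl_pos (P := fun c => ¬ Av x c) hx, if_neg hx]; simp; ring
      simp only [e, sum_add_distrib]
      have := single_le_sum (f := fun x => if Av x c then 0 else φ x)
        (fun x _ => by split_ifs; exacts [le_rfl, hφ x]) (mem_univ (c.1.1 0))
      rw [if_neg (fun h => h 0 rfl)] at this
      linarith
    simp only [cs_cons, Pi.add_apply]; push_cast
    rcases Nat.le_one_iff_eq_zero_or_eq_one.1 (vc_le_one c σ) with h0 | h0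
    · rw [h0]; have := hφ (c.1.1 0); push_cast; linarith
    · have := h c List.mem_cons_self h0
      rw [h0]; push_cast; linarith

noncomputable def Ph (x : Fin n) (k s Δ : ℕ) (a : List {c // Av x c}) (b : List {c // ¬ Av x c}) :
    ℝ :=
  (if Δ < b.length then ((b.length * (s + 1) : ℕ) : ℝ) else 0) + (b.length + 1) *
    ZZ x k s b.length a (fl (Ps x) b) (fl (fun c => ¬ Ps x c) b)

lemma Ph_nonneg (x : Fin n) (k s Δ : ℕ) (a : List {c // Av x c}) (b : List {c // ¬ Av x c}) :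
    0 ≤ Ph x k s Δ a b := by
  unfold Ph
  have := ZZ_nonneg x k s b.length a (fl (Ps x) b) (fl (fun c => ¬ Ps x c) b)
  split_ifs <;> positivity

lemma path (k s Δ : ℕ) (l : List (Clause 3 n)) :
    ((k : ℝ) + 1) * Gk k l ≤ (k + 1) * (Δ * (s + 1) : ℕ) +
      ∑ x, ((bL x l).length : ℝ) * Ph x k s Δ (aL x l) (bL x l) := by
  classical
  have s0 : 0 ≤ ∑ x, ((bL x l).length : ℝ) * Ph x k s Δ (aL x l) (bL x l) :=
    sum_nonneg fun x _ => mul_nonneg (Nat.cast_nonneg _) (Ph_nonneg _ _ _ _ _ _)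
  set ms := Nat.findGreatest (fun m => ∃ σ, cs vc (l.take m) σ ≤ k + 1) l.length
  have hms : ms ≤ l.length := Nat.findGreatest_le _
  have hmax : ∀ m ≤ l.length, (∃ σ, cs vc (l.take m) σ ≤ k + 1) → m ≤ ms :=
    fun m hm h => Nat.le_findGreatest hm h
  obtain ⟨σ, hσ⟩ : ∃ σ, cs vc (l.take ms) σ ≤ k + 1 :=
    Nat.findGreatest_spec (P := fun m => ∃ σ, cs vc (l.take m) σ ≤ k + 1) (Nat.zero_le _)
      ⟨fun _ => true, by simp⟩
  by_cases hk : cs vc (l.take ms) σ ≤ k
  · have : Gk k l ≤ 0 := by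
      refine sum_nonpos fun m hm => ?_
      rcases al_cases (k + 1) (cs vc (l.take m)) with h0 | h1
      · have := al_nonneg k (cs vc (l.take m)); linarith
      · have := hmax m (by have := mem_range.1 hm; omega) (al_eq_one.1 h1)
        rw [h1, al_eq_one.2 ⟨σ, (cs_take_mono _ _ this σ).trans hk⟩]; simp
    have : ((k : ℝ) + 1) * Gk k l ≤ 0 := mul_nonpos_of_nonneg_of_nonpos (by positivity) this
    have : (0 : ℝ) ≤ (k + 1) * (Δ * (s + 1) : ℕ) := by positivity
    linarith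
  have hk' : cs vc (l.take ms) σ = k + 1 := by omega
  have := wsum σ (Gk k l) (Δ * (s + 1) : ℕ) (fun x => Ph x k s Δ (aL x l) (bL x l))
    (fun x => Ph_nonneg _ _ _ _ _ _) (l.take ms) (fun c hc h1 => by
      have h2 := cs_aL_lt (c.1.1 0) σ (c := c) (fun h => h 0 rfl) _ hc
      have h3 := path_x (c.1.1 0) k s l ms hms hmax ⟨σ, by omega⟩
      refine h3.trans ?_
      unfold Ph
      split_ifs with h4
      · have : (0 : ℝ) ≤ (Δ * (s + 1) : ℕ) := by positivity
        linarith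
      · have : (((bL (c.1.1 0) l).length * (s + 1) : ℕ) : ℝ) ≤ (Δ * (s + 1) : ℕ) := by
          exact_mod_cast Nat.mul_le_mul_right _ (by omega)
        linarith)
  rw [hk'] at this
  push_cast at this ⊢
  refine this.trans (add_le_add le_rfl (sum_le_sum fun x _ => ?_))
  exact mul_le_mul_of_nonneg_right (by exact_mod_cast fl_take_len _ l ms) (Ph_nonneg _ _ _ _ _ _)

lemma EL_ZZ (hn : 4 ≤ n) (x : Fin n) (k r : ℕ) (hr : 1 ≤ r) (α β : ℕ) :
    EL _ α (fun a => EL _ β (fun b : List {c // ¬ Av x c} =>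
      ZZ x k (r ^ 4) β a (fl (Ps x) b) (fl (fun c => ¬ Ps x c) b))) ≤
      2 ^ (β + 1) * (5184 / r + 64 / ((n : ℝ) - 1) ^ 4 * (α + 1)) := by
  have := nonempty_Av hn x
  have := nonempty_nAv hn x
  have := nonempty_Ps hn x
  have := nonempty_nPs hn x
  set Λ : ℝ := 5184 / r + 64 / ((n : ℝ) - 1) ^ 4 * (α + 1) with hΛ
  have hΛ0 : 0 ≤ Λ := by positivity
  rw [EL_comm]
  have := split (Ps x) 1 le_rfl β (fun D1 D2 => EL _ α (fun a => ZZ x k (r ^ 4) β a D1 D2))
    (2 ^ (β + 1) * Λ) ?_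
  · simpa using this
  intro β1 β2 hβ
  rw [one_pow, mul_one]
  have e : EL _ β1 (fun D1 => EL _ β2 (fun D2 => EL _ α (fun a => ZZ x k (r ^ 4) β a D1 D2))) =
      EL _ α (fun a => EL _ β1 (fun D1 => EL _ β2 (fun D2 => ZZ x k (r ^ 4) β a D1 D2))) := by
    rw [EL_comm α β1]; congr 1; funext D1; rw [EL_comm]
  rw [e]
  set L := α + 1 - β * r ^ 4 with hL
  have e2 : ∀ a : List {c // Av x c}, a.length = α →
      EL _ β1 (fun D1 => EL _ β2 (fun D2 => ZZ x k (r ^ 4) β a D1 D2)) ≤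
      ∑ μ ∈ range L, (1 / 2 * (al k (0 + cs (vA x) (a.take (μ + β1 * r ^ 4))) *
          qq (w1 x) k β1 (0 + cs (vA x) (a.take μ))) ^ 2 +
        1 / 2 * (al k (0 + cs (vA x) (a.take (μ + β2 * r ^ 4))) *
          qq (w2 x) k β2 (0 + cs (vA x) (a.take μ))) ^ 2) := by
    intro a ha
    simp only [ZZ, EL_sum, EL_mul_left, EL_mul_right, ha, zero_add]
    refine sum_le_sum fun μ _ => ?_
    change _ * (qq (w1 x) k β1 _ * qq (w2 x) k β2 _) ≤ _
    have q1 := qq_nonneg (w1 x) k β1 (cs (vA x) (a.take μ))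
    have q2 := qq_nonneg (w2 x) k β2 (cs (vA x) (a.take μ))
    rcases al_cases k (cs (vA x) (a.take (μ + β * r ^ 4))) with h0 | h1
    · rw [h0, zero_mul]; positivity
    · have a1 : al k (cs (vA x) (a.take (μ + β1 * r ^ 4))) = 1 :=
        le_antisymm (al_le_one _ _) (h1 ▸ al_anti k (cs_take_mono _ _
          (Nat.add_le_add_left (Nat.mul_le_mul_right _ (by omega)) _)))
      have a2 : al k (cs (vA x) (a.take (μ + β2 * r ^ 4))) = 1 :=
        le_antisymm (al_le_one _ _) (h1 ▸ al_anti k (cs_take_mono _ _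
          (Nat.add_le_add_left (Nat.mul_le_mul_right _ (by omega)) _)))
      rw [h1, a1, a2]
      nlinarith [sq_nonneg (qq (w1 x) k β1 (cs (vA x) (a.take μ)) -
        qq (w2 x) k β2 (cs (vA x) (a.take μ)))]
  refine (EL_mono α e2).trans ?_
  simp only [EL_sum, EL_add, EL_mul_left, sum_add_distrib, ← mul_sum]
  by_cases hL0 : L = 0
  · rw [hL0]; simp; positivity
  have m1 : β1 * r ^ 4 ≤ β * r ^ 4 := Nat.mul_le_mul_right _ (by omega)
  have m2 : β2 * r ^ 4 ≤ β * r ^ 4 := Nat.mul_le_mul_right _ (by omega)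
  have f1 := family (vA x) (w1 x) k (r ^ 4) (5184 / r) (64 / ((n : ℝ) - 1) ^ 4) (by positivity)
    (by positivity) (fun h => kill_ineq hn x k r hr h _ (KK_nonneg _ _ _) (KK_half hn x k h).1)
    α L β1 (by omega) 0
  have f2 := family (vA x) (w2 x) k (r ^ 4) (5184 / r) (64 / ((n : ℝ) - 1) ^ 4) (by positivity)
    (by positivity) (fun h => kill_ineq hn x k r hr h _ (KK_nonneg _ _ _) (KK_half hn x k h).2)
    α L β2 (by omega) 0
  have p1 : (2 : ℝ) ^ (β1 + 1) ≤ 2 ^ (β + 1) := pow_le_pow_right₀ (by norm_num) (by omega)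
  have p2 : (2 : ℝ) ^ (β2 + 1) ≤ 2 ^ (β + 1) := pow_le_pow_right₀ (by norm_num) (by omega)
  rw [← hΛ] at f1 f2
  nlinarith [mul_le_mul_of_nonneg_right p1 hΛ0, mul_le_mul_of_nonneg_right p2 hΛ0]

lemma EL_Ph (hn : 4 ≤ n) (x : Fin n) (k r : ℕ) (hr : 1 ≤ r) (M : ℕ) :
    EL _ M (fun l => ((bL x l).length : ℝ) * Ph x k (r ^ 4) (5 * r) (aL x l) (bL x l)) ≤
      (2 / r + 2 * (5184 / r + 64 / ((n : ℝ) - 1) ^ 4 * (M + 1))) * (1 + 3 / n * 7) ^ M := by
  have := nonempty_clause hn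
  have := nonempty_Av hn x
  have := nonempty_nAv hn x
  have h := split (Av x) 8 (by norm_num) M
    (fun a b => (b.length : ℝ) * Ph x k (r ^ 4) (5 * r) a b)
    (2 / r + 2 * (5184 / r + 64 / ((n : ℝ) - 1) ^ 4 * (M + 1))) ?_
  · rw [p_eq hn x] at h; norm_num at h ⊢; exact h
  intro α β hαβ
  have hr' : (1 : ℝ) ≤ r := by exact_mod_cast hr
  have e : ∀ a : List {c // Av x c}, EL _ β (fun b => (b.length : ℝ) * Ph x k (r ^ 4) (5 * r) a b) =
      (β : ℝ) * (if 5 * r < β then ((β * (r ^ 4 + 1) : ℕ) : ℝ) else 0) + β * (β + 1) *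
        EL _ β (fun b => ZZ x k (r ^ 4) β a (fl (Ps x) b) (fl (fun c => ¬ Ps x c) b)) := by
    intro a
    rw [← EL_mul_left, ← EL_const (X := {c // ¬ Av x c}) β
      ((β : ℝ) * (if 5 * r < β then ((β * (r ^ 4 + 1) : ℕ) : ℝ) else 0)), ← EL_add]
    refine EL_congr β fun b hb => ?_
    unfold Ph; rw [hb]; ring
  simp only [e, EL_add, EL_const, EL_mul_left]
  have z := EL_ZZ hn x k r hr α β
  have b1 : (β : ℝ) + 1 ≤ 2 ^ β := by exact_mod_cast Nat.lt_two_pow_self
  have b0 : (0 : ℝ) ≤ β := Nat.cast_nonneg _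
  have b2 : (β : ℝ) * (β + 1) ≤ 2 ^ β * 2 ^ β := by nlinarith
  have e8 : (8 : ℝ) ^ β = 2 ^ β * 2 ^ β * 2 ^ β := by rw [← mul_pow, ← mul_pow]; norm_num
  have t1 : (β : ℝ) * (if 5 * r < β then ((β * (r ^ 4 + 1) : ℕ) : ℝ) else 0) ≤ 2 / r * 8 ^ β := by
    split_ifs with h
    · have r1 : (r : ℝ) ≤ 2 ^ r := by exact_mod_cast Nat.lt_two_pow_self.le
      have r2 : (r : ℝ) ^ 5 ≤ 2 ^ β := by
        refine (pow_le_pow_left₀ (by positivity) r1 5).trans ?_
        rw [← pow_mul]; exact pow_le_pow_right₀ (by norm_num) (by omega)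
      have r3 : (1 : ℝ) ≤ r ^ 4 := one_le_pow₀ hr'
      rw [div_mul_eq_mul_div, le_div_iff₀ (by positivity), e8]; push_cast
      have : (β : ℝ) * β ≤ 2 ^ β * 2 ^ β := by nlinarith
      have h5 : ((r : ℝ) ^ 4 + 1) * r ≤ 2 * 2 ^ β := by nlinarith
      calc (β : ℝ) * (β * (r ^ 4 + 1)) * r = (β * β) * ((r ^ 4 + 1) * r) := by ring
        _ ≤ (2 ^ β * 2 ^ β) * (2 * 2 ^ β) := mul_le_mul this h5 (by positivity) (by positivity)
        _ = _ := by ring
    · simp; positivity
  have hα : (α : ℝ) ≤ M := by exact_mod_cast (by omega : α ≤ M)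
  have L1 : 5184 / r + 64 / ((n : ℝ) - 1) ^ 4 * (α + 1) ≤
      5184 / r + 64 / ((n : ℝ) - 1) ^ 4 * (M + 1) := by gcongr
  have L0 : 0 ≤ 5184 / r + 64 / ((n : ℝ) - 1) ^ 4 * (α + 1) := by positivity
  have t2 := mul_le_mul b2 (z.trans (mul_le_mul_of_nonneg_left L1 (by positivity)))
    (EL_nonneg _ fun _ _ => EL_nonneg _ fun _ _ => ZZ_nonneg _ _ _ _ _ _ _) (by positivity)
  rw [add_mul]
  refine add_le_add t1 (t2.trans (le_of_eq ?_))
  rw [e8]; ring

lemma EL_Gk (c0 : ℕ) : ∃ C : ℝ, 0 ≤ C ∧ ∀ n : ℕ, 4 ≤ n → ∀ M ≤ c0 * n, ∀ k r : ℕ, 1 ≤ r → r ≤ n →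
    EL (Clause 3 n) M (Gk k) ≤ 10 * r ^ 5 + C * n / ((k + 1) * r) := by
  refine ⟨(2 + 2 * (5184 + 1024 * (c0 + 1))) * Real.exp (21 * c0), by positivity, ?_⟩
  intro n hn M hM k r hr hrn
  have := nonempty_clause hn
  have h1 := EL_mono (X := Clause 3 n) M fun l _ => path k (r ^ 4) (5 * r) l
  rw [EL_mul_left, EL_add, EL_const, EL_sum] at h1
  have h2 := sum_le_sum fun x (_ : x ∈ (univ : Finset (Fin n))) => EL_Ph hn x k r hr M
  rw [sum_const, card_univ, Fintype.card_fin, nsmul_eq_mul] at h2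
  have hr' : (1 : ℝ) ≤ r := by exact_mod_cast hr
  have hn' : (4 : ℝ) ≤ n := by exact_mod_cast hn
  have hrn' : (r : ℝ) ≤ n := by exact_mod_cast hrn
  have hM' : (M : ℝ) ≤ c0 * n := by exact_mod_cast hM
  have e1 : (1 + 3 / (n : ℝ) * 7) ^ M ≤ Real.exp (21 * c0) := by
    have : 1 + 3 / (n : ℝ) * 7 ≤ Real.exp (21 / n) := by
      have := Real.add_one_le_exp (21 / (n : ℝ))
      have e : 3 / (n : ℝ) * 7 = 21 / n := by ring
      linarith
    refine (pow_le_pow_left₀ (by positivity) this M).trans ?_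
    rw [← Real.exp_nat_mul]
    refine Real.exp_le_exp.2 ?_
    rw [mul_div_assoc', div_le_iff₀ (by positivity)]; nlinarith
  have e2 : 64 / ((n : ℝ) - 1) ^ 4 * (M + 1) ≤ 1024 * (c0 + 1) / r := by
    have n1 : (n : ℝ) ≤ 2 * (n - 1) := by linarith
    have n2 := pow_le_pow_left₀ (by positivity) n1 4
    have n0 : (0 : ℝ) < n - 1 := by linarith
    have c : (0 : ℝ) ≤ c0 := Nat.cast_nonneg _
    rw [div_mul_eq_mul_div, div_le_div_iff₀ (by positivity) (by positivity)]
    have m1 : (M : ℝ) + 1 ≤ (c0 + 1) * n := by nlinarith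
    have m2 : ((M : ℝ) + 1) * r ≤ (c0 + 1) * n * n := mul_le_mul m1 hrn' (by positivity) (by positivity)
    have m3 : (n : ℝ) * n ≤ n ^ 4 := by nlinarith [sq_nonneg ((n : ℝ) * n)]
    have m4 : ((c0 : ℝ) + 1) * (n * n) ≤ (c0 + 1) * (16 * (n - 1) ^ 4) :=
      mul_le_mul_of_nonneg_left (by nlinarith) (by positivity)
    nlinarith
  have e3 : 2 / (r : ℝ) + 2 * (5184 / r + 64 / ((n : ℝ) - 1) ^ 4 * (M + 1)) ≤
      (2 + 2 * (5184 + 1024 * (c0 + 1))) / r := by
    have : (2 + 2 * (5184 + 1024 * ((c0 : ℝ) + 1))) / r =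
        2 / r + 2 * (5184 / r + 1024 * (c0 + 1) / r) := by ring
    rw [this]; linarith
  have e4 := mul_le_mul e3 e1 (by positivity) (by positivity)
  have e5 : ((5 * r * (r ^ 4 + 1) : ℕ) : ℝ) ≤ 10 * r ^ 5 := by
    push_cast
    have : (1 : ℝ) ≤ r ^ 4 := one_le_pow₀ hr'
    nlinarith
  have k0 : (0 : ℝ) < k + 1 := by positivity
  have h3 : ((k : ℝ) + 1) * EL (Clause 3 n) M (Gk k) ≤ (k + 1) * (10 * r ^ 5) +
      n * ((2 + 2 * (5184 + 1024 * (c0 + 1))) / r * Real.exp (21 * c0)) := by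
    have a1 := mul_le_mul_of_nonneg_left e4 (by positivity : (0 : ℝ) ≤ n)
    have a2 := mul_le_mul_of_nonneg_left e5 k0.le
    exact h1.trans (add_le_add a2 (h2.trans a1))
  refine le_of_mul_le_mul_left (h3.trans (le_of_eq ?_)) k0
  field_simp

/-- probability that the energy after `m` clauses is at most `k` -/
noncomputable def PE (n k m : ℕ) : ℝ := EL (Clause 3 n) m (fun l => al k (cs vc l))

lemma PE_anti (hn : 4 ≤ n) (k : ℕ) {m m' : ℕ} (h : m ≤ m') : PE n k m' ≤ PE n k m := by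
  have := nonempty_clause hn
  unfold PE
  rw [← EL_take h]
  exact EL_mono _ fun l _ => al_anti k (cs_take_le _ _ _)

lemma PE_mono (m : ℕ) {k k' : ℕ} (h : k ≤ k') : PE n k m ≤ PE n k' m :=
  EL_mono _ fun l _ => by
    rcases al_cases k (cs vc l) with h0 | h1
    · rw [h0]; exact al_nonneg _ _
    · obtain ⟨σ, hσ⟩ := al_eq_one.1 h1
      rw [h1, al_eq_one.2 ⟨σ, hσ.trans h⟩]

lemma EL_Gk_eq (hn : 4 ≤ n) (k M : ℕ) :
    EL (Clause 3 n) M (Gk k) = ∑ m ∈ range (M + 1), (PE n (k + 1) m - PE n k m) := by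
  have := nonempty_clause hn
  have : EL (Clause 3 n) M (Gk k) = EL (Clause 3 n) M (fun l => ∑ m ∈ range (M + 1),
      (al (k + 1) (cs vc (l.take m)) - al k (cs vc (l.take m)))) :=
    EL_congr M fun l hl => by rw [Gk, hl]
  rw [this, EL_sum]
  refine sum_congr rfl fun m hm => ?_
  have hm' : m ≤ M := by have := mem_range.1 hm; omega
  rw [EL_sub, EL_take hm' (fun l => al (k + 1) (cs vc l)), EL_take hm' (fun l => al k (cs vc l))]
  rfl

theorem gap (c0 : ℕ) : ∃ C : ℝ, 0 ≤ C ∧ ∀ n : ℕ, 4 ≤ n → ∀ M ≤ c0 * n, ∀ j K : ℕ, 1 ≤ j →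
    K * j ^ 6 ≤ n → ∑ m ∈ range (M + 1), (PE n K m - PE n 0 m) ≤ C * n / j := by
  obtain ⟨C, hC, h⟩ := EL_Gk c0
  refine ⟨12 * (10 + C), by positivity, fun n hn M hM j K hj hK => ?_⟩
  have hn0 : (0 : ℝ) < n := by exact_mod_cast (by omega : 0 < n)
  set u : ℕ → ℝ := fun k => ((k : ℝ) / n) ^ ((6 : ℕ) : ℝ)⁻¹ with hu
  have u0 : ∀ k, 0 ≤ u k := fun k => Real.rpow_nonneg (by positivity) _
  have u6 : ∀ k, u k ^ 6 = k / n := fun k => Real.rpow_inv_natCast_pow (by positivity) (by norm_num)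
  have step : ∀ k ∈ range K, EL (Clause 3 n) M (Gk k) ≤ 12 * (10 + C) * n * (u (k + 1) - u k) := by
    intro k hk
    have hk1 : k + 1 ≤ n := by
      have := mem_range.1 hk
      have : 1 ≤ j ^ 6 := Nat.one_le_pow _ _ hj
      nlinarith
    set r := Nat.findGreatest (fun r => r ^ 6 * (k + 1) ≤ n) n
    have r1 : 1 ≤ r := Nat.le_findGreatest (by omega) (by simpa using hk1)
    have r2 : r ^ 6 * (k + 1) ≤ n :=
      Nat.findGreatest_spec (P := fun r => r ^ 6 * (k + 1) ≤ n) (m := 1) (by omega)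
        (by simpa using hk1)
    have r3 : r ≤ n := Nat.findGreatest_le _
    have r4 : n < (2 * r) ^ 6 * (k + 1) := by
      by_cases hr : r + 1 ≤ n
      · have := Nat.findGreatest_is_greatest (P := fun r => r ^ 6 * (k + 1) ≤ n)
          (Nat.lt_add_one r) hr
        have h2 : (r + 1) ^ 6 ≤ (2 * r) ^ 6 := Nat.pow_le_pow_left (by omega) _
        have := Nat.mul_le_mul_right (k + 1) h2
        omega
      · have h2 : 2 * r ≤ (2 * r) ^ 6 := Nat.le_self_pow (by norm_num) _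
        nlinarith
    have hr' : (1 : ℝ) ≤ r := by exact_mod_cast r1
    have r2' : (r : ℝ) ^ 6 * (k + 1) ≤ n := by exact_mod_cast r2
    have r4' : (n : ℝ) < (2 * r) ^ 6 * (k + 1) := by exact_mod_cast r4
    have k0 : (0 : ℝ) < k + 1 := by positivity
    have a1 : (r : ℝ) ^ 5 ≤ n / ((k + 1) * r) := by
      rw [le_div_iff₀ (by positivity)]; nlinarith
    have a2 : 1 ≤ 2 * r * u (k + 1) := by
      refine le_of_not_gt fun hlt => ?_
      have := pow_lt_one₀ (by have := u0 (k + 1); positivity) hlt (n := 6) (by norm_num)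
      rw [mul_pow, u6, mul_div_assoc', div_lt_one hn0] at this
      push_cast at this; linarith
    have a3 : u (k + 1) ≤ 6 * (k + 1) * (u (k + 1) - u k) := by
      have p1 := u6 (k + 1)
      have p0 := u6 k
      have q1 := u0 (k + 1)
      have q0 := u0 k
      have le : u k ≤ u (k + 1) := by
        refine le_of_pow_le_pow_left₀ (n := 6) (by norm_num) q1 ?_
        rw [p0, p1]; push_cast; gcongr; linarith
      set a := u (k + 1)
      set b := u k
      have d1 : a ^ 6 - b ^ 6 ≤ 6 * a ^ 5 * (a - b) := by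
        have e : 6 * a ^ 5 * (a - b) - (a ^ 6 - b ^ 6) = (a - b) ^ 2 *
            (5 * a ^ 4 + 4 * a ^ 3 * b + 3 * a ^ 2 * b ^ 2 + 2 * a * b ^ 3 + b ^ 4) := by ring
        have : 0 ≤ (a - b) ^ 2 *
            (5 * a ^ 4 + 4 * a ^ 3 * b + 3 * a ^ 2 * b ^ 2 + 2 * a * b ^ 3 + b ^ 4) := by positivity
        linarith
      have d2 : a ^ 6 - b ^ 6 = 1 / n := by rw [p0, p1]; push_cast; ring
      have d3 : a * (1 / n) ≤ 6 * a ^ 6 * (a - b) := by
        have := mul_le_mul_of_nonneg_left (d2 ▸ d1) q1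
        linarith [show a * (6 * a ^ 5 * (a - b)) = 6 * a ^ 6 * (a - b) by ring]
      rw [p1] at d3; push_cast at d3
      have d4 := mul_le_mul_of_nonneg_right d3 hn0.le
      have e1 : a * (1 / n) * n = a := by field_simp
      have e2 : 6 * (((k : ℝ) + 1) / n) * (a - b) * n = 6 * (k + 1) * (a - b) := by field_simp
      linarith
    have a4 : (n : ℝ) / ((k + 1) * r) ≤ 12 * n * (u (k + 1) - u k) := by
      rw [div_le_iff₀ (by positivity)]
      have : 1 ≤ 2 * r * (6 * (k + 1) * (u (k + 1) - u k)) :=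
        a2.trans (mul_le_mul_of_nonneg_left a3 (by positivity))
      nlinarith
    have a5 := h n hn M hM k r r1 r3
    have a6 := mul_le_mul_of_nonneg_left a4 hC
    rw [mul_div_assoc] at a5
    nlinarith
  have tot := sum_le_sum step
  rw [← mul_sum, sum_range_sub] at tot
  simp only [EL_Gk_eq hn] at tot
  rw [sum_comm] at tot
  have tel : ∀ m, ∑ k ∈ range K, (PE n (k + 1) m - PE n k m) = PE n K m - PE n 0 m :=
    fun m => sum_range_sub (fun k => PE n k m) K
  simp only [tel] at tot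
  refine tot.trans ?_
  have hj' : (1 : ℝ) ≤ j := by exact_mod_cast hj
  have : u K * j ≤ 1 := by
    refine le_of_pow_le_pow_left₀ (n := 6) (by norm_num) (by norm_num) ?_
    rw [mul_pow, u6, one_pow, div_mul_eq_mul_div, div_le_one hn0]; exact_mod_cast hK
  rw [le_div_iff₀ (by positivity)]
  have := u0 0
  have c0 : 0 ≤ 12 * (10 + C) * n := by positivity
  have : (u K - u 0) * j ≤ 1 := by nlinarith
  nlinarith

theorem energy (c0 : ℕ) : ∃ C : ℕ, ∀ n : ℕ, 4 ≤ n → ∀ M ≤ c0 * n, ∀ j K m : ℕ, 1 ≤ j →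
    K * j ^ 6 ≤ n → m ≤ M → C * n ≤ (M - m) * j → PE n 0 m ≤ 1 / 4 → PE n K M ≤ 1 / 2 := by
  obtain ⟨C, hC, h⟩ := gap c0
  refine ⟨⌈4 * C⌉₊, fun n hn M hM j K m hj hK hm hC' h0 => ?_⟩
  have h1 := h n hn M hM j K hj hK
  have h2 : ∑ i ∈ Icc m M, (PE n K M - 1 / 4) ≤ ∑ m ∈ range (M + 1), (PE n K m - PE n 0 m) := by
    refine le_trans (sum_le_sum fun i hi => ?_) (sum_le_sum_of_subset_of_nonneg
      (s := Icc m M) (fun i hi => ?_) fun i _ _ => sub_nonneg.2 (PE_mono i (Nat.zero_le _)))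
    · have := mem_Icc.1 hi
      have a1 := PE_anti hn K this.2
      have a2 := PE_anti hn 0 this.1
      linarith
    · have := mem_Icc.1 hi
      exact mem_range.2 (by omega)
  rw [sum_const, Nat.card_Icc, nsmul_eq_mul] at h2
  have hj' : (1 : ℝ) ≤ j := by exact_mod_cast hj
  have h3 := h2.trans h1
  rw [le_div_iff₀ (by positivity)] at h3
  have h4 : 4 * C * n ≤ ((M + 1 - m : ℕ) : ℝ) * j := by
    have a1 : ((⌈4 * C⌉₊ * n : ℕ) : ℝ) ≤ ((M + 1 - m) * j : ℕ) := by
      exact_mod_cast hC'.trans (Nat.mul_le_mul_right _ (by omega))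
    have a2 := mul_le_mul_of_nonneg_right (Nat.le_ceil (4 * C)) (Nat.cast_nonneg (α := ℝ) n)
    push_cast at a1 ⊢; linarith
  have h5 : (0 : ℝ) < ((M + 1 - m : ℕ) : ℝ) * j := by
    have : 0 < M + 1 - m := by omega
    positivity
  by_contra h6
  push Not at h6
  nlinarith

lemma EL_univ {X : Type*} [Fintype X] : ∀ (m : ℕ) (F : List X → ℝ),
    EL X m F = av fun f : Fin m → X => F (List.ofFn f)
  | 0, F => by simp [EL, av]
  | m + 1, F => by
    simp only [EL, av, EL_univ m]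
    rw [← sum_div, div_div, ← Fintype.sum_prod_type', ← (Fin.consEquiv (fun _ => X)).sum_comp]
    congr 1
    · apply sum_congr rfl; intro p _; simp [Fin.consEquiv, List.ofFn_succ]
    · simp [pow_succ]

lemma PE_zero (n m : ℕ) : PE n 0 m = satProb 3 n m := by
  classical
  rw [PE, EL_univ, satProb, Crest.FinProb.uniformProb, av]
  congr 1
  rw [card_filter]; push_cast
  refine sum_congr rfl fun F _ => ?_
  have : (∃ σ, cs vc (List.ofFn F) σ ≤ 0) ↔ Satisfiable F := by
    refine exists_congr fun σ => ?_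
    simp only [cs, Nat.le_zero, List.map_ofFn, List.sum_ofFn, Finset.sum_apply, Function.comp,
      sum_eq_zero_iff, mem_univ, true_imp_iff]
    refine forall_congr' fun j => ?_
    unfold vc; split_ifs <;> simp [*]
  unfold al
  by_cases h : Satisfiable F
  · rw [if_pos (this.2 h), if_pos (by exact h)]
  · rw [if_neg (fun h' => h (this.1 h')), if_neg (by exact h)]

end Crest.Agent.H5.SAT
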