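import Mathlib
import Crest.Agent.H5.SAT.C
import Crest.Agent.H9.MP.Defs

/-! The 3-SAT interaction law and integrals against it. -/

set_option autoImplicit false

namespace Crest.Agent.H5.SAT

open Finset MeasureTheory Crest.ProbabilityR.Diluted ProbabilityTheory
open Crest.Agent.H9.MP

section unif
variable {X E : Type*} [Fintype X] [MeasurableSpace X] [MeasurableSingletonClass X]

/-- uniform probability measure -/
def IsUnif (P : Measure X) : Prop := ∀ x, P {x} = (Fintype.card X : ENNReal)⁻¹

omit [MeasurableSingletonClass X] in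
lemma IsUnif.pi {P : Measure X} [IsProbabilityMeasure P] (h : IsUnif P) (ι : Type) [Fintype ι]
    [DecidableEq ι] : IsUnif (Measure.pi fun _ : ι => P) := fun x => by
  rw [Measure.pi_singleton]
  simp only [h _, prod_const, card_univ, Fintype.card_fun, Nat.cast_pow, ENNReal.inv_pow]

lemma IsUnif.integral_map {P : Measure X} (h : IsUnif P) [MeasurableSpace E]
    [MeasurableSingletonClass E] (g : X → E) (Φ : E → ℝ) :
    ∫ e, Φ e ∂(P.map g) = av fun x => Φ (g x) := by
  have hg : Measurable g := measurable_of_countable g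
  have e : P.map g = ∑ x, (Fintype.card X : ENNReal)⁻¹ • Measure.dirac (g x) := by
    conv_lhs => rw [← Measure.sum_smul_dirac P, Measure.map_sum hg.aemeasurable]
    rw [Measure.sum_fintype]
    refine sum_congr rfl fun x _ => ?_
    rw [Measure.map_smul, Measure.map_dirac' hg, h x]
  rw [e, integral_finsetSum_measure]
  · simp only [integral_smul_measure, integral_dirac, av, sum_div]
    refine sum_congr rfl fun x _ => ?_
    simp [div_eq_inv_mul]
  · intro x _
    have : Nonempty X := ⟨x⟩
    exact (integrable_dirac (by simp)).smul_measure (by simp [Fintype.card_ne_zero])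

lemma IsUnif.integral_pi {P : Measure X} [IsProbabilityMeasure P] (h : IsUnif P)
    [MeasurableSpace E] [MeasurableSingletonClass E] (g : X → E) (ι : Type) [Fintype ι]
    [DecidableEq ι] (Φ : (ι → E) → ℝ) :
    ∫ e, Φ e ∂(Measure.pi fun _ : ι => P.map g) = av fun x : ι → X => Φ (fun i => g (x i)) := by
  have hg : Measurable g := measurable_of_countable g
  have : IsProbabilityMeasure (P.map g) := Measure.isProbabilityMeasure_map hg.aemeasurable
  rw [← Measure.pi_map_pi (fun _ => hg.aemeasurable), (h.pi ι).integral_map]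

end unif

/-- fair coin -/
noncomputable def coin : Measure Bool := uniformOn Set.univ

instance : IsProbabilityMeasure coin := by unfold coin; infer_instance

lemma coin_unif : IsUnif coin := fun x => by
  unfold coin; rw [uniformOn_univ]; simp

/-- three fair coins -/
noncomputable def coin3 : Measure (Fin 3 → Bool) := Measure.pi fun _ => coin

instance : IsProbabilityMeasure coin3 := by unfold coin3; infer_instance

lemma coin3_unif : IsUnif coin3 := coin_unif.pi _

/-- literal is false -/
def ff (j s : Bool) : ℝ := if s = j then 0 else 1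

/-- the clause interaction at inverse temperature `b log 2` -/
noncomputable def th (b : ℕ) (J : Fin 3 → Bool) : Inter 3 :=
  fun s => Real.log (1 * (1 + ((1 / 2) ^ b - 1) * ∏ ℓ, ff (J ℓ) (s ℓ)))

/-- violation indicator -/
def vi (J s : Fin 3 → Bool) : ℕ := if ∃ ℓ, s ℓ = J ℓ then 0 else 1

lemma prod_ff (J s : Fin 3 → Bool) : ∏ ℓ, ff (J ℓ) (s ℓ) = vi J s := by
  unfold vi
  split_ifs with h
  · obtain ⟨ℓ, h⟩ := h
    rw [prod_eq_zero (mem_univ ℓ) (by simp [ff, h])]; simp
  · rw [prod_eq_one fun ℓ _ => by simp only [ff]; rw [if_neg (fun h' => h ⟨ℓ, h'⟩)]]; simp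

lemma exp_th (b : ℕ) (J s : Fin 3 → Bool) : Real.exp (th b J s) = ((1 / 2) ^ b) ^ vi J s := by
  unfold th; rw [prod_ff]
  unfold vi; split_ifs
  · simp
  · simp only [Nat.cast_one, mul_one, one_mul, pow_one]
    rw [Real.exp_log (by simp)]; ring

/-- the 3-SAT law -/
noncomputable def mu (b : ℕ) : Measure (Inter 3) := coin3.map (th b)

instance (b : ℕ) : IsProbabilityMeasure (mu b) :=
  Measure.isProbabilityMeasure_map (measurable_of_countable _).aemeasurable

/-- no field -/
noncomputable def nu : Measure ℝ := coin.map fun _ => 0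

instance : IsProbabilityMeasure nu :=
  Measure.isProbabilityMeasure_map (measurable_of_countable _).aemeasurable

lemma nu_eq : nu = Measure.dirac 0 := by
  unfold nu; rw [Measure.map_const, measure_univ, one_smul]

lemma int_nu : Integrable (fun x : ℝ => x) nu := by
  rw [nu_eq]; exact integrable_dirac (by simp)

lemma int_mu (b : ℕ) : Integrable (fun θ => supNorm θ) (mu b) := by
  have : Measurable (fun θ : Inter 3 => supNorm θ) := by
    unfold supNorm
    exact Measurable.iSup fun s => (measurable_pi_apply s).abs
  unfold mu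
  rw [integrable_map_measure this.aestronglyMeasurable (measurable_of_countable _).aemeasurable]
  exact Integrable.of_finite

lemma fac_mu (b : ℕ) : Fac 3 (mu b) := by
  have h0 : (0 : ℝ) < (1 / 2) ^ b := by positivity
  have h1 : (1 / 2 : ℝ) ^ b ≤ 1 := pow_le_one₀ (by norm_num) (by norm_num)
  refine ⟨Fin 3 → Bool, inferInstance, coin3, inferInstance, fun _ => 1,
    fun _ => (1 / 2) ^ b - 1, fun ℓ J => ff (J ℓ), measurable_const, measurable_const,
    fun _ => measurable_of_countable _, ?_, ?_, indepFun_const_left _ _, ?_, ?_, rfl, Or.inr ?_⟩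
  · exact iIndepFun_pi (X := fun _ => ff) fun _ => (measurable_of_countable _).aemeasurable
  · intro ℓ
    have e : ∀ ℓ : Fin 3, coin3.map (fun J => ff (J ℓ)) = coin.map ff := fun ℓ => by
      rw [← (measurePreserving_eval (fun _ : Fin 3 => coin) ℓ).map_eq,
        Measure.map_map (measurable_of_countable _) (measurable_of_countable _)]
      rfl
    exact ⟨(measurable_of_countable _).aemeasurable, (measurable_of_countable _).aemeasurable,
      by rw [e, e]⟩
  · refine Filter.Eventually.of_forall fun J => ⟨one_pos, fun s => ?_⟩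
    rw [prod_ff]; unfold vi; split_ifs
    · simp
    · rw [abs_lt]; constructor <;> simp only [Nat.cast_one, mul_one] <;> linarith
  · intro n _
    refine ⟨integrable_const _, ?_⟩
    simp only [integral_const, probReal_univ, smul_eq_mul, one_mul]
    exact pow_nonneg (by linarith) _
  · intro ℓ J s; simp only [ff]; split_ifs <;> norm_num

/-- clauses with repeated variables allowed -/
abbrev CR (N : ℕ) : Type := (Fin 3 → Fin N) × (Fin 3 → Bool)

/-- violation indicator -/
def vw {N : ℕ} (c : CR N) (σ : Fin N → Bool) : ℕ := vi c.2 fun ℓ => σ (c.1 ℓ)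

/-- log partition function -/
noncomputable def lz (b : ℕ) {N : ℕ} (l : List (CR N)) : ℝ :=
  Real.log (∑ σ : Fin N → Bool, ((1 / 2 : ℝ) ^ b) ^ cs vw l σ)

lemma av_prod {X Y : Type*} [Fintype X] [Fintype Y] (f : X × Y → ℝ) :
    av f = av fun x => av fun y => f (x, y) := by
  simp only [av, ← sum_div, Fintype.sum_prod_type, Fintype.card_prod, Nat.cast_mul, div_div,
    mul_comm]

lemma av_equiv {X Y : Type*} [Fintype X] [Fintype Y] (e : X ≃ Y) (f : Y → ℝ) :
    av (fun x => f (e x)) = av f := by
  simp only [av, e.sum_comp, Fintype.card_congr e]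

lemma pressure_eq (b : ℕ) (c : ℝ) (N : ℕ) :
    pressure 3 c (mu b) nu N =
      1 / (N : ℝ) * ∑' M : ℕ, poissonWeight (c * N) M * EL (CR N) M (lz b) := by
  unfold pressure
  congr 1
  refine tsum_congr fun M => ?_
  congr 1
  unfold mu nu
  rw [coin3_unif.integral_pi]
  simp only [coin_unif.integral_pi, av_const]
  rw [EL_univ, ← av_equiv (Equiv.arrowProdEquivProdArrow _ _ _).symm, av_prod, av_comm]
  congr 1; funext J
  rw [av, div_eq_inv_mul]
  congr 1
  refine sum_congr rfl fun idx _ => ?_
  unfold logPartition lz
  congr 1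
  refine sum_congr rfl fun σ _ => ?_
  simp only [zero_mul, sum_const_zero, add_zero, Real.exp_sum, exp_th, cs, List.map_ofFn,
    List.sum_ofFn, Finset.sum_apply, prod_pow_eq_pow_sum]
  rfl

end Crest.Agent.H5.SAT
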