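import Mathlib
import Crest.Agent.H5.SAT.D
import Crest.Agent.H9.MP.Poi

/-! Pressure of random 3-SAT below and above the threshold. -/

set_option autoImplicit false

namespace Crest.Agent.H5.SAT

open Finset Filter Crest.ProbabilityR.Diluted Crest.ProbabilityR.RandomSAT
open Crest.Agent.H9.MP

/-- ground state energy -/
noncomputable def emin {Ω : Type*} (h : Ω → ℕ) : ℕ := sInf (Set.range h)

lemma emin_le {Ω : Type*} (h : Ω → ℕ) (σ : Ω) : emin h ≤ h σ := Nat.sInf_le ⟨σ, rfl⟩
lemma emin_mem {Ω : Type*} [Nonempty Ω] (h : Ω → ℕ) : ∃ σ, h σ = emin h :=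
  Nat.sInf_mem (Set.range_nonempty h)

lemma vi_le_one (J s : Fin 3 → Bool) : vi J s ≤ 1 := by unfold vi; split_ifs <;> simp

lemma cs_le_length {X Ω : Type*} {v : X → Ω → ℕ} (hv : ∀ x σ, v x σ ≤ 1) (σ : Ω) :
    ∀ l : List X, cs v l σ ≤ l.length
  | [] => le_rfl
  | x :: l => by
    have := cs_le_length hv σ l
    have := hv x σ
    simp only [cs_cons, Pi.add_apply, List.length_cons]; omega

variable {N : ℕ}

lemma vw_le_one (c : CR N) (σ : Fin N → Bool) : vw c σ ≤ 1 := vi_le_one _ _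

lemma lz_lower (b : ℕ) (l : List (CR N)) : -((b : ℝ) * emin (cs vw l)) ≤ lz b l := by
  obtain ⟨σ, hσ⟩ := emin_mem (cs vw l)
  have h1 : ((1 / 2 : ℝ) ^ b) ^ cs vw l σ ≤ ∑ σ : Fin N → Bool, ((1 / 2 : ℝ) ^ b) ^ cs vw l σ :=
    single_le_sum (f := fun σ => ((1 / 2 : ℝ) ^ b) ^ cs vw l σ) (fun _ _ => by positivity)
      (mem_univ σ)
  refine le_trans ?_ (Real.log_le_log (by positivity) h1)
  rw [Real.log_pow, Real.log_pow, hσ, one_div, Real.log_inv]
  have := Real.log_two_lt_d9
  have : (0 : ℝ) ≤ (b : ℝ) * emin (cs vw l) := by positivity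
  nlinarith

lemma lz_upper (b : ℕ) (l : List (CR N)) :
    lz b l ≤ N * Real.log 2 - Real.log 2 * b * emin (cs vw l) := by
  have h1 : ∑ σ : Fin N → Bool, ((1 / 2 : ℝ) ^ b) ^ cs vw l σ ≤
      ∑ _σ : Fin N → Bool, ((1 / 2 : ℝ) ^ b) ^ emin (cs vw l) :=
    sum_le_sum fun σ _ => pow_le_pow_of_le_one (by positivity)
      (pow_le_one₀ (by norm_num) (by norm_num)) (emin_le _ _)
  refine (Real.log_le_log (sum_pos (fun _ _ => by positivity) univ_nonempty) h1).trans ?_
  rw [sum_const, card_univ, nsmul_eq_mul, Real.log_mul (by positivity) (by positivity),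
    Real.log_pow, Real.log_pow, one_div, Real.log_inv]
  simp only [Fintype.card_pi, Fintype.card_bool, prod_const, card_univ, Fintype.card_fin,
    Nat.cast_pow, Nat.cast_ofNat, Real.log_pow]
  apply le_of_eq; ring

/-- mean ground state energy -/
noncomputable def gE (N M : ℕ) : ℝ := EL (CR N) M fun l => emin (cs vw l)

lemma gE_nonneg (N M : ℕ) : 0 ≤ gE N M := EL_nonneg _ fun _ _ => Nat.cast_nonneg _

lemma gE_mono [NeZero N] {M M' : ℕ} (h : M ≤ M') : gE N M ≤ gE N M' := by
  unfold gE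
  rw [← EL_take h]
  refine EL_mono _ fun l _ => ?_
  obtain ⟨σ, hσ⟩ := emin_mem (cs vw l)
  exact_mod_cast (emin_le _ σ).trans ((cs_take_le _ _ _ σ).trans hσ.le)

lemma gE_lip [NeZero N] {M M' : ℕ} (h : M ≤ M') : gE N M' ≤ gE N M + (M' - M) := by
  unfold gE
  rw [← EL_take h, ← EL_const (X := CR N) M' ((M' : ℝ) - M), ← EL_add]
  refine EL_mono _ fun l hl => ?_
  obtain ⟨σ, hσ⟩ := emin_mem (cs vw (l.take M))
  have h1 := emin_le (cs vw l) σ
  have h2 := cs_le_length vw_le_one σ (l.drop M)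
  have h3 : cs vw l σ = cs vw (l.take M) σ + cs vw (l.drop M) σ := by
    conv_lhs => rw [← List.take_append_drop M l, cs_append]
    rfl
  rw [List.length_drop, hl] at h2
  rw [← Nat.cast_sub h]
  exact_mod_cast (by omega : emin (cs vw l) ≤ emin (cs vw (l.take M)) + (M' - M))

lemma hasSum_poi_var (lam : ℝ) :
    HasSum (fun n : ℕ => poissonWeight lam n * ((n : ℝ) - lam) ^ 2) lam := by
  have h2 : HasSum (fun n : ℕ => poissonWeight lam n * (n : ℝ) ^ 2) (lam * (1 + lam)) := by
    rw [← hasSum_nat_add_iff' 1]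
    have h := (hasSum_poi_affine lam 1 1).mul_left lam
    have e : (fun n : ℕ => poissonWeight lam (n + 1) * ((n + 1 : ℕ) : ℝ) ^ 2) =
        fun n : ℕ => lam * (poissonWeight lam n * (1 + 1 * n)) := by
      funext n
      unfold poissonWeight
      rw [Nat.factorial_succ]; push_cast
      have : (n.factorial : ℝ) ≠ 0 := by positivity
      field_simp; ring
    rw [e]; simpa using h
  have h := h2.add (hasSum_poi_affine lam (lam ^ 2) (-2 * lam))
  convert h using 1
  · funext n; ring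
  · ring

lemma abs_EL_lz [NeZero N] (b M : ℕ) : |EL (CR N) M (lz b)| ≤ ((N : ℝ) + b) * (1 + M) := by
  have h2 := Real.log_two_lt_d9
  have h0 := Real.log_two_gt_d9
  have a : (0 : ℝ) ≤ N := Nat.cast_nonneg _
  have a' : (0 : ℝ) ≤ b := Nat.cast_nonneg _
  have a'' : (0 : ℝ) ≤ M := Nat.cast_nonneg _
  rw [abs_le]; constructor
  · rw [← EL_const (X := CR N) M (-(((N : ℝ) + b) * (1 + M)))]
    refine EL_mono _ fun l hl => le_trans ?_ (lz_lower b l)
    have : (emin (cs vw l) : ℝ) ≤ M := by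
      exact_mod_cast (emin_le _ fun _ => true).trans ((cs_le_length vw_le_one _ l).trans hl.le)
    nlinarith [mul_le_mul_of_nonneg_left this a', mul_nonneg a a'']
  · rw [← EL_const (X := CR N) M (((N : ℝ) + b) * (1 + M))]
    refine EL_mono _ fun l _ => (lz_upper b l).trans ?_
    have : 0 ≤ Real.log 2 * b * emin (cs vw l) := by positivity
    nlinarith [mul_nonneg a a'', mul_nonneg a' a'']

lemma abs_le_sq (x t : ℝ) (ht : 0 < t) : |x| ≤ (x ^ 2 / t + t) / 2 := by
  have : 2 * t * |x| ≤ x ^ 2 + t ^ 2 := by nlinarith [sq_nonneg (|x| - t), sq_abs x]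
  rw [le_div_iff₀ (by norm_num), div_add' _ _ _ ht.ne', le_div_iff₀ ht]; nlinarith

lemma press_lower [NeZero N] (b : ℕ) {c : ℝ} (hc : 0 ≤ c) {m : ℕ} (hm : c * N ≤ m) {t : ℝ}
    (ht : 0 < t) :
    -(b * (gE N m + (c * N / t + t) / 2)) ≤ N * pressure 3 c (mu b) nu N := by
  have hN : (N : ℝ) ≠ 0 := by exact_mod_cast NeZero.ne N
  have hl : 0 ≤ c * N := by positivity
  rw [pressure_eq, ← mul_assoc, mul_one_div_cancel hN, one_mul]
  have h1 := ((hasSum_poi (c * N)).mul_left (-(b * (gE N m + t / 2)))).add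
    ((hasSum_poi_var (c * N)).mul_left (-(b / (2 * t))))
  refine le_trans (le_of_eq (by field_simp; ring))
    (hasSum_le (fun M => ?_) h1 (summable_poi hl (abs_EL_lz b)).hasSum)
  have h2 : gE N M ≤ gE N m + |(M : ℝ) - c * N| := by
    rcases le_total M m with h | h
    · have := gE_mono (N := N) h; have := abs_nonneg ((M : ℝ) - c * N); linarith
    · have := gE_lip (N := N) h; have := le_abs_self ((M : ℝ) - c * N); linarith
  have h3 := abs_le_sq ((M : ℝ) - c * N) t ht
  have h4 : -((b : ℝ) * gE N M) ≤ EL (CR N) M (lz b) := by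
    rw [gE, ← EL_mul_left, ← neg_one_mul, ← EL_mul_left]
    exact EL_mono _ fun l _ => by have := lz_lower b l; linarith
  have h5 : -(b * (gE N m + t / 2)) + -(b / (2 * t)) * ((M : ℝ) - c * N) ^ 2 ≤
      EL (CR N) M (lz b) := by
    refine le_trans ?_ h4
    have := mul_le_mul_of_nonneg_left (h2.trans (add_le_add le_rfl h3)) (Nat.cast_nonneg (α := ℝ) b)
    refine le_trans (le_of_eq ?_) (neg_le_neg this)
    field_simp; ring
  have := mul_le_mul_of_nonneg_left h5 (poi_nonneg hl M)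
  linarith

lemma press_upper [NeZero N] (b : ℕ) {c : ℝ} (hc : 0 ≤ c) {m : ℕ} (hm : m ≤ c * N) {t : ℝ}
    (ht : 0 < t) :
    N * pressure 3 c (mu b) nu N ≤
      N * Real.log 2 - Real.log 2 * b * (gE N m - (c * N / t + t) / 2) := by
  have hN : (N : ℝ) ≠ 0 := by exact_mod_cast NeZero.ne N
  have hl : 0 ≤ c * N := by positivity
  rw [pressure_eq, ← mul_assoc, mul_one_div_cancel hN, one_mul]
  have h1 := ((hasSum_poi (c * N)).mul_left
    (N * Real.log 2 - Real.log 2 * b * (gE N m - t / 2))).add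
    ((hasSum_poi_var (c * N)).mul_left (Real.log 2 * b / (2 * t)))
  refine le_trans (hasSum_le (fun M => ?_) (summable_poi hl (abs_EL_lz b)).hasSum h1)
    (le_of_eq (by field_simp; ring))
  have h2 : gE N m - |(M : ℝ) - c * N| ≤ gE N M := by
    rcases le_total m M with h | h
    · have := gE_mono (N := N) h; have := abs_nonneg ((M : ℝ) - c * N); linarith
    · have := gE_lip (N := N) h; have := neg_abs_le ((M : ℝ) - c * N); linarith
  have h3 := abs_le_sq ((M : ℝ) - c * N) t ht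
  have h4 : EL (CR N) M (lz b) ≤ N * Real.log 2 - Real.log 2 * b * gE N M := by
    rw [gE, ← EL_mul_left, ← EL_const (X := CR N) M (N * Real.log 2), ← EL_sub]
    exact EL_mono _ fun l _ => lz_upper b l
  have l0 : 0 ≤ Real.log 2 * b := by have := Real.log_two_gt_d9; positivity
  have h5 : EL (CR N) M (lz b) ≤ (N * Real.log 2 - Real.log 2 * b * (gE N m - t / 2)) +
      Real.log 2 * b / (2 * t) * ((M : ℝ) - c * N) ^ 2 := by
    refine h4.trans ?_
    have := mul_le_mul_of_nonneg_left ((sub_le_sub_left h3 _).trans h2) l0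
    refine (sub_le_sub_left this _).trans (le_of_eq ?_)
    field_simp; ring
  have := mul_le_mul_of_nonneg_left h5 (poi_nonneg hl M)
  linarith

lemma L_sound {b m : ℕ} (hN : 0 < N) (hb : 1 ≤ b) {c : ℝ} (hc : 0 ≤ c) (hm : c * N ≤ m)
    (h : 4 * (b * gE N m + c * b ^ 2) < 3 * N) : -1 < pressure 3 c (mu b) nu N := by
  have : NeZero N := ⟨hN.ne'⟩
  have hN' : (0 : ℝ) < N := by exact_mod_cast hN
  have hb' : (0 : ℝ) < b := by exact_mod_cast hb
  have h1 := press_lower b hc hm (t := N / (2 * b)) (by positivity)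
  have e : (b : ℝ) * (gE N m + (c * N / (N / (2 * b)) + N / (2 * b)) / 2) =
      b * gE N m + c * b ^ 2 + N / 4 := by field_simp; ring
  rw [e] at h1
  by_contra h2
  push Not at h2
  nlinarith

/-! comparison with the model on distinct variables -/

/-- distinct variables -/
def Inj (c : CR N) : Prop := Function.Injective c.1

instance : DecidablePred (Inj (N := N)) := fun c => by unfold Inj; infer_instance

/-- good clauses are clauses -/
def toC : {c : CR N // Inj c} ≃ Clause 3 N where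
  toFun c := (⟨c.1.1, c.2⟩, c.1.2)
  invFun c := ⟨(c.1.1, c.2), c.1.2⟩
  left_inv _ := rfl
  right_inv _ := rfl

lemma EL_map {X Y : Type*} [Fintype X] [Fintype Y] (e : X ≃ Y) : ∀ (m : ℕ) (f : List Y → ℝ),
    EL X m (fun l => f (l.map e)) = EL Y m f
  | 0, _ => rfl
  | m + 1, f => by
    simp only [EL, List.map_cons]
    rw [← av_equiv e]; congr 1; funext x
    exact EL_map e m fun l => f (e x :: l)

lemma vc_toC (c : {c : CR N // Inj c}) (σ : Fin N → Bool) : vc (toC c) σ = vw c.1 σ := by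
  unfold vc vw vi
  by_cases h : ClauseSat σ (toC c)
  · rw [if_pos h, if_pos (by exact h)]
  · rw [if_neg h, if_neg (by exact h)]

lemma cs_good_le (σ : Fin N → Bool) : ∀ l : List (CR N),
    cs vc ((fl Inj l).map toC) σ ≤ cs vw l σ ∧
      cs vw l σ ≤ cs vc ((fl Inj l).map toC) σ + (fl (fun c => ¬ Inj c) l).length
  | [] => by simp [fl]
  | c :: l => by
    have := cs_good_le σ l
    have h1 := vw_le_one c σ
    by_cases h : Inj c
    · rw [fl_pos h, fl_neg (P := fun c => ¬ Inj c) (not_not.2 h)]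
      simp only [List.map_cons, cs_cons, Pi.add_apply, vc_toC]; omega
    · rw [fl_neg h, fl_pos (P := fun c => ¬ Inj c) h]
      simp only [cs_cons, Pi.add_apply, List.length_cons]; omega

lemma p_bad (hN : 4 ≤ N) :
    (Fintype.card {c : CR N // ¬ Inj c} : ℝ) / Fintype.card (CR N) ≤ 3 / N := by
  have h1 := Fintype.card_subtype_compl (Inj (N := N))
  have h2 := Fintype.card_subtype_le (Inj (N := N))
  rw [h1, Nat.cast_sub h2, Fintype.card_congr toC, card_clause (by omega)]
  obtain ⟨t, rfl⟩ := Nat.exists_eq_add_of_le' (show 2 ≤ N by omega)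
  have e : t + 2 - 1 = t + 1 := rfl
  simp only [e, Nat.descFactorial_succ, Nat.descFactorial_zero, Nat.add_sub_cancel, Nat.sub_zero,
    Fintype.card_prod, Fintype.card_pi, Fintype.card_fin, Fintype.card_bool, prod_const, card_univ]
  push_cast
  have : (0 : ℝ) ≤ t := Nat.cast_nonneg _
  rw [div_le_div_iff₀ (by positivity) (by positivity)]
  nlinarith [pow_nonneg this 2, pow_nonneg this 3]

lemma pow_bad (hN : 4 ≤ N) (M : ℕ) {c : ℝ} (hM : M ≤ c * N) :
    (1 + (Fintype.card {c : CR N // ¬ Inj c} : ℝ) / Fintype.card (CR N) * (2 - 1)) ^ M ≤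
      Real.exp (3 * c) := by
  have hN' : (0 : ℝ) < N := by exact_mod_cast (by omega : 0 < N)
  have h1 : 1 + (Fintype.card {c : CR N // ¬ Inj c} : ℝ) / Fintype.card (CR N) * (2 - 1) ≤
      Real.exp (3 / N) := by
    have := Real.add_one_le_exp (3 / (N : ℝ))
    have := p_bad hN
    linarith
  refine (pow_le_pow_left₀ (by positivity) h1 M).trans ?_
  rw [← Real.exp_nat_mul]
  refine Real.exp_le_exp.2 ?_
  rw [mul_div_assoc', div_le_iff₀ hN']; nlinarith

lemma gE_le (hN : 4 ≤ N) (M : ℕ) {c : ℝ} (hM : M ≤ c * N) :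
    gE N M ≤ M * (1 - PE N 0 M) + Real.exp (3 * c) := by
  have : NeZero N := ⟨by omega⟩
  have := nonempty_clause hN
  have : Nonempty {c : CR N // Inj c} := toC.nonempty
  have h1 := split (X := CR N) Inj 1 le_rfl M
    (fun a _ => M * (1 - al 0 (cs vc (a.map toC)))) (M * (1 - PE N 0 M)) fun α β h => by
      have : EL _ α (fun a : List {c : CR N // Inj c} => EL _ β
          (fun _ : List {c : CR N // ¬ Inj c} => (M : ℝ) * (1 - al 0 (cs vc (a.map toC))))) ≤
          EL _ α (fun a : List {c : CR N // Inj c} => (M : ℝ) * (1 - al 0 (cs vc (a.map toC)))) := by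
        refine EL_mono _ fun a _ => ?_
        by_cases hb : Nonempty {c : CR N // ¬ Inj c}
        · rw [EL_const]
        · exact absurd ⟨⟨(fun _ => 0, fun _ => true), fun h => by
            simpa using h (a₁ := 0) (a₂ := 1) rfl⟩⟩ hb
      refine this.trans ?_
      rw [EL_mul_left, EL_sub, EL_const, EL_map toC α (fun l => al 0 (cs vc l)), one_pow, mul_one]
      have := PE_anti hN 0 (show α ≤ M by omega)
      unfold PE at this ⊢
      gcongr
  have hb : Nonempty {c : CR N // ¬ Inj c} := ⟨⟨(fun _ => 0, fun _ => true), fun h => by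
            simpa using h (a₁ := 0) (a₂ := 1) rfl⟩⟩
  have h2 := split (X := CR N) Inj 2 (by norm_num) M (fun _ b => b.length) 1 fun α β _ => by
    rw [one_mul, ← EL_const (X := {c : CR N // Inj c}) α ((2 : ℝ) ^ β)]
    refine EL_mono _ fun a _ => ?_
    rw [← EL_const (X := {c : CR N // ¬ Inj c}) β ((2 : ℝ) ^ β)]
    exact EL_mono _ fun b hb => by rw [hb]; exact_mod_cast Nat.lt_two_pow_self.le
  simp only [sub_self, mul_zero, add_zero, one_pow, mul_one] at h1
  rw [one_mul] at h2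
  refine le_trans ?_ (add_le_add h1 (h2.trans (pow_bad hN M hM)))
  rw [← EL_add]
  refine EL_mono _ fun l hl => ?_
  rcases al_cases 0 (cs vc ((fl Inj l).map toC)) with h0 | h0
  · have : (emin (cs vw l) : ℝ) ≤ M := by
      exact_mod_cast (emin_le _ fun _ => true).trans ((cs_le_length vw_le_one _ l).trans hl.le)
    rw [h0]
    have : (0 : ℝ) ≤ (fl (fun c => ¬ Inj c) l).length := Nat.cast_nonneg _
    linarith
  · obtain ⟨σ, hσ⟩ := al_eq_one.1 h0
    have a1 := (cs_good_le σ l).2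
    have a2 := emin_le (cs vw l) σ
    rw [h0, sub_self, mul_zero, zero_add]
    exact_mod_cast (by omega : emin (cs vw l) ≤ (fl (fun c => ¬ Inj c) l).length)

lemma le_gE (hN : 4 ≤ N) (M D K : ℕ) {c : ℝ} (hM : (M + D : ℕ) ≤ c * N)
    (hD : Real.exp (3 * c) ≤ 2 ^ D / 4) (hK : PE N K M ≤ 1 / 2) :
    ((K : ℝ) + 1) / 4 ≤ gE N (M + D) := by
  have : NeZero N := ⟨by omega⟩
  have := nonempty_clause hN
  have : Nonempty {c : CR N // Inj c} := toC.nonempty
  have hb : Nonempty {c : CR N // ¬ Inj c} := ⟨⟨(fun _ => 0, fun _ => true), fun h => by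
            simpa using h (a₁ := 0) (a₂ := 1) rfl⟩⟩
  have h1 := split (X := CR N) Inj 1 le_rfl (M + D)
    (fun a b => if b.length ≤ D then al K (cs vc (a.map toC)) else 0) (1 / 2) fun α β h => by
      rw [one_pow, mul_one]
      by_cases hβ : β ≤ D
      · refine le_trans (EL_mono _ fun a _ => le_of_eq ?_)
          (((EL_map toC α (fun l => al K (cs vc l))).le.trans
            (PE_anti hN K (show M ≤ α by omega))).trans hK)
        exact (EL_congr _ fun b hb => by rw [hb, if_pos hβ]).trans (EL_const _ _)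
      · rw [← EL_const (X := {c : CR N // Inj c}) α (1 / 2)]
        refine EL_mono _ fun a _ => ?_
        rw [← EL_const (X := {c : CR N // ¬ Inj c}) β (1 / 2)]
        exact EL_mono _ fun b hb => by rw [hb, if_neg hβ]; norm_num
  have h2 := split (X := CR N) Inj 2 (by norm_num) (M + D)
    (fun _ b => if b.length ≤ D then 0 else 1) (1 / 2 ^ D) fun α β _ => by
    rw [← EL_const (X := {c : CR N // Inj c}) α (1 / 2 ^ D * (2 : ℝ) ^ β)]
    refine EL_mono _ fun a _ => ?_
    rw [← EL_const (X := {c : CR N // ¬ Inj c}) β (1 / 2 ^ D * (2 : ℝ) ^ β)]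
    refine EL_mono _ fun b hb => ?_
    rw [hb]; split_ifs with h
    · positivity
    · rw [one_div, ← div_eq_inv_mul, one_le_div (by positivity)]
      exact pow_le_pow_right₀ (by norm_num) (by omega)
  simp only [sub_self, mul_zero, add_zero, one_pow, mul_one] at h1
  have h3 : 1 / 2 ^ D * (1 + (Fintype.card {c : CR N // ¬ Inj c} : ℝ) /
      Fintype.card (CR N) * (2 - 1)) ^ (M + D) ≤ 1 / 4 := by
    refine (mul_le_mul_of_nonneg_left ((pow_bad hN _ hM).trans hD) (by positivity)).trans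
      (le_of_eq (by field_simp))
  have h4 := add_le_add h1 (h2.trans h3)
  rw [← EL_add] at h4
  have h5 : EL (CR N) (M + D) (fun l => ((K : ℝ) + 1) * (1 -
      ((if (fl (fun c => ¬ Inj c) l).length ≤ D then al K (cs vc ((fl Inj l).map toC)) else 0) +
        if (fl (fun c => ¬ Inj c) l).length ≤ D then 0 else 1))) ≤ gE N (M + D) := by
    refine EL_mono _ fun l _ => ?_
    split_ifs
    · rcases al_cases K (cs vc ((fl Inj l).map toC)) with h0 | h0
      · obtain ⟨σ, hσ⟩ := emin_mem (cs vw l)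
        have a1 := (cs_good_le σ l).1
        have a2 : ¬ cs vc ((fl Inj l).map toC) σ ≤ K := fun h => al_eq_zero.1 h0 ⟨σ, h⟩
        rw [h0]; norm_num
        exact_mod_cast (by omega : K + 1 ≤ emin (cs vw l))
      · rw [h0]; simp
    · simp
  rw [EL_mul_left, EL_sub, EL_const] at h5
  have : (0 : ℝ) ≤ K := Nat.cast_nonneg _
  nlinarith

lemma L_complete {α : ℝ} (hα : IsSharpThreshold (satProb 3) α) {c : ℝ} (hc : 0 ≤ c) (h : c < α)
    (b : ℕ) : ∃ N m : ℕ, 0 < N ∧ c * N ≤ m ∧ 4 * (b * gE N m + c * b ^ 2) < 3 * N := by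
  set c' := (c + α) / 2
  have hc' : c < c' := by simp only [c']; linarith
  have h1 := ((hα c' (by linarith)).1 (by simp only [c']; linarith)).eventually
    (lt_mem_nhds (show 1 - 1 / (4 * (b * c' + 1)) < (1 : ℝ) by
      have : 0 < 1 / (4 * (b * c' + 1)) := by have : 0 ≤ c' := by linarith
                                              positivity
      linarith))
  have h2 := tendsto_natCast_atTop_atTop (R := ℝ) |>.eventually
    (eventually_ge_atTop (max (1 / (c' - c)) (4 * (b * Real.exp (3 * c') + c * b ^ 2))))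
  obtain ⟨N, hN1, hN2, hN⟩ := (h1.and (h2.and (eventually_ge_atTop 4))).exists
  have hN' : (4 : ℝ) ≤ N := by exact_mod_cast hN
  have c0 : 0 ≤ c' := by linarith
  have a1 : c * N ≤ ⌊c' * N⌋₊ := by
    have := Nat.lt_floor_add_one (c' * N)
    have h3 := (le_max_left _ _).trans hN2
    rw [div_le_iff₀ (by linarith)] at h3
    nlinarith
  have a2 : (⌊c' * N⌋₊ : ℝ) ≤ c' * N := Nat.floor_le (by positivity)
  refine ⟨N, ⌊c' * N⌋₊, by omega, a1, ?_⟩
  have a3 := gE_le hN _ a2
  rw [PE_zero] at a3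
  have h3 := (le_max_right _ _).trans hN2
  have a4 : (⌊c' * N⌋₊ : ℝ) * (1 - satProb 3 N ⌊c' * N⌋₊) ≤ c' * N * (1 / (4 * (b * c' + 1))) := by
    refine le_trans (mul_le_mul_of_nonneg_left (by linarith) (Nat.cast_nonneg _))
      (mul_le_mul_of_nonneg_right a2 (by positivity))
  have a5 : (b : ℝ) * (c' * N * (1 / (4 * (b * c' + 1)))) ≤ N / 4 := by
    rw [mul_one_div, mul_div_assoc', div_le_div_iff₀ (by positivity) (by positivity)]
    nlinarith
  have b0 : (0 : ℝ) ≤ b := Nat.cast_nonneg _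
  nlinarith [mul_le_mul_of_nonneg_left a3 b0, mul_le_mul_of_nonneg_left a4 b0]

lemma upper {α : ℝ} (hα : IsSharpThreshold (satProb 3) α) (h0 : 0 ≤ α) :
    ∃ C : ℕ, ∀ T : ℕ, 1 ≤ T → ∀ c : ℝ, α + 1 / T ≤ c →
      ∀ᶠ N in atTop, pressure 3 c (mu (32 * (4 * T * C + 1) ^ 6)) nu N ≤ -2 := by
  obtain ⟨C, hC⟩ := energy (⌈α⌉₊ + 1)
  refine ⟨C, fun T hT c hc => ?_⟩
  set j := 4 * T * C + 1 with hj
  have hT' : (1 : ℝ) ≤ T := by exact_mod_cast hT
  have hδ : 0 < 1 / (T : ℝ) := by positivity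
  have hδ1 : 1 / (T : ℝ) ≤ 1 := by rw [div_le_one (by positivity)]; exact hT'
  have c0 : 0 ≤ c := by linarith
  have h1 := ((hα (α + 1 / T / 4) (by linarith)).2 (by linarith)).eventually
    (gt_mem_nhds (show (0 : ℝ) < 1 / 4 by norm_num))
  obtain ⟨D, hD⟩ := pow_unbounded_of_one_lt (4 * Real.exp (3 * c)) (show (1 : ℝ) < 2 by norm_num)
  have hj1 : (1 : ℝ) ≤ j := by exact_mod_cast (by omega : 1 ≤ j)
  have h2 := tendsto_natCast_atTop_atTop (R := ℝ) |>.eventually
    (eventually_ge_atTop (max (2 * T * (D + 1) : ℝ) (64 * c * j ^ 12)))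
  filter_upwards [h1, h2, eventually_ge_atTop 4] with N hN1 hN2 hN
  have : NeZero N := ⟨by omega⟩
  have hN' : (4 : ℝ) ≤ N := by exact_mod_cast hN
  set m := ⌊(α + 1 / T / 4) * N⌋₊
  have m1 : (m : ℝ) ≤ (α + 1 / T / 4) * N := Nat.floor_le (by positivity)
  have d1 : ((N / (4 * T) : ℕ) : ℝ) ≤ 1 / T / 4 * N := by
    refine Nat.cast_div_le.trans (le_of_eq ?_); push_cast; field_simp
  have n1 := (le_max_left _ _).trans hN2
  have n2 := (le_max_right _ _).trans hN2
  have n3 : (D : ℝ) + 1 ≤ 1 / T / 2 * N := by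
    rw [div_div, div_mul_eq_mul_div, le_div_iff₀ (by positivity)]; linarith
  have M1 : ((m + (N / (4 * T) + 1) + D : ℕ) : ℝ) ≤ c * N := by
    push_cast
    have := mul_le_mul_of_nonneg_right hc (by positivity : (0 : ℝ) ≤ N)
    linarith
  have M2 : m + (N / (4 * T) + 1) ≤ (⌈α⌉₊ + 1) * N := by
    have a1 := mul_le_mul_of_nonneg_right (Nat.le_ceil α) (by positivity : (0 : ℝ) ≤ N)
    have a2 := mul_le_mul_of_nonneg_right hδ1 (by positivity : (0 : ℝ) ≤ N)
    have : ((m + (N / (4 * T) + 1) : ℕ) : ℝ) ≤ ((⌈α⌉₊ + 1) * N : ℕ) := by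
      push_cast; linarith
    exact_mod_cast this
  have e1 := hC N hN _ M2 j (N / j ^ 6) m (by omega) (Nat.div_mul_le_self _ _) (Nat.le_add_right _ _)
    (by
      rw [Nat.add_sub_cancel_left]
      have : N < (N / (4 * T) + 1) * (4 * T) := by
        rw [mul_comm]; exact Nat.lt_mul_div_succ _ (by omega)
      have h2 := Nat.mul_le_mul_left C this.le
      rw [hj]; nlinarith)
    (by rw [PE_zero]; exact hN1.le)
  have e2 := le_gE hN _ D _ M1 (by linarith) e1
  have e3 : (N : ℝ) / j ^ 6 ≤ (N / j ^ 6 : ℕ) + 1 := by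
    have : N < j ^ 6 * (N / j ^ 6 + 1) := Nat.lt_mul_div_succ _ (by positivity)
    have : (N : ℝ) < j ^ 6 * ((N / j ^ 6 : ℕ) + 1) := by exact_mod_cast this
    rw [div_le_iff₀ (by positivity)]; linarith
  have e4 := press_upper (32 * j ^ 6) c0 M1 (t := N / (8 * j ^ 6)) (by positivity)
  have e5 : (N : ℝ) / (8 * j ^ 6) ≤ gE N (m + (N / (4 * T) + 1) + D) -
      (c * N / (N / (8 * j ^ 6)) + N / (8 * j ^ 6)) / 2 := by
    have a1 : c * N / (N / (8 * j ^ 6)) ≤ N / (8 * j ^ 6) := by
      rw [div_le_div_iff₀ (by positivity) (by positivity), mul_div_assoc',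
        le_div_iff₀ (by positivity)]
      have := mul_le_mul_of_nonneg_right n2 (by positivity : (0 : ℝ) ≤ N)
      nlinarith
    have a2 : (N : ℝ) / j ^ 6 = 8 * (N / (8 * j ^ 6)) := by field_simp
    linarith
  have l1 := Real.log_two_gt_d9
  have e6 := mul_le_mul_of_nonneg_left e5
    (by positivity : 0 ≤ Real.log 2 * ((32 * j ^ 6 : ℕ) : ℝ))
  have e7 : Real.log 2 * ((32 * j ^ 6 : ℕ) : ℝ) * (N / (8 * j ^ 6)) = 4 * Real.log 2 * N := by
    push_cast; field_simp; ring
  by_contra h3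
  push Not at h3
  nlinarith

end Crest.Agent.H5.SAT
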