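import Mathlib
import Crest.Agent.H6.RatPrim

/-! A small toolkit for primitive recursive functions with rational values. -/

set_option autoImplicit false

namespace Crest.Agent.H5.SAT

open Finset Crest.Agent

section tools
variable {α β γ : Type*} [Primcodable α] [Primcodable β] [Primcodable γ]

lemma pr_fst {f : α → β × γ} (hf : Primrec f) : Primrec fun x => (f x).1 := Primrec.fst.comp hf
lemma pr_snd {f : α → β × γ} (hf : Primrec f) : Primrec fun x => (f x).2 := Primrec.snd.comp hf
lemma pr_id : Primrec fun x : α => x := Primrec.id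
lemma pr_pair {f : α → β} {g : α → γ} (hf : Primrec f) (hg : Primrec g) :
    Primrec fun x => (f x, g x) := hf.pair hg
lemma pr_add {f g : α → ℕ} (hf : Primrec f) (hg : Primrec g) : Primrec fun x => f x + g x :=
  Primrec.nat_add.comp hf hg
lemma pr_sub {f g : α → ℕ} (hf : Primrec f) (hg : Primrec g) : Primrec fun x => f x - g x :=
  Primrec.nat_sub.comp hf hg
lemma pr_mul {f g : α → ℕ} (hf : Primrec f) (hg : Primrec g) : Primrec fun x => f x * g x :=
  Primrec.nat_mul.comp hf hg
lemma pr_div {f g : α → ℕ} (hf : Primrec f) (hg : Primrec g) : Primrec fun x => f x / g x :=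
  Primrec.nat_div.comp hf hg
lemma pr_mod {f g : α → ℕ} (hf : Primrec f) (hg : Primrec g) : Primrec fun x => f x % g x :=
  Primrec.nat_mod.comp hf hg
lemma pr_min {f g : α → ℕ} (hf : Primrec f) (hg : Primrec g) : Primrec fun x => min (f x) (g x) :=
  Primrec.nat_min.comp hf hg
lemma pr_cons {f : α → β} {g : α → List β} (hf : Primrec f) (hg : Primrec g) :
    Primrec fun x => f x :: g x := Primrec.list_cons.comp hf hg
lemma pr_map {f : α → List β} {g : α → β → γ} (hf : Primrec f)
    (hg : Primrec fun p : α × β => g p.1 p.2) : Primrec fun x => (f x).map (g x) :=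
  Primrec.list_map hf hg
lemma pr_range {f : α → ℕ} (hf : Primrec f) : Primrec fun x => List.range (f x) :=
  Primrec.list_range.comp hf
lemma pr_getD {f : α → List ℕ} {g : α → ℕ} (hf : Primrec f) (hg : Primrec g) :
    Primrec fun x => (f x).getD (g x) 0 := (Primrec.list_getD 0).comp hf hg
lemma pr_den {f : α → ℚ} (hf : Primrec f) : Primrec fun x => (f x).den :=
  H6Rat.primrec_den.comp hf
lemma pr_some {f : α → β} (hf : Primrec f) : Primrec fun x => some (f x) :=
  Primrec.option_some.comp hf
lemma pr_encode {f : α → List ℕ} (hf : Primrec f) : Primrec fun x => Encodable.encode (f x) :=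
  Primrec.encode.comp hf
lemma pr_eq {f g : α → ℕ} (hf : Primrec f) (hg : Primrec g) : PrimrecPred fun x => f x = g x :=
  Primrec.eq.comp hf hg
lemma pr_lt {f g : α → ℕ} (hf : Primrec f) (hg : Primrec g) : PrimrecPred fun x => f x < g x :=
  Primrec.nat_lt.comp hf hg
lemma pr_le {f g : α → ℕ} (hf : Primrec f) (hg : Primrec g) : PrimrecPred fun x => f x ≤ g x :=
  Primrec.nat_le.comp hf hg
lemma pr_ltQ {f g : α → ℚ} (hf : Primrec f) (hg : Primrec g) : PrimrecPred fun x => f x < g x :=
  (H6Rat.le hg hf).not.of_eq fun _ => not_le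
lemma pr_and {p q : α → Prop} (hp : PrimrecPred p) (hq : PrimrecPred q) :
    PrimrecPred fun x => p x ∧ q x := hp.and hq
lemma pr_ite {c : α → Prop} [DecidablePred c] {f g : α → β} (hc : PrimrecPred c) (hf : Primrec f)
    (hg : Primrec g) : Primrec fun x => if c x then f x else g x := Primrec.ite hc hf hg

lemma pr_rec {N : α → ℕ} {b : α → β} {G : α → ℕ → β → β} (hN : Primrec N) (hb : Primrec b)
    (hG : Primrec fun p : α × ℕ × β => G p.1 p.2.1 p.2.2) :
    Primrec fun a => (Nat.rec (b a) (fun c acc => G a c acc) (N a) : β) :=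
  Primrec.nat_rec' (h := fun a p => G a p.1 p.2) hN hb hG

lemma pr_sumN {N : α → ℕ} {G : α → ℕ → ℕ} (hN : Primrec N)
    (hG : Primrec fun p : α × ℕ => G p.1 p.2) : Primrec fun a => ∑ c ∈ range (N a), G a c := by
  refine (pr_rec (G := fun a c acc => acc + G a c) hN (Primrec.const 0) (pr_add
    (pr_snd (pr_snd pr_id)) (hG.comp (pr_pair (pr_fst pr_id) (pr_fst (pr_snd pr_id)))))).of_eq
    fun a => ?_
  induction N a with
  | zero => rfl
  | succ n ih => rw [sum_range_succ, ← ih]

lemma pr_sumQ {N : α → ℕ} {G : α → ℕ → ℚ} (hN : Primrec N)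
    (hG : Primrec fun p : α × ℕ => G p.1 p.2) : Primrec fun a => ∑ c ∈ range (N a), G a c := by
  refine (pr_rec (G := fun a c acc => acc + G a c) hN (Primrec.const 0) (H6Rat.add
    (pr_snd (pr_snd pr_id)) (hG.comp (pr_pair (pr_fst pr_id) (pr_fst (pr_snd pr_id)))))).of_eq
    fun a => ?_
  induction N a with
  | zero => rfl
  | succ n ih => rw [sum_range_succ, ← ih]

lemma pr_prodQ {N : α → ℕ} {G : α → ℕ → ℚ} (hN : Primrec N)
    (hG : Primrec fun p : α × ℕ => G p.1 p.2) : Primrec fun a => ∏ c ∈ range (N a), G a c := by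
  refine (pr_rec (G := fun a c acc => acc * G a c) hN (Primrec.const 1) (H6Rat.mul
    (pr_snd (pr_snd pr_id)) (hG.comp (pr_pair (pr_fst pr_id) (pr_fst (pr_snd pr_id)))))).of_eq
    fun a => ?_
  induction N a with
  | zero => rfl
  | succ n ih => rw [prod_range_succ, ← ih]

lemma pr_fg {N : α → ℕ} {p : α → ℕ → Prop} [DecidableRel p] (hN : Primrec N)
    (hp : PrimrecPred fun q : α × ℕ => p q.1 q.2) :
    Primrec fun x => (N x).findGreatest (p x) := Primrec.nat_findGreatest hN hp.primrecRel

/-- bounded minimum -/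
def minR (n b : ℕ) (G : ℕ → ℕ) : ℕ := Nat.rec b (fun c acc => min acc (G c)) n

lemma pr_minR {N b : α → ℕ} {G : α → ℕ → ℕ} (hN : Primrec N) (hb : Primrec b)
    (hG : Primrec fun p : α × ℕ => G p.1 p.2) : Primrec fun a => minR (N a) (b a) (G a) :=
  pr_rec (G := fun a c acc => min acc (G a c)) hN hb (pr_min
    (pr_snd (pr_snd pr_id)) (hG.comp (pr_pair (pr_fst pr_id) (pr_fst (pr_snd pr_id)))))

lemma minR_le (b : ℕ) (G : ℕ → ℕ) : ∀ n, minR n b G ≤ b ∧ ∀ c < n, minR n b G ≤ G c
  | 0 => ⟨le_rfl, fun _ h => absurd h (Nat.not_lt_zero _)⟩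
  | n + 1 => by
    have h := minR_le b G n
    have e : minR (n + 1) b G = min (minR n b G) (G n) := rfl
    rw [e]
    refine ⟨(min_le_left _ _).trans h.1, fun c hc => ?_⟩
    rcases Nat.lt_succ_iff_lt_or_eq.1 hc with hc | rfl
    · exact (min_le_left _ _).trans (h.2 c hc)
    · exact min_le_right _ _

lemma le_minR {b x : ℕ} {G : ℕ → ℕ} (hb : x ≤ b) : ∀ n, (∀ c < n, x ≤ G c) → x ≤ minR n b G
  | 0, _ => hb
  | n + 1, h => le_min (le_minR hb n fun c hc => h c (by omega)) (h n (by omega))

end tools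

/-- one step of the closure search -/
syntax "prim1" : tactic
macro_rules | `(tactic| prim1) => `(tactic| first
  | with_reducible exact Primrec.const _
  | with_reducible exact pr_id
  | with_reducible assumption
  | with_reducible apply pr_fst
  | with_reducible apply pr_snd
  | with_reducible apply pr_pair
  | with_reducible apply pr_add
  | with_reducible apply pr_sub
  | with_reducible apply pr_mul
  | with_reducible apply pr_div
  | with_reducible apply pr_mod
  | with_reducible apply H6Rat.nat_pow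
  | with_reducible apply pr_cons
  | with_reducible apply pr_map
  | with_reducible apply pr_range
  | with_reducible apply pr_getD
  | with_reducible apply pr_den
  | with_reducible apply pr_some
  | with_reducible apply pr_encode
  | with_reducible apply H6Rat.natCast
  | with_reducible apply H6Rat.add
  | with_reducible apply H6Rat.sub
  | with_reducible apply H6Rat.mul
  | with_reducible apply H6Rat.div
  | with_reducible apply H6Rat.pow
  | with_reducible apply pr_sumN
  | with_reducible apply pr_sumQ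
  | with_reducible apply pr_prodQ
  | with_reducible apply pr_fg
  | with_reducible apply pr_minR
  | with_reducible apply pr_ite
  | with_reducible apply pr_and
  | with_reducible apply pr_eq
  | with_reducible apply pr_lt
  | with_reducible apply pr_le
  | with_reducible apply pr_ltQ
  | with_reducible apply H6Rat.le)

/-- closure search -/
macro "prim" : tactic => `(tactic| repeat' prim1)

section defs
variable {α : Type*} [Primcodable α]

/-- digits -/
def dg (s c m : ℕ) : ℕ := c / s ^ m % s

lemma pr_dg {f g h : α → ℕ} (hf : Primrec f) (hg : Primrec g) (hh : Primrec h) :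
    Primrec fun x => dg (f x) (g x) (h x) := by unfold dg; prim
macro_rules | `(tactic| prim1) => `(tactic| with_reducible apply pr_dg)

/-- table lookup -/
def lk (t l : List ℕ) : ℕ := t.getD (Encodable.encode l) 0

lemma pr_lk {f g : α → List ℕ} (hf : Primrec f) (hg : Primrec g) :
    Primrec fun x => lk (f x) (g x) := by unfold lk; prim
macro_rules | `(tactic| prim1) => `(tactic| with_reducible apply pr_lk)

/-- coded violation indicator -/
def viN (J s0 s1 s2 : ℕ) : ℕ :=
  (s0 + dg 2 J 0) % 2 * ((s1 + dg 2 J 1) % 2) * ((s2 + dg 2 J 2) % 2)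

lemma pr_viN {f g h k : α → ℕ} (hf : Primrec f) (hg : Primrec g) (hh : Primrec h)
    (hk : Primrec k) : Primrec fun x => viN (f x) (g x) (h x) (k x) := by unfold viN; prim
macro_rules | `(tactic| prim1) => `(tactic| with_reducible apply pr_viN)

/-- coded mean ground state energy -/
def gQ (N m : ℕ) : ℚ :=
  (∑ d ∈ range ((2 ^ 3) ^ m), (∑ a ∈ range ((N ^ 3) ^ m),
    (minR (2 ^ N) m (fun t => ∑ j ∈ range m, viN (dg (2 ^ 3) d j)
      (dg 2 t (dg N (dg (N ^ 3) a j) 0)) (dg 2 t (dg N (dg (N ^ 3) a j) 1))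
      (dg 2 t (dg N (dg (N ^ 3) a j) 2))) : ℚ)) / ((N ^ 3) ^ m : ℕ)) / ((2 ^ 3) ^ m : ℕ)

lemma pr_gQ {f g : α → ℕ} (hf : Primrec f) (hg : Primrec g) :
    Primrec fun x => gQ (f x) (g x) := by
  have : Primrec fun p : ℕ × ℕ => gQ p.1 p.2 := by unfold gQ; prim
  have h := this.comp (hf.pair hg)
  exact h
macro_rules | `(tactic| prim1) => `(tactic| with_reducible apply pr_gQ)

/-- the base of the discretisation -/
def rho (n : ℕ) : ℚ := (n : ℚ) / ((n + 1 : ℕ) : ℚ)

lemma pr_rho {f : α → ℕ} (hf : Primrec f) : Primrec fun x => rho (f x) := by unfold rho; prim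
macro_rules | `(tactic| prim1) => `(tactic| with_reducible apply pr_rho)

/-- discrete logarithm of a root -/
def dl (n k : ℕ) (x : ℚ) : ℕ := (n * x.den).findGreatest fun a => x ≤ rho n ^ (a * k)

lemma pr_dl {f g : α → ℕ} {h : α → ℚ} (hf : Primrec f) (hg : Primrec g) (hh : Primrec h) :
    Primrec fun x => dl (f x) (g x) (h x) := by
  have : Primrec fun p : ℕ × ℕ × ℚ => dl p.1 p.2.1 p.2.2 := by unfold dl; prim
  have h := this.comp (hf.pair (hg.pair hh))
  exact h
macro_rules | `(tactic| prim1) => `(tactic| with_reducible apply pr_dl)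

/-- discretised nested power means -/
def cT (n N R : ℕ) (K : List ℕ → ℕ → ℚ) (W : List ℕ → ℚ) : ℕ → List ℕ → ℕ
  | 0, h => dl n R (W h)
  | j + 1, h => dl n (R - j) (∑ c ∈ range N, K h c * rho n ^ (cT n N R K W j (c :: h) * (R - j)))

lemma pr_cT {n N R : α → ℕ} {K : α → List ℕ → ℕ → ℚ} {W : α → List ℕ → ℚ} (hn : Primrec n)
    (hN : Primrec N) (hR : Primrec R)
    (hK : Primrec fun p : α × List ℕ × ℕ => K p.1 p.2.1 p.2.2)
    (hW : Primrec fun p : α × List ℕ => W p.1 p.2) :
    Primrec fun a => cT (n a) (N a) (R a) (K a) (W a) (R a) [] := by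
  have key : Primrec fun b : α × ℕ × List ℕ =>
      cT (n b.1) (N b.1) (R b.1) (K b.1) (W b.1) b.2.1 b.2.2 := by
    refine Primrec.nat_omega_rec' _ (m := fun b => b.2.1)
      (l := fun b => if b.2.1 = 0 then [] else
        (List.range (N b.1)).map fun c => (b.1, b.2.1 - 1, c :: b.2.2))
      (g := fun b v => some (if b.2.1 = 0 then dl (n b.1) (R b.1) (W b.1 b.2.2) else
        dl (n b.1) (R b.1 - (b.2.1 - 1)) (∑ c ∈ range (N b.1), K b.1 b.2.2 c *
          rho (n b.1) ^ (v.getD c 0 * (R b.1 - (b.2.1 - 1)))))) (by prim) ?_ ?_ ?_ ?_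
    · have := hN.comp (Primrec.fst (α := α) (β := ℕ × List ℕ))
      prim
    · refine Primrec₂.mk ?_
      have h1 := hn.comp (pr_fst (Primrec.fst (α := α × ℕ × List ℕ) (β := List ℕ)))
      have h2 := hN.comp (pr_fst (Primrec.fst (α := α × ℕ × List ℕ) (β := List ℕ)))
      have h3 := hR.comp (pr_fst (Primrec.fst (α := α × ℕ × List ℕ) (β := List ℕ)))
      have h4 := hn.comp (pr_fst (pr_fst (Primrec.fst (α := (α × ℕ × List ℕ) × List ℕ) (β := ℕ))))
      have h5 := hR.comp (pr_fst (pr_fst (Primrec.fst (α := (α × ℕ × List ℕ) × List ℕ) (β := ℕ))))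
      have h6 : Primrec fun p : (α × ℕ × List ℕ) × List ℕ => W p.1.1 p.1.2.2 :=
        hW.comp (g := fun p : (α × ℕ × List ℕ) × List ℕ => (p.1.1, p.1.2.2)) (by prim)
      have h7 : Primrec fun p : ((α × ℕ × List ℕ) × List ℕ) × ℕ => K p.1.1.1 p.1.1.2.2 p.2 :=
        hK.comp (g := fun p : ((α × ℕ × List ℕ) × List ℕ) × ℕ => (p.1.1.1, p.1.1.2.2, p.2))
          (by prim)
      prim
    · rintro ⟨a, j, h⟩ b' hb'
      dsimp only at hb' ⊢
      split_ifs at hb' with h0
      · simp at hb'
      · obtain ⟨c, -, rfl⟩ := List.mem_map.1 hb'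
        dsimp only; omega
    · rintro ⟨a, j, h⟩
      cases j with
      | zero => simp [cT]
      | succ j =>
        simp only [Nat.succ_ne_zero, if_false, Nat.add_sub_cancel, cT, List.map_map]
        congr 2
        refine sum_congr rfl fun c hc => ?_
        rw [List.getD_eq_getElem _ _ (by simpa using hc)]
        simp
  exact key.comp (g := fun a => (a, R a, [])) (by prim)

end defs

end Crest.Agent.H5.SAT
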