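import Mathlib
import Crest.Agent.H5.SAT.P

/-! The computable certificates. -/

set_option autoImplicit false

namespace Crest.Agent.H5.SAT

open Finset Crest.Agent

variable {α : Type*} [Primcodable α]

macro_rules | `(tactic| prim1) => `(tactic| with_reducible apply pr_cT)

/-- coded spins -/
def spN (s i : ℕ) (t : List ℕ) (ic : ℕ) (H : List ℕ) (m : ℕ) : ℕ :=
  lk t (dg i ic m :: H.map fun c => dg s c m) % 2

lemma pr_spN {s i ic m : α → ℕ} {t H : α → List ℕ} (hs : Primrec s) (hi : Primrec i)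
    (ht : Primrec t) (hic : Primrec ic) (hH : Primrec H) (hm : Primrec m) :
    Primrec fun x => spN (s x) (i x) (t x) (ic x) (H x) (m x) := by
  have : Primrec fun p : ℕ × ℕ × List ℕ × ℕ × List ℕ × ℕ =>
      spN p.1 p.2.1 p.2.2.1 p.2.2.2.1 p.2.2.2.2.1 p.2.2.2.2.2 := by unfold spN; prim
  have h := this.comp (hs.pair (hi.pair (ht.pair (hic.pair (hH.pair hm)))))
  exact h
macro_rules | `(tactic| prim1) => `(tactic| with_reducible apply pr_spN)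

/-- coded kernel -/
def kN (s : ℕ) (t h : List ℕ) (x : ℕ) : ℚ :=
  ((lk t (x :: h) + 1 : ℕ) : ℚ) / ∑ y ∈ range s, ((lk t (y :: h) + 1 : ℕ) : ℚ)

lemma pr_kN {s y : α → ℕ} {t H : α → List ℕ} (hs : Primrec s) (ht : Primrec t) (hH : Primrec H)
    (hy : Primrec y) : Primrec fun x => kN (s x) (t x) (H x) (y x) := by
  have : Primrec fun p : ℕ × List ℕ × List ℕ × ℕ => kN p.1 p.2.1 p.2.2.1 p.2.2.2 := by
    unfold kN; prim
  have h := this.comp (hs.pair (ht.pair (hH.pair hy)))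
  exact h
macro_rules | `(tactic| prim1) => `(tactic| with_reducible apply pr_kN)

/-- coded product kernel -/
def pkN (s : ℕ) (t : List ℕ) (l : ℕ) (H : List ℕ) (c : ℕ) : ℚ :=
  ∏ m ∈ range l, kN s t (H.map fun c' => dg s c' m) (dg s c m)

lemma pr_pkN {s l y : α → ℕ} {t H : α → List ℕ} (hs : Primrec s) (ht : Primrec t) (hl : Primrec l)
    (hH : Primrec H) (hy : Primrec y) : Primrec fun x => pkN (s x) (t x) (l x) (H x) (y x) := by
  have : Primrec fun p : ℕ × List ℕ × ℕ × List ℕ × ℕ =>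
      pkN p.1 p.2.1 p.2.2.1 p.2.2.2.1 p.2.2.2.2 := by unfold pkN; prim
  have h := this.comp (hs.pair (ht.pair (hl.pair (hH.pair hy))))
  exact h
macro_rules | `(tactic| prim1) => `(tactic| with_reducible apply pr_pkN)

/-- data of a trial: precision, sizes, depth, tables -/
abbrev Tr : Type := ℕ × ℕ × ℕ × ℕ × List ℕ × List ℕ

/-- lower approximation of `- Gprod` -/
def gN (z : Tr) (l : ℕ) (W : (ℕ → ℕ) → ℚ) : ℚ :=
  (∑ ic ∈ range (z.2.2.1 ^ l), ((z.2.2.2.1 * cT z.1 (z.2.1 ^ l) z.2.2.2.1 (pkN z.2.1 z.2.2.2.2.1 l)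
    (fun H => W (spN z.2.1 z.2.2.1 z.2.2.2.2.2 ic H)) z.2.2.2.1 [] : ℕ) : ℚ) / ((z.1 + 1 : ℕ) : ℚ)) /
      ((z.2.2.1 ^ l : ℕ) : ℚ)

/-- coded site weight -/
def wS (b k d : ℕ) (sp : ℕ → ℕ) : ℚ :=
  (∑ ε ∈ range 2, ((1 / 2) ^ b) ^ ∑ j ∈ range k,
    viN (dg (2 ^ 3) d j) (sp (0 + 2 * j)) (sp (1 + 2 * j)) ε) / 2

/-- coded edge weight -/
def wE (b d : ℕ) (sp : ℕ → ℕ) : ℚ := ((1 / 2) ^ b) ^ viN d (sp 0) (sp 1) (sp 2)

/-- site term -/
def xS (z : Tr) (b k : ℕ) : ℚ :=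
  (∑ d ∈ range ((2 ^ 3) ^ k), gN z (k * 2) (wS b k d)) / (((2 ^ 3) ^ k : ℕ) : ℚ)

/-- edge term -/
def yE (z : Tr) (b : ℕ) : ℚ := (∑ d ∈ range (2 ^ 3), gN z 3 (wE b d)) / ((2 ^ 3 : ℕ) : ℚ)

lemma pr_xS {z : α → Tr} {b k : α → ℕ} (hz : Primrec z) (hb : Primrec b) (hk : Primrec k) :
    Primrec fun x => xS (z x) (b x) (k x) := by
  have : Primrec fun p : Tr × ℕ × ℕ => xS p.1 p.2.1 p.2.2 := by unfold xS gN wS; prim
  have h := this.comp (hz.pair (hb.pair hk))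
  exact h
macro_rules | `(tactic| prim1) => `(tactic| with_reducible apply pr_xS)

lemma pr_yE {z : α → Tr} {b : α → ℕ} (hz : Primrec z) (hb : Primrec b) :
    Primrec fun x => yE (z x) (b x) := by
  have : Primrec fun p : Tr × ℕ => yE p.1 p.2 := by unfold yE gN wE; prim
  have h := this.comp (hz.pair hb)
  exact h
macro_rules | `(tactic| prim1) => `(tactic| with_reducible apply pr_yE)

/-- lower approximation of the Poisson weights -/
def poiL (n : ℕ) (lam : ℚ) (k : ℕ) : ℚ :=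
  (1 - lam / (n : ℚ)) ^ n * ∏ j ∈ range k, lam / ((j + 1 : ℕ) : ℚ)

/-- upper approximation of the cavity functional -/
def uQ (z : Tr) (k0 b : ℕ) (c : ℚ) : ℚ :=
  1 - ∑ k ∈ range k0, poiL z.1 (c * 3) k * xS z b k +
    c * 2 * (yE z b * (((z.1 + 1 : ℕ) : ℚ) / (z.1 : ℚ)) +
      ((z.2.2.2.1 * (z.2.2.2.1 + 1) : ℕ) : ℚ) / (z.1 : ℚ))

/-- upper certificate -/
def UC (z : Tr) (k0 b : ℕ) (c : ℚ) : Prop :=
  0 < z.1 ∧ 0 < z.2.1 ∧ 0 < z.2.2.1 ∧ 0 < z.2.2.2.1 ∧ c * 3 ≤ (z.1 : ℚ) ∧ uQ z k0 b c + 1 < 0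

/-- lower certificate -/
def LC (N m b : ℕ) (c : ℚ) : Prop :=
  0 < N ∧ c * (N : ℚ) ≤ (m : ℚ) ∧ 4 * ((b : ℚ) * gQ N m + c * (b : ℚ) ^ 2) < 3 * (N : ℚ)

/-- the inverse temperature -/
def bb (C r : ℕ) : ℕ := 32 * (4 * 2 ^ (r + 2) * C + 1) ^ 6

/-- the full certificate -/
def FC (C r : ℕ) (w : ℕ × ℕ × ℕ × ℕ × Tr) : Prop :=
  LC w.2.1 w.2.2.1 (bb C r) ((w.1 : ℚ) / ((2 ^ (r + 2) : ℕ) : ℚ)) ∧
    UC w.2.2.2.2 w.2.2.2.1 (bb C r) (((w.1 + 3 : ℕ) : ℚ) / ((2 ^ (r + 2) : ℕ) : ℚ))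

lemma pr_FC (C : ℕ) : PrimrecPred fun p : ℕ × ℕ × ℕ × ℕ × ℕ × Tr => FC C p.1 p.2 := by
  unfold FC LC UC uQ poiL bb; prim

lemma search {β : Type*} [Primcodable β] {P : ℕ → β → Prop}
    (hP : PrimrecPred fun p : ℕ × β => P p.1 p.2) (hex : ∀ r, ∃ w, P r w) :
    ∃ g : ℕ → β, Computable g ∧ ∀ r, P r (g r) := by
  classical
  let f : ℕ → ℕ → Option β := fun r n =>
    (Encodable.decode (α := β) n).bind fun w => if P r w then some w else none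
  have hf : Computable₂ f := by
    refine Primrec₂.to_comp (Primrec₂.mk ?_)
    refine Primrec.option_bind (Primrec.decode.comp Primrec.snd) (Primrec₂.mk ?_)
    have h1 := hP.comp (f := fun q : (ℕ × ℕ) × β => (q.1.1, q.2)) (by prim)
    prim
  have hd : ∀ r, (Nat.rfindOpt (f r)).Dom := fun r => by
    obtain ⟨w, hw⟩ := hex r
    exact Nat.rfindOpt_dom.2 ⟨Encodable.encode w, w, by simp [f, hw]⟩
  refine ⟨fun r => (Nat.rfindOpt (f r)).get (hd r),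
    (Partrec.rfindOpt hf).of_eq_tot fun r => Part.get_mem _, fun r => ?_⟩
  obtain ⟨n, hn⟩ := Nat.rfindOpt_spec (Part.get_mem (hd r))
  simp only [f, Option.mem_def, Option.bind_eq_some_iff] at hn
  obtain ⟨w, -, hw⟩ := hn
  split_ifs at hw with h
  exact (Option.some.inj hw ▸ h :)

end Crest.Agent.H5.SAT
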