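import Mathlib
import Crest.Agent.H5.SAT.E
import Crest.Agent.H5.SAT.Q
import Crest.Agent.H9.MP.T1a

/-! Correctness of the coded quantities. -/

set_option autoImplicit false

namespace Crest.Agent.H5.SAT

open Finset Crest.Agent.H9.MP
open scoped BigOperators

section code
variable {L X : Type*}

/-- digit coding of functions -/
def fe {l s : ℕ} (e : L ≃ Fin l) (v : X ≃ Fin s) : (L → X) ≃ Fin (s ^ l) :=
  (Equiv.arrowCongr e v).trans finFunctionFinEquiv

lemma dg_fe {l s : ℕ} (e : L ≃ Fin l) (v : X ≃ Fin s) (x : L → X) (m : L) :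
    dg s (fe e v x) (e m) = v (x m) := by
  have := finFunctionFinEquiv_symm_apply_val (fe e v x) (e m)
  unfold dg
  rw [← this]
  simp [fe]

lemma sum_code {M : Type*} [AddCommMonoid M] [Fintype X] {n : ℕ} (v : X ≃ Fin n) (G : ℕ → M) :
    ∑ x, G (v x) = ∑ c ∈ range n, G c := by
  rw [← Fin.sum_univ_eq_sum_range]; exact v.sum_comp fun i => G i

lemma prod_code {M : Type*} [CommMonoid M] [Fintype X] {n : ℕ} (v : X ≃ Fin n) (G : ℕ → M) :
    ∏ x, G (v x) = ∏ c ∈ range n, G c := by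
  rw [← Fin.prod_univ_eq_prod_range]; exact v.prod_comp fun i => G i

lemma av_code [Fintype X] {n : ℕ} (v : X ≃ Fin n) (G : ℕ → ℚ) :
    av (fun x => (G (v x) : ℝ)) = (((∑ c ∈ range n, G c) / (n : ℕ) : ℚ) : ℝ) := by
  unfold av
  rw [sum_code v fun c => (G c : ℝ), Fintype.card_congr v]
  simp

/-- coding of spins -/
def v2 : Bool ≃ Fin 2 := finTwoEquiv.symm

/-- coding of sign patterns -/
def v8 : (Fin 3 → Bool) ≃ Fin (2 ^ 3) := fe (Equiv.refl _) v2

lemma vi_eq (J s : Fin 3 → Bool) : vi J s = viN (v8 J) (v2 (s 0)) (v2 (s 1)) (v2 (s 2)) := by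
  have h0 : dg 2 (v8 J) 0 = v2 (J 0) := dg_fe (Equiv.refl _) v2 J 0
  have h1 : dg 2 (v8 J) 1 = v2 (J 1) := dg_fe (Equiv.refl _) v2 J 1
  have h2 : dg 2 (v8 J) 2 = v2 (J 2) := dg_fe (Equiv.refl _) v2 J 2
  unfold viN vi
  rw [h0, h1, h2]
  simp only [Fin.exists_fin_succ, Fin.succ_zero_eq_one, Fin.succ_one_eq_two, IsEmpty.exists_iff,
    or_false]
  generalize s 0 = a, s 1 = b, s 2 = c, J 0 = a', J 1 = b', J 2 = c'
  revert a b c a' b' c'
  decide

end code

lemma gE_eq (N m : ℕ) : gE N m = gQ N m := by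
  unfold gE gQ
  rw [← av_code (fe (Equiv.refl (Fin m)) v8), EL_univ,
    ← av_equiv (Equiv.arrowProdEquivProdArrow _ _ _).symm, av_prod, av_comm]
  congr 1; funext J
  rw [← av_code (fe (Equiv.refl (Fin m)) (fe (Equiv.refl (Fin 3)) (Equiv.refl (Fin N))))]
  congr 1; funext idx
  rw [Rat.cast_natCast]
  congr 1
  set l := List.ofFn ((Equiv.arrowProdEquivProdArrow (Fin m) (fun _ => Fin 3 → Fin N)
    (fun _ => Fin 3 → Bool)).symm (idx, J))
  have key : ∀ σ : Fin N → Bool, cs vw l σ = ∑ j ∈ range m,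
      viN (dg (2 ^ 3) (fe (Equiv.refl (Fin m)) v8 J) j)
      (dg 2 (fe (Equiv.refl _) v2 σ) (dg N (dg (N ^ 3) (fe (Equiv.refl (Fin m))
        (fe (Equiv.refl (Fin 3)) (Equiv.refl (Fin N))) idx) j) 0))
      (dg 2 (fe (Equiv.refl _) v2 σ) (dg N (dg (N ^ 3) (fe (Equiv.refl (Fin m))
        (fe (Equiv.refl (Fin 3)) (Equiv.refl (Fin N))) idx) j) 1))
      (dg 2 (fe (Equiv.refl _) v2 σ) (dg N (dg (N ^ 3) (fe (Equiv.refl (Fin m))
        (fe (Equiv.refl (Fin 3)) (Equiv.refl (Fin N))) idx) j) 2)) := fun σ => by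
    rw [← Fin.sum_univ_eq_sum_range]
    simp only [l, cs, List.map_ofFn, List.sum_ofFn, Finset.sum_apply]
    refine sum_congr rfl fun j _ => ?_
    have a1 := dg_fe (Equiv.refl (Fin m)) v8 J j
    have a2 := dg_fe (Equiv.refl (Fin m)) (fe (Equiv.refl (Fin 3)) (Equiv.refl (Fin N))) idx j
    have a3 := dg_fe (Equiv.refl (Fin 3)) (Equiv.refl (Fin N)) (idx j)
    have a4 := dg_fe (Equiv.refl (Fin N)) v2 σ
    simp only [Equiv.refl_apply] at a1 a2 a3 a4
    have b0 := a3 0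
    have b1 := a3 1
    have b2 := a3 2
    simp only [Fin.val_zero, Fin.val_one, Fin.val_two] at b0 b1 b2
    rw [a1, a2, b0, b1, b2, a4, a4, a4]
    exact vi_eq _ _
  apply le_antisymm
  · refine le_minR ?_ _ fun c hc => ?_
    · refine (emin_le _ fun _ => true).trans ((cs_le_length vw_le_one _ _).trans ?_)
      simp [l]
    · obtain ⟨σ, hσ⟩ := (fe (Equiv.refl (Fin N)) v2).surjective ⟨c, hc⟩
      have := key σ
      rw [hσ] at this
      exact (emin_le _ σ).trans this.le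
  · obtain ⟨σ, hσ⟩ := emin_mem (cs vw l)
    rw [← hσ, key]
    exact (minR_le _ _ _).2 _ (fe (Equiv.refl (Fin N)) v2 σ).2

lemma rho_pos {n : ℕ} (hn : 0 < n) : 0 < rho n := by unfold rho; positivity
lemma rho_le (n : ℕ) : rho n ≤ 1 := by
  unfold rho; rw [div_le_one (by positivity)]; exact_mod_cast n.le_succ

lemma dl_spec {n k : ℕ} (hn : 0 < n) (hk : 0 < k) {x : ℚ} (h0 : 0 < x) (h1 : x ≤ 1) :
    x ≤ rho n ^ (dl n k x * k) ∧ rho n ^ ((dl n k x + 1) * k) ≤ x := by
  refine ⟨Nat.findGreatest_spec (P := fun a => x ≤ rho n ^ (a * k)) (Nat.zero_le _) (by simpa),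
    ?_⟩
  by_cases h : dl n k x + 1 ≤ n * x.den
  · exact (not_le.1 (Nat.findGreatest_is_greatest (P := fun a => x ≤ rho n ^ (a * k))
      (Nat.lt_succ_self _) h)).le
  · have a1 : n * x.den ≤ (dl n k x + 1) * k := by nlinarith
    refine (pow_le_pow_of_le_one (rho_pos hn).le (rho_le n) a1).trans ?_
    have hn' : (0 : ℚ) < n := by exact_mod_cast hn
    have hd : (0 : ℚ) < x.den := by exact_mod_cast x.den_pos
    have a2 := one_add_mul_le_pow (a := 1 / (n : ℚ)) (by have : 0 < 1 / (n : ℚ) := by positivity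
                                                         linarith) (n * x.den)
    have a3 : rho n = (1 + 1 / (n : ℚ))⁻¹ := by unfold rho; push_cast; field_simp
    have a4 : (1 : ℚ) ≤ x * x.den := by
      rw [Rat.mul_den_eq_num]; exact_mod_cast Rat.num_pos.2 h0
    have a5 : ((n * x.den : ℕ) : ℚ) * (1 / n) = x.den := by push_cast; field_simp
    rw [a3, inv_pow, inv_le_comm₀ (by positivity) h0, inv_le_iff_one_le_mul₀ h0]
    nlinarith

lemma eU_pos {R j : ℕ} (hj : j < R) : 0 < eU R j := (exps_eU (by omega)).pos' j hj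

lemma rpow_eU {R j : ℕ} (hj : j < R) {ρ : ℝ} (hρ : 0 < ρ) (u : ℕ) :
    (ρ ^ (u * R)) ^ eU R j = ρ ^ (u * (R - j)) := by
  have hR : (R : ℝ) ≠ 0 := by exact_mod_cast (by omega : R ≠ 0)
  rw [← Real.rpow_natCast, ← Real.rpow_mul hρ.le, ← Real.rpow_natCast]
  congr 1
  unfold eU; push_cast [hj.le]; field_simp

lemma rpow_eU' {R j : ℕ} (hj : j < R) {ρ : ℝ} (hρ : 0 < ρ) (u : ℕ) :
    (ρ ^ (u * (R - j))) ^ (1 / eU R j) = ρ ^ (u * R) := by
  rw [← rpow_eU hj hρ, one_div, Real.rpow_rpow_inv (by positivity) (eU_pos hj).ne']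

lemma cT_spec {S : Type} [Fintype S] {n N R : ℕ} (hn : 0 < n) (hR : 0 < R) (v : S ≃ Fin N)
    {K : Ker S} (hK : IsKer K) {W : List S → ℝ} (hW : ∀ h, 0 < W h ∧ W h ≤ 1)
    {K' : List ℕ → ℕ → ℚ} {W' : List ℕ → ℚ}
    (eK : ∀ h x, K h x = K' (h.map fun y => (v y : ℕ)) (v x))
    (eW : ∀ h, W h = W' (h.map fun y => (v y : ℕ))) :
    ∀ j ≤ R, ∀ h : List S,
      (rho n : ℝ) ^ ((cT n N R K' W' j (h.map fun y => (v y : ℕ)) + (j + 1)) * R) ≤
        T (eU R) K j h W ∧
      T (eU R) K j h W ≤ (rho n : ℝ) ^ (cT n N R K' W' j (h.map fun y => (v y : ℕ)) * R) := by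
  have r0 : (0 : ℝ) < rho n := by exact_mod_cast rho_pos hn
  have r1 : (rho n : ℝ) ≤ 1 := by exact_mod_cast rho_le n
  intro j
  induction j with
  | zero =>
    intro _ h
    have := hW h
    rw [eW] at this
    have := dl_spec hn hR (by exact_mod_cast this.1) (by exact_mod_cast this.2 :
      W' (h.map fun y => (v y : ℕ)) ≤ 1)
    simp only [T, cT, eW]
    exact ⟨by exact_mod_cast this.2, by exact_mod_cast this.1⟩
  | succ j ih =>
    intro hj h
    have hj' : j < R := hj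
    set a : S → ℕ := fun x => cT n N R K' W' j ((x :: h).map fun y => (v y : ℕ))
    set q : ℚ := ∑ c ∈ range N, K' (h.map fun y => (v y : ℕ)) c *
      rho n ^ (cT n N R K' W' j (c :: h.map fun y => (v y : ℕ)) * (R - j))
    have e1 : (q : ℝ) = ∑ x, K h x * (rho n : ℝ) ^ (a x * (R - j)) := by
      simp only [q]
      rw [← sum_code v]
      push_cast
      simp only [eK, a, List.map_cons]
    have q0 : (0 : ℝ) < q := by rw [e1]; exact hK.sum_pos h fun _ => by positivity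
    have q1 : (q : ℝ) ≤ 1 := by
      rw [e1, ← hK.2 h]
      exact sum_le_sum fun x _ => mul_le_of_le_one_right (hK.1 _ _) (pow_le_one₀ r0.le r1)
    have s := dl_spec hn (show 0 < R - j by omega) (x := q) (by exact_mod_cast q0)
      (by exact_mod_cast q1)
    have s1 : (q : ℝ) ≤ (rho n : ℝ) ^ (dl n (R - j) q * (R - j)) := by exact_mod_cast s.1
    have s2 : (rho n : ℝ) ^ ((dl n (R - j) q + 1) * (R - j)) ≤ q := by exact_mod_cast s.2
    have he := eU_pos hj'
    change _ ^ ((dl n (R - j) q + (j + 1 + 1)) * R) ≤ (∑ x, K h x * T (eU R) K j (x :: h) W ^ eU R j) ^ (1 / eU R j)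
      ∧ (∑ x, K h x * T (eU R) K j (x :: h) W ^ eU R j) ^ (1 / eU R j) ≤ _ ^ (dl n (R - j) q * R)
    rw [← rpow_eU' hj' r0, ← rpow_eU' hj' r0]
    constructor
    · refine Real.rpow_le_rpow (by positivity) ?_ (by positivity)
      calc (rho n : ℝ) ^ ((dl n (R - j) q + (j + 1 + 1)) * (R - j))
          = (rho n : ℝ) ^ ((dl n (R - j) q + 1) * (R - j)) * (rho n : ℝ) ^ ((j + 1) * (R - j)) := by
            rw [← pow_add]; congr 1; ring
        _ ≤ q * (rho n : ℝ) ^ ((j + 1) * (R - j)) := by gcongr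
        _ ≤ _ := by
            rw [e1, sum_mul]
            refine sum_le_sum fun x _ => ?_
            rw [mul_assoc, ← pow_add, ← add_mul, ← rpow_eU hj' r0]
            exact mul_le_mul_of_nonneg_left
              (Real.rpow_le_rpow (by positivity) (ih hj'.le _).1 he.le) (hK.1 _ _)
    · refine Real.rpow_le_rpow (sum_nonneg fun x _ => mul_nonneg (hK.1 _ _) (Real.rpow_nonneg
        (T_nonneg hK _ _ fun l => (hW l).1.le) _)) (le_trans ?_ s1) (by positivity)
      rw [e1]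
      refine sum_le_sum fun x _ => ?_
      rw [← rpow_eU hj' r0]
      exact mul_le_mul_of_nonneg_left (Real.rpow_le_rpow
        (T_nonneg hK _ _ fun l => (hW l).1.le) (ih hj'.le _).2 he.le) (hK.1 _ _)

lemma log_bounds {n a R : ℕ} (hn : 0 < n) {t : ℝ} (h1 : (rho n : ℝ) ^ ((a + (R + 1)) * R) ≤ t)
    (h2 : t ≤ (rho n : ℝ) ^ (a * R)) :
    ((R * a : ℕ) : ℝ) / ((n + 1 : ℕ) : ℝ) ≤ -Real.log t ∧
      -Real.log t ≤ ((R * a : ℕ) : ℝ) / ((n + 1 : ℕ) : ℝ) * (((n + 1 : ℕ) : ℝ) / n) +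
        ((R * (R + 1) : ℕ) : ℝ) / n := by
  have r0 : (0 : ℝ) < rho n := by exact_mod_cast rho_pos hn
  have hn' : (0 : ℝ) < n := by exact_mod_cast hn
  have t0 : 0 < t := lt_of_lt_of_le (by positivity) h1
  have l1 := Real.log_le_log (by positivity) h1
  have l2 := Real.log_le_log t0 h2
  rw [Real.log_pow] at l1 l2
  have e : (rho n : ℝ) = n / (n + 1) := by unfold rho; push_cast; rfl
  have b1 : Real.log (rho n) ≤ -(1 / (n + 1)) := by
    refine (Real.log_le_sub_one_of_pos r0).trans (le_of_eq ?_)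
    rw [e]; field_simp; ring
  have b2 : -(1 / (n : ℝ)) ≤ Real.log (rho n) := by
    refine le_trans (le_of_eq ?_) (Real.one_sub_inv_le_log_of_pos r0)
    rw [e]; field_simp; ring
  have c1 := mul_le_mul_of_nonneg_left b1 (Nat.cast_nonneg (α := ℝ) (a * R))
  have c2 := mul_le_mul_of_nonneg_left b2 (Nat.cast_nonneg (α := ℝ) ((a + (R + 1)) * R))
  constructor
  · refine le_trans (le_of_eq ?_) (neg_le_neg (l2.trans c1))
    push_cast; field_simp
  · refine (neg_le_neg (c2.trans l1)).trans (le_of_eq ?_)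
    push_cast; field_simp

section trial
variable {S I : Type} [Fintype S] [Fintype I] {s i : ℕ}

/-- the kernel of a table -/
noncomputable def Kt (v : S ≃ Fin s) (t : List ℕ) : Ker S := fun h x =>
  (kN s t (h.map fun y => (v y : ℕ)) (v x) : ℝ)

/-- the spins of a table -/
def st (v : S ≃ Fin s) (w : I ≃ Fin i) (t : List ℕ) (x : I) (h : List S) : Bool :=
  v2.symm ⟨lk t (w x :: h.map fun y => (v y : ℕ)) % 2, Nat.mod_lt _ two_pos⟩

lemma isKer_Kt (hs : 0 < s) (v : S ≃ Fin s) (t : List ℕ) : IsKer (Kt v t) := by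
  refine ⟨fun h x => ?_, fun h => ?_⟩
  · unfold Kt kN; positivity
  · unfold Kt
    rw [sum_code v fun c => (kN s t (h.map fun y => (v y : ℕ)) c : ℝ), ← Rat.cast_sum]
    unfold kN
    rw [← sum_div, div_self, Rat.cast_one]
    exact (sum_pos (fun _ _ => by positivity) (nonempty_range_iff.2 hs.ne')).ne'

lemma gN_spec {L : Type} [Fintype L] [DecidableEq L] {l n R : ℕ} (hn : 0 < n) (hs : 0 < s)
    (hi : 0 < i) (hR : 0 < R) (v : S ≃ Fin s) (w : I ≃ Fin i) (e : L ≃ Fin l) (t1 t2 : List ℕ)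
    {W : (L → Bool) → ℝ} (hW : ∀ x, 0 < W x ∧ W x ≤ 1) {W' : (ℕ → ℕ) → ℚ}
    (eW : ∀ (x : L → Bool) (sp : ℕ → ℕ), (∀ m, sp (e m) = (v2 (x m) : ℕ)) → W x = W' sp) :
    (gN (n, s, i, R, t1, t2) l W' : ℝ) ≤ -Gprod (eU R) R (Kt v t1) (st v w t2) W ∧
      -Gprod (eU R) R (Kt v t1) (st v w t2) W ≤ gN (n, s, i, R, t1, t2) l W' *
        (((n + 1 : ℕ) : ℝ) / n) + ((R * (R + 1) : ℕ) : ℝ) / n := by
  have : Nonempty I := w.nonempty_congr.2 ⟨⟨0, hi⟩⟩
  have hm : ∀ (H : List (L → S)) (m : L),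
      (H.map fun y => (fe e v y : ℕ)).map (fun c => dg s c (e m)) =
        (H.map fun t => t m).map fun y => (v y : ℕ) := fun H m => by
    simp only [List.map_map]
    exact List.map_congr_left fun y _ => dg_fe e v y m
  have key := fun x : L → I => cT_spec hn hR (fe e v) ((isKer_Kt hs v t1).prodK L)
    (W := fun H => W fun m => st v w t2 (x m) (H.map fun t => t m)) (fun _ => hW _)
    (K' := pkN s t1 l) (W' := fun H => W' (spN s i t2 (fe e w x) H)) (fun H y => by
      unfold prodK pkN Kt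
      rw [← prod_code e, Rat.cast_prod]
      refine prod_congr rfl fun m _ => ?_
      rw [hm, dg_fe]) (fun H => eW _ _ fun m => by
      unfold spN st
      rw [hm, dg_fe, Equiv.apply_symm_apply]) R le_rfl []
  have k2 := fun x => log_bounds hn (key x).1 (key x).2
  have e1 : -Gprod (eU R) R (Kt v t1) (st v w t2) W = av fun x : L → I => -Real.log
      (T (eU R) (prodK L (Kt v t1)) R [] fun H => W fun m => st v w t2 (x m) (H.map fun t => t m)) := by
    unfold Gprod av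
    rw [Fintype.expect_eq_sum_div_card, sum_neg_distrib, neg_div]
  unfold gN
  dsimp only
  rw [← av_code (fe e w), e1, ← av_mul_right, ← av_const (X := L → I) (((R * (R + 1) : ℕ) : ℝ) / n),
    ← av_add]
  refine ⟨av_mono fun x => ?_, av_mono fun x => ?_⟩
  · rw [Rat.cast_div, Rat.cast_natCast, Rat.cast_natCast]; exact (k2 x).1
  · rw [Rat.cast_div, Rat.cast_natCast, Rat.cast_natCast]; exact (k2 x).2

end trial

end Crest.Agent.H5.SAT
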