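import Mathlib
import Crest.Agent.H5.SAT.R

/-! The upper certificate. -/

set_option autoImplicit false

namespace Crest.Agent.H5.SAT

open Finset Filter Topology MeasureTheory Crest.Agent.H9.MP Crest.ProbabilityR.Diluted
open scoped BigOperators

/-- normalised site weight -/
noncomputable def ws (b : ℕ) {k : ℕ} (J : Fin k → Fin 3 → Bool) (s : Fin k × Fin (3 - 1) → Bool) :
    ℝ := siteW (fun j => th b (J j)) 0 s / 2

lemma ws_eq (b : ℕ) {k : ℕ} (J : Fin k → Fin 3 → Bool) (s : Fin k × Fin (3 - 1) → Bool) :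
    ws b J s = (∑ ε : Bool, ((1 / 2 : ℝ) ^ b) ^
      ∑ j, vi (J j) (snocS (p := 3) (fun ℓ => s (j, ℓ)) ε)) / 2 := by
  simp only [ws, siteW, zero_mul, zero_add, Real.exp_sum, exp_th, prod_pow_eq_pow_sum]

lemma ws_mem (b : ℕ) {k : ℕ} (J : Fin k → Fin 3 → Bool) (s : Fin k × Fin (3 - 1) → Bool) :
    ((1 / 2 : ℝ) ^ b) ^ k ≤ ws b J s ∧ ws b J s ≤ 1 := by
  have h0 : (0 : ℝ) ≤ (1 / 2) ^ b := by positivity
  have h1 : (1 / 2 : ℝ) ^ b ≤ 1 := pow_le_one₀ (by norm_num) (by norm_num)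
  have h2 : ∀ ε, ((1 / 2 : ℝ) ^ b) ^ k ≤ ((1 / 2 : ℝ) ^ b) ^
      ∑ j, vi (J j) (snocS (p := 3) (fun ℓ => s (j, ℓ)) ε) := fun ε =>
    pow_le_pow_of_le_one h0 h1 ((sum_le_sum fun j _ => vi_le_one _ _).trans (by simp))
  have h3 : ∀ ε, ((1 / 2 : ℝ) ^ b) ^
      ∑ j, vi (J j) (snocS (p := 3) (fun ℓ => s (j, ℓ)) ε) ≤ 1 := fun ε => pow_le_one₀ h0 h1
  rw [ws_eq, Fintype.sum_bool]
  constructor <;> linarith [h2 true, h2 false, h3 true, h3 false]

lemma ws_pos (b : ℕ) {k : ℕ} (J : Fin k → Fin 3 → Bool) (s : Fin k × Fin (3 - 1) → Bool) :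
    0 < ws b J s ∧ ws b J s ≤ 1 :=
  ⟨lt_of_lt_of_le (by positivity) (ws_mem b J s).1, (ws_mem b J s).2⟩

lemma we_pos (b : ℕ) (J s : Fin 3 → Bool) :
    0 < Real.exp (th b J s) ∧ Real.exp (th b J s) ≤ 1 :=
  ⟨Real.exp_pos _, by
    rw [exp_th]; exact pow_le_one₀ (by positivity) (pow_le_one₀ (by norm_num) (by norm_num))⟩

section gen
variable {S I : Type} [Fintype S] [Fintype I]

/-- site term -/
noncomputable def Xr (b R : ℕ) (K : Ker S) (σ : I → List S → Bool) (k : ℕ) : ℝ :=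
  av fun J : Fin k → Fin 3 → Bool => -Gprod (eU R) R K σ (ws b J)

/-- edge term -/
noncomputable def Yr (b R : ℕ) (K : Ker S) (σ : I → List S → Bool) : ℝ :=
  av fun J : Fin 3 → Bool => -Gprod (eU R) R K σ fun s => Real.exp (th b J s)

lemma Xr_mem [Nonempty I] (b R : ℕ) {K : Ker S} (hK : IsKer K) (σ : I → List S → Bool) (k : ℕ) :
    0 ≤ Xr b R K σ k ∧ Xr b R K σ k ≤ b * (1 + k) := by
  have p0 : (0 : ℝ) < ((1 / 2 : ℝ) ^ b) ^ k := by positivity
  have key := fun (J : Fin k → Fin 3 → Bool) (x : Fin k × Fin (3 - 1) → I) =>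
    T_mem (e := eU R) (hK.prodK (Fin k × Fin (3 - 1))) R (fun _ => eU_pos) []
      (W := fun H => ws b J fun m => σ (x m) (H.map fun t => t m)) (C := 1) p0.le
      fun _ => ws_mem b J _
  constructor
  · refine av_nonneg fun J => neg_nonneg.2 (expect_le univ_nonempty fun x _ => ?_)
    exact Real.log_nonpos (p0.le.trans (key J x).1) (key J x).2
  · refine (av_mono fun J => ?_).trans (av_const _).le
    rw [neg_le]
    refine le_expect univ_nonempty fun x _ => le_trans ?_ (Real.log_le_log p0 (key J x).1)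
    rw [Real.log_pow, Real.log_pow, one_div, Real.log_inv]
    have := Real.log_two_lt_d9
    have h1 : (0 : ℝ) ≤ b := Nat.cast_nonneg _
    have h2 : (0 : ℝ) ≤ k := Nat.cast_nonneg _
    nlinarith [mul_nonneg h1 h2]

lemma summable_X [Nonempty I] (b R : ℕ) {K : Ker S} (hK : IsKer K) (σ : I → List S → Bool)
    {lam : ℝ} (h : 0 ≤ lam) : Summable fun k => poissonWeight lam k * Xr b R K σ k :=
  summable_poi h (C := b) fun k => by
    rw [abs_of_nonneg (Xr_mem b R hK σ k).1]; exact (Xr_mem b R hK σ k).2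

lemma Bfin_eq [Nonempty I] (b R : ℕ) {K : Ker S} (hK : IsKer K) (σ : I → List S → Bool) {c : ℝ}
    (hc : 0 ≤ c) : Bfin 3 c (mu b) nu (eU R) R K σ =
      Real.log 2 - ∑' k, poissonWeight (c * 3) k * Xr b R K σ k + c * 2 * Yr b R K σ := by
  have e1 : ∀ k : ℕ, ∫ θs, ∫ h, Gprod (eU R) R K σ (siteW θs h) ∂nu
      ∂(Measure.pi fun _ : Fin k => mu b) = Real.log 2 - Xr b R K σ k := fun k => by
    unfold mu Xr
    rw [coin3_unif.integral_pi, ← av_const (X := Fin k → Fin 3 → Bool) (Real.log 2), ← av_sub]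
    congr 1; funext J
    rw [nu_eq, integral_dirac, sub_neg_eq_add]
    unfold Gprod
    rw [← expect_const (s := (univ : Finset (Fin k × Fin (3 - 1) → I))) univ_nonempty (Real.log 2),
      ← expect_add_distrib]
    refine expect_congr rfl fun x _ => ?_
    rw [← Real.log_mul two_ne_zero (T_pos (hK.prodK _) R (fun _ => eU_pos) []
      fun _ => (ws_pos b J _).1).ne', ← T_const_mul (hK.prodK _) R (fun _ => eU_pos) []
      (fun _ => (ws_pos b J _).1.le) zero_le_two]
    congr 2; funext H; unfold ws; ring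
  have e2 : ∫ θ, Gprod (eU R) R K σ (fun s : Fin 3 → Bool => Real.exp (θ s)) ∂mu b =
      -Yr b R K σ := by
    unfold mu Yr
    rw [coin3_unif.integral_map]
    simp [av, neg_div]
  unfold Bfin
  simp only [e1, e2, mul_sub]
  rw [Summable.tsum_sub ((hasSum_poi _).summable.mul_right _)
    (summable_X b R hK σ (by positivity)), tsum_mul_right, (hasSum_poi _).tsum_eq]
  push_cast; ring

variable {s i : ℕ}

lemma xS_spec {n R : ℕ} (hn : 0 < n) (hs : 0 < s) (hi : 0 < i) (hR : 0 < R) (v : S ≃ Fin s)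
    (w : I ≃ Fin i) (t1 t2 : List ℕ) (b k : ℕ) :
    (xS (n, s, i, R, t1, t2) b k : ℝ) ≤ Xr b R (Kt v t1) (st v w t2) k ∧
      Xr b R (Kt v t1) (st v w t2) k ≤ xS (n, s, i, R, t1, t2) b k *
        (((n + 1 : ℕ) : ℝ) / n) + ((R * (R + 1) : ℕ) : ℝ) / n := by
  have key := fun J : Fin k → Fin 3 → Bool => gN_spec (l := k * 2) hn hs hi hR v w
    (finProdFinEquiv : Fin k × Fin (3 - 1) ≃ Fin (k * 2)) t1 t2 (ws_pos b J)
    (W' := wS b k (fe (Equiv.refl (Fin k)) v8 J)) fun x sp h => by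
      rw [ws_eq]
      unfold wS
      rw [← sum_code v2]
      push_cast
      congr 1
      refine sum_congr rfl fun ε _ => ?_
      congr 1
      rw [← Fin.sum_univ_eq_sum_range]
      refine sum_congr rfl fun j _ => ?_
      have a1 := dg_fe (Equiv.refl (Fin k)) v8 J j
      have a2 : sp (0 + 2 * j) = v2 (x (j, 0)) := h (j, 0)
      have a3 : sp (1 + 2 * j) = v2 (x (j, 1)) := h (j, 1)
      rw [show dg 8 _ j = _ from a1, a2, a3, vi_eq]
      rfl
  unfold xS Xr
  rw [← av_code (fe (Equiv.refl (Fin k)) v8), ← av_mul_right,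
    ← av_const (X := Fin k → Fin 3 → Bool) (((R * (R + 1) : ℕ) : ℝ) / n), ← av_add]
  exact ⟨av_mono fun J => (key J).1, av_mono fun J => (key J).2⟩

lemma yE_spec {n R : ℕ} (hn : 0 < n) (hs : 0 < s) (hi : 0 < i) (hR : 0 < R) (v : S ≃ Fin s)
    (w : I ≃ Fin i) (t1 t2 : List ℕ) (b : ℕ) :
    (yE (n, s, i, R, t1, t2) b : ℝ) ≤ Yr b R (Kt v t1) (st v w t2) ∧
      Yr b R (Kt v t1) (st v w t2) ≤ yE (n, s, i, R, t1, t2) b *
        (((n + 1 : ℕ) : ℝ) / n) + ((R * (R + 1) : ℕ) : ℝ) / n := by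
  have key := fun J : Fin 3 → Bool => gN_spec (l := 3) hn hs hi hR v w
    (Equiv.refl (Fin 3)) t1 t2 (we_pos b J) (W' := wE b (v8 J)) fun x sp h => by
      rw [exp_th]
      unfold wE
      push_cast
      have a0 : sp 0 = v2 (x 0) := h 0
      have a1 : sp 1 = v2 (x 1) := h 1
      have a2 : sp 2 = v2 (x 2) := h 2
      rw [a0, a1, a2, vi_eq]
  unfold yE Yr
  rw [← av_code v8, ← av_mul_right,
    ← av_const (X := Fin 3 → Bool) (((R * (R + 1) : ℕ) : ℝ) / n), ← av_add]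
  exact ⟨av_mono fun J => (key J).1, av_mono fun J => (key J).2⟩

end gen

lemma poiL_eq (n : ℕ) (lam : ℚ) (k : ℕ) :
    (poiL n lam k : ℝ) = (1 - (lam : ℝ) / n) ^ n * ((lam : ℝ) ^ k / k.factorial) := by
  unfold poiL
  push_cast
  rw [prod_div_distrib, prod_const, card_range, ← prod_range_add_one_eq_factorial]
  push_cast; rfl

lemma U_sound {z : Tr} {k0 b : ℕ} {c : ℚ} (hc : 0 ≤ c) (h : UC z k0 b c) :
    ∃ (R : ℕ) (S I : Type) (_ : Fintype S) (_ : Fintype I) (_ : Nonempty I) (K : Ker S)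
      (σ : I → List S → Bool), 0 < R ∧ IsKer K ∧ Bfin 3 c (mu b) nu (eU R) R K σ < -1 := by
  obtain ⟨n, s, i, R, t1, t2⟩ := z
  obtain ⟨hn, hs, hi, hR, h1, h2⟩ := h
  dsimp only at hn hs hi hR h1
  have : Nonempty (Fin i) := ⟨⟨0, hi⟩⟩
  have hK := isKer_Kt hs (Equiv.refl _) t1
  have hc' : (0 : ℝ) ≤ c := by exact_mod_cast hc
  have h1' : (c : ℝ) * 3 ≤ n := by exact_mod_cast h1
  refine ⟨R, Fin s, Fin i, inferInstance, inferInstance, inferInstance, Kt (Equiv.refl _) t1,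
    st (Equiv.refl _) (Equiv.refl _) t2, hR, hK, ?_⟩
  rw [Bfin_eq b R hK _ hc']
  have a1 := (summable_X b R hK (st (Equiv.refl _) (Equiv.refl (Fin i)) t2)
    (lam := c * 3) (by positivity)).sum_le_tsum (range k0) fun k _ =>
      mul_nonneg (poi_nonneg (by positivity) k) (Xr_mem b R hK _ k).1
  have a2 : ∑ k ∈ range k0, (poiL n (c * 3) k : ℝ) * xS (n, s, i, R, t1, t2) b k ≤
      ∑ k ∈ range k0, poissonWeight (c * 3) k *
        Xr b R (Kt (Equiv.refl (Fin s)) t1) (st (Equiv.refl _) (Equiv.refl (Fin i)) t2) k := by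
    refine sum_le_sum fun k _ => ?_
    have b1 : (0 : ℝ) ≤ 1 - c * 3 / n := by
      rw [sub_nonneg, div_le_one (by exact_mod_cast hn)]; exact h1'
    rw [poiL_eq]
    push_cast
    refine (mul_le_mul_of_nonneg_left (xS_spec hn hs hi hR (Equiv.refl _) (Equiv.refl _) t1 t2 b k).1
      (by positivity)).trans (mul_le_mul_of_nonneg_right ?_ (Xr_mem b R hK _ k).1)
    rw [poissonWeight, mul_div_assoc (Real.exp _)]
    exact mul_le_mul_of_nonneg_right (Real.one_sub_div_pow_le_exp_neg h1') (by positivity)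
  have a3 := mul_le_mul_of_nonneg_left (yE_spec hn hs hi hR (Equiv.refl _) (Equiv.refl _) t1 t2 b).2
    (by positivity : (0 : ℝ) ≤ c * 2)
  have a4 : ((uQ (n, s, i, R, t1, t2) k0 b c + 1 : ℚ) : ℝ) < 0 := by exact_mod_cast h2
  unfold uQ at a4
  have := Real.log_two_lt_d9
  push_cast at a4 a3 a2
  linarith

/-- tables -/
def tab (f : List ℕ → ℕ) (n : ℕ) : List ℕ :=
  (List.range n).map fun z => f ((Encodable.decode z).getD [])

lemma lk_tab (f : ℕ → List ℕ → ℕ) (l : List ℕ) : ∀ᶠ n in atTop, lk (tab (f n) n) l = f n l := by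
  filter_upwards [eventually_gt_atTop (Encodable.encode l)] with n hn
  unfold lk tab
  rw [List.getD_eq_getElem _ _ (by simpa using hn)]
  simp

lemma T_tendsto {S : Type} [Fintype S] {e : ℕ → ℝ} {K : ℕ → Ker S} {K0 : Ker S}
    (hK : ∀ h x, Tendsto (fun n => K n h x) atTop (𝓝 (K0 h x))) {W : ℕ → List S → ℝ}
    {W0 : List S → ℝ} (hW : ∀ h, Tendsto (fun n => W n h) atTop (𝓝 (W0 h))) :
    ∀ j, (∀ i < j, 0 < e i) → ∀ h,
      Tendsto (fun n => T e (K n) j h (W n)) atTop (𝓝 (T e K0 j h W0))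
  | 0, _, h => hW h
  | j + 1, he, h => by
    have := he j j.lt_succ_self
    exact (tendsto_finsetSum _ fun x _ => (hK h x).mul ((T_tendsto hK hW j
      (fun i hi => he i (by omega)) _).rpow_const (Or.inr this.le))).rpow_const
      (Or.inr (by positivity))

lemma av_tendsto {X : Type*} [Fintype X] {f : ℕ → X → ℝ} {g : X → ℝ}
    (h : ∀ x, Tendsto (fun n => f n x) atTop (𝓝 (g x))) :
    Tendsto (fun n => av (f n)) atTop (𝓝 (av g)) :=
  (tendsto_finsetSum _ fun x _ => h x).div_const _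

lemma Gprod_tendsto {S I L : Type} [Fintype S] [Fintype I] [Fintype L] [DecidableEq L] {R : ℕ}
    {K : ℕ → Ker S} {K0 : Ker S} (hK0 : IsKer K0)
    (hK : ∀ h x, Tendsto (fun n => K n h x) atTop (𝓝 (K0 h x))) {σ : ℕ → I → List S → Bool}
    {σ0 : I → List S → Bool} (hσ : ∀ x h, ∀ᶠ n in atTop, σ n x h = σ0 x h)
    {W : (L → Bool) → ℝ} (hW : ∀ x, 0 < W x) :
    Tendsto (fun n => Gprod (eU R) R (K n) (σ n) W) atTop (𝓝 (Gprod (eU R) R K0 σ0 W)) := by
  simp only [Gprod, Fintype.expect_eq_sum_div_card]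
  refine (tendsto_finsetSum _ fun x _ => Tendsto.log ?_ ?_).div_const _
  · refine T_tendsto (fun H y => tendsto_finsetProd _ fun m _ => hK _ _) (fun H => ?_) R
      (fun _ => eU_pos) []
    refine tendsto_const_nhds.congr' ?_
    filter_upwards [eventually_all.2 fun m => hσ (x m) (H.map fun t => t m)] with n hn
    simp only [hn]
  · exact (T_pos (hK0.prodK _) R (fun _ => eU_pos) [] fun _ => hW _).ne'

lemma squeeze {a x : ℕ → ℝ} {x0 C : ℝ} (hx : Tendsto x atTop (𝓝 x0))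
    (h : ∀ n, 0 < n → a n ≤ x n ∧ x n ≤ a n * (((n + 1 : ℕ) : ℝ) / n) + C / n) :
    Tendsto a atTop (𝓝 x0) ∧
      Tendsto (fun n => a n * (((n + 1 : ℕ) : ℝ) / n) + C / n) atTop (𝓝 x0) := by
  have h1 : Tendsto (fun n : ℕ => C / (n : ℝ)) atTop (𝓝 0) := tendsto_const_div_atTop_nhds_zero_nat C
  have h2 : Tendsto (fun n : ℕ => ((n + 1 : ℕ) : ℝ) / n) atTop (𝓝 1) := by
    have := (tendsto_const_div_atTop_nhds_zero_nat (1 : ℝ)).const_add 1
    rw [add_zero] at this
    refine this.congr' ?_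
    filter_upwards [eventually_gt_atTop 0] with n hn
    have : (n : ℝ) ≠ 0 := by exact_mod_cast hn.ne'
    push_cast; field_simp
  have h3 : Tendsto a atTop (𝓝 x0) := by
    have := (hx.sub h1).div h2 one_ne_zero
    rw [sub_zero, div_one] at this
    refine tendsto_of_tendsto_of_tendsto_of_le_of_le' this hx ?_ ?_
    · filter_upwards [eventually_gt_atTop 0] with n hn
      have : (0 : ℝ) < n := by exact_mod_cast hn
      simp only [Pi.div_apply]
      rw [div_le_iff₀ (by positivity)]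
      linarith [(h n hn).2]
    · filter_upwards [eventually_gt_atTop 0] with n hn using (h n hn).1
  refine ⟨h3, ?_⟩
  simpa using (h3.mul h2).add h1

lemma U_complete {R : ℕ} {S I : Type} [Fintype S] [Fintype I] [Nonempty I] {K : Ker S}
    {σ : I → List S → Bool} (hR : 0 < R) (hK : IsKer K) {b : ℕ} {c : ℚ} (hc : 0 ≤ c)
    (h : Bfin 3 c (mu b) nu (eU R) R K σ < -(3 / 2)) : ∃ z k0, UC z k0 b c := by
  have hc' : (0 : ℝ) ≤ c := by exact_mod_cast hc
  have : Nonempty S := by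
    by_contra h0
    have := hK.2 []
    rw [not_nonempty_iff] at h0
    simp at this
  have hs : 0 < Fintype.card S := Fintype.card_pos
  have hi : 0 < Fintype.card I := Fintype.card_pos
  set v := Fintype.equivFin S
  set w := Fintype.equivFin I
  obtain ⟨u, hu⟩ : ∃ u : ℕ → S, ∀ x, u (v x) = x :=
    ⟨_, Function.leftInverse_invFun (f := fun x => (v x : ℕ)) (Fin.val_injective.comp v.injective)⟩
  obtain ⟨u', hu'⟩ : ∃ u : ℕ → I, ∀ x, u (w x) = x :=
    ⟨_, Function.leftInverse_invFun (f := fun x => (w x : ℕ)) (Fin.val_injective.comp w.injective)⟩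
  have hm : ∀ h : List S, (h.map fun y => (v y : ℕ)).map u = h := fun h => by
    simp [List.map_map, Function.comp_def, hu]
  let t1 : ℕ → List ℕ := fun n => tab (fun l => ⌊K (l.tail.map u) (u (l.headD 0)) * n⌋₊) n
  let t2 : ℕ → List ℕ := fun n => tab (fun l => v2 (σ (u' (l.headD 0)) (l.tail.map u))) n
  have k1 : ∀ h x, Tendsto (fun n => ((lk (t1 n) (v x :: h.map fun y => (v y : ℕ)) + 1 : ℕ) : ℝ) / n)
      atTop (𝓝 (K h x)) := fun h x => by
    have := ((tendsto_nat_floor_mul_div_atTop (hK.1 h x)).comp tendsto_natCast_atTop_atTop).add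
      (tendsto_const_div_atTop_nhds_zero_nat (1 : ℝ))
    rw [add_zero] at this
    refine this.congr' ?_
    filter_upwards [lk_tab (fun n l => ⌊K (l.tail.map u) (u (l.headD 0)) * n⌋₊)
      (v x :: h.map fun y => (v y : ℕ))] with n hn
    simp only [t1, hn, List.tail_cons, List.headD_cons, hm, hu, Function.comp]
    push_cast; ring
  have k2 : ∀ h x, Tendsto (fun n => Kt v (t1 n) h x) atTop (𝓝 (K h x)) := fun h x => by
    have := (k1 h x).div (tendsto_finsetSum univ fun y _ => k1 h y) (by rw [hK.2]; norm_num)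
    rw [hK.2, div_one] at this
    refine this.congr' ?_
    filter_upwards [eventually_gt_atTop 0] with n hn
    have : (n : ℝ) ≠ 0 := by exact_mod_cast hn.ne'
    simp only [Pi.div_apply, Kt, kN]
    rw [← sum_code v, ← sum_div, div_div_div_cancel_right₀ this]
    push_cast; rfl
  have k3 : ∀ x h, ∀ᶠ n in atTop, st v w (t2 n) x h = σ x h := fun x h => by
    filter_upwards [lk_tab (fun n l => v2 (σ (u' (l.headD 0)) (l.tail.map u)))
      (w x :: h.map fun y => (v y : ℕ))] with n hn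
    unfold st
    rw [Equiv.symm_apply_eq, Fin.ext_iff]
    simp only [t2, hn, List.tail_cons, List.headD_cons, hm, hu']
    exact Nat.mod_eq_of_lt (Fin.is_lt _)
  have k4 : ∀ k, Tendsto (fun n => (xS (n, _, _, R, t1 n, t2 n) b k : ℝ)) atTop
      (𝓝 (Xr b R K σ k)) := fun k =>
    (squeeze (av_tendsto fun J => (Gprod_tendsto hK k2 k3 fun x => (ws_pos b J x).1).neg)
      fun n hn => xS_spec hn hs hi hR v w (t1 n) (t2 n) b k).1
  have k5 := (squeeze (av_tendsto fun J => (Gprod_tendsto hK k2 k3 fun x => (we_pos b J x).1).neg)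
      fun n hn => yE_spec hn hs hi hR v w (t1 n) (t2 n) b).2
  have k6 : ∀ k, Tendsto (fun n => (poiL n (c * 3) k : ℝ)) atTop
      (𝓝 (poissonWeight (c * 3) k)) := fun k => by
    simp only [poiL_eq, poissonWeight, mul_div_assoc]
    push_cast
    refine Tendsto.mul_const _ ?_
    simpa [sub_eq_add_neg, neg_div] using Real.tendsto_one_add_div_pow_exp (-((c : ℝ) * 3))
  rw [Bfin_eq b R hK _ hc'] at h
  have l2 := Real.log_two_gt_d9
  obtain ⟨k0, hk0⟩ := ((summable_X b R hK σ (lam := c * 3) (by positivity)).hasSum.tendsto_sum_nat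
    |>.eventually (lt_mem_nhds (a := 2 + c * 2 * Yr b R K σ) (by linarith))).exists
  have k7 := (((tendsto_finsetSum (range k0) fun k _ => (k6 k).mul (k4 k)).const_sub 1).add
    (k5.const_mul ((c : ℝ) * 2))).add_const 1
  have k8 := k7.eventually (gt_mem_nhds (a := 0) (by unfold Yr at hk0; linarith))
  obtain ⟨n, n1, n2, n3⟩ := (k8.and ((eventually_gt_atTop 0).and
    (tendsto_natCast_atTop_atTop (R := ℚ) |>.eventually (eventually_ge_atTop (c * 3))))).exists
  refine ⟨(n, _, _, R, t1 n, t2 n), k0, n2, hs, hi, hR, n3, ?_⟩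
  rw [← Rat.cast_lt (K := ℝ)]
  unfold uQ
  push_cast at n1 ⊢
  exact n1

end Crest.Agent.H5.SAT
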